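import Vale.Agent.P200.B.SDefs
import Vale.Agent.P200.Groebner

/-! Working definitions for the comparison of linear syzygies. -/

open Module TensorProduct

namespace Vale.Agent.P200.B

universe u

/-- exponent vectors -/
abbrev Mn (n : ℕ) := Fin n →₀ ℕ

section

variable {D M : Type*} [Ring D] [AddCommGroup M] [Module D M] {n : ℕ}

/-- dimension of the cycles in `Λ^p ⊗ W` -/
noncomputable def lam (m : Fin n → M →ₗ[D] M) (W : Submodule D M) (p : ℕ) : ℕ :=
  finrank D ↥(ch W p ⊓ LinearMap.ker (kd m))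

/-- dimension of the chains in `Λ^p ⊗ W'` whose boundary has components in `W` -/
noncomputable def mu (m : Fin n → M →ₗ[D] M) (W' W : Submodule D M) (p : ℕ) : ℕ :=
  finrank D ↥(ch W' p ⊓ (Submodule.pi Set.univ fun _ => W).comap (kd m))

/-- exterior multiplication by `e_j` -/
def wedge (j : Fin n) (u : Finset (Fin n) → M) : Finset (Fin n) → M := fun T =>
  if j ∈ T then ((-1 : ℤ) ^ ((T.erase j).filter (· < j)).card) • u (T.erase j) else 0

end

variable {n : ℕ}

/-- multiplication by a variable -/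
noncomputable def sh (D : Type*) [Ring D] (i : Fin n) : (Mn n →₀ D) →ₗ[D] (Mn n →₀ D) :=
  Finsupp.lmapDomain D D (· + Finsupp.single i 1)

/-- the degree `e` part -/
def dg (A : Set (Mn n)) (e : ℕ) : Set (Mn n) := {α | α ∈ A ∧ α.degree = e}

/-- number of members of degree `e` -/
noncomputable def cnt (A : Set (Mn n)) (e : ℕ) : ℕ := (dg A e).ncard

/-- span of the monomials of degree `e` -/
noncomputable def sp (D : Type*) [Ring D] (A : Set (Mn n)) (e : ℕ) : Submodule D (Mn n →₀ D) :=
  Finsupp.supported D D (dg A e)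

/-- linear syzygies of a set of monomials of degree `e` -/
noncomputable def lamM (D : Type*) [Ring D] (A : Set (Mn n)) (p e : ℕ) : ℕ :=
  lam (sh D) (sp D A e) p

/-- the degree `e` part of an ideal -/
noncomputable def pI {K : Type*} [Field K] (I : Ideal (MvPolynomial (Fin n) K)) (e : ℕ) :
    Submodule K (MvPolynomial (Fin n) K) :=
  I.restrictScalars K ⊓ MvPolynomial.homogeneousSubmodule (Fin n) K e

/-- linear syzygies of the degree `e` part of an ideal -/
noncomputable def lamI {K : Type*} [Field K] (I : Ideal (MvPolynomial (Fin n) K)) (p e : ℕ) : ℕ :=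
  lam (fun i => LinearMap.mulLeft K (MvPolynomial.X i : MvPolynomial (Fin n) K)) (pI I e) p

/-- the monomials in the ideal of the pure powers -/
def Pb (a : Fin n → ℕ) : Set (Mn n) := {α | ∃ i, a i ≤ α i}

/-- shadow together with the pure powers -/
def shp (a : Fin n → ℕ) (A : Set (Mn n)) : Set (Mn n) :=
  {γ | γ ∈ Pb a ∨ ∃ α ∈ A, ∃ i, γ = α + Finsupp.single i 1}

/-- lex-plus-powers in degree `e` -/
def LexC (a : Fin n → ℕ) (e : ℕ) (L : Set (Mn n)) : Prop :=
  dg (Pb a) e ⊆ L ∧ ∀ α β : Mn n, α.degree = e → β.degree = e → α ∈ L → α ∉ Pb a →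
    toLex α ≤ toLex β → β ∈ L

/-- append the exponent of a last variable -/
noncomputable def sn (β : Mn n) (w : ℕ) : Mn (n + 1) :=
  Finsupp.equivFunOnFinite.symm (Fin.snoc (α := fun _ => ℕ) β w)

/-- the layer of exponent `w` of the last variable -/
def lay (A : Set (Mn (n + 1))) (w : ℕ) : Set (Mn n) := {β | sn β w ∈ A}

/-- stability in degree `e` with respect to the variable `z`, below the exponent `b` -/
def Stable (z : Fin n) (b e : ℕ) (A : Set (Mn n)) : Prop :=
  ∀ α ∈ A, α.degree = e → 0 < α z → α z < b → ∀ j,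
    α - Finsupp.single z 1 + Finsupp.single j 1 ∈ A

/-- a monomial order, without the requirement on `0` -/
def IsKey {B : Type*} [LinearOrder B] (κ : Mn n → B) : Prop :=
  Function.Injective κ ∧ ∀ α β t, κ (α + t) < κ (β + t) ↔ κ α < κ β

/-- leading exponents -/
def inS {D ι B : Type*} [Ring D] [LinearOrder B] (κ : ι → B) (U : Submodule D (ι →₀ D)) :
    Set ι := {α | ∃ u ∈ U, u α ≠ 0 ∧ ∀ β, κ α < κ β → u β = 0}

/-- the products `(X + c_{k-1}) ⋯ (X + c₀)` -/
noncomputable def piP {D : Type*} [Ring D] (c : ℕ → D) : ℕ → Polynomial D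
  | 0 => 1
  | k + 1 => (Polynomial.X + Polynomial.C (c k)) * piP c k

/-- the distraction `x^α z^k ↦ x^α π_k(z, x_j)` -/
noncomputable def dist {D : Type*} [Ring D] (z j : Fin n) (c : ℕ → D) :
    (Mn n →₀ D) →ₗ[D] (Mn n →₀ D) :=
  Finsupp.linearCombination D fun α => ∑ k ∈ Finset.range (α z + 1),
    Finsupp.single (α - Finsupp.single z k + Finsupp.single j k) ((piP c (α z)).coeff (α z - k))

/-- the sum of the exponents of `z` over the degree `e` part -/
noncomputable def zs (z : Fin n) (A : Set (Mn n)) (e : ℕ) : ℕ :=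
  ∑ k ∈ Finset.range e, cnt {α | α ∈ A ∧ k < α z} e

/-- commuting linear coordinates over a division algebra in which the ideal has the pure powers
as leading monomials -/
def Frame (K : Type u) [Field K] {c : ℕ} (hc : c ≤ n) (a : Fin c → ℕ)
    (I : Ideal (MvPolynomial (Fin n) K)) : Prop :=
  ∃ (D : Type u) (_ : DivisionRing D) (_ : Algebra K D)
    (Z : Fin n → D ⊗[K] MvPolynomial (Fin n) K)
    (ψ : MvPolynomial (Fin n) K →ₐ[K] D ⊗[K] MvPolynomial (Fin n) K),
    (∀ i, Z i ∈ (MvPolynomial.homogeneousSubmodule (Fin n) K 1).baseChange D) ∧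
    (∀ i, ψ (MvPolynomial.X i) = Z i) ∧
    (MvPolynomial.homogeneousSubmodule (Fin n) K 1).baseChange D ≤
      Submodule.span D (Set.range Z) ∧
    ∀ i : Fin c, ∃ v : Mn n →₀ D, (∀ β ∈ v.support, β.degree = a i) ∧
      Finsupp.linearCombination D (fun β => ψ (MvPolynomial.monomial β 1)) v ∈
        (pI I (a i)).baseChange D ∧
      v (Finsupp.single (Fin.castLE hc i) (a i)) ≠ 0 ∧
      ∀ β ∈ v.support, β = Finsupp.single (Fin.castLE hc i) (a i) ∨
        ∃ j, Fin.castLE hc i < j ∧ β j ≠ 0

end Vale.Agent.P200.B
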