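import Vale.Agent.P200.B.K0

/-! Basic properties of the distraction. -/

open Module Finset Polynomial

namespace Vale.Agent.P200.B

universe u

variable {D : Type*} [Ring D] {n : ℕ}

theorem d1_zero (c : ℕ → D) (k : ℕ) : (piP c (k + 1)).coeff 0 = c k * (piP c k).coeff 0 := by
  rw [piP, add_mul, coeff_add, coeff_C_mul, coeff_X_mul_zero, zero_add]

theorem d1_succ (c : ℕ → D) (k i : ℕ) :
    (piP c (k + 1)).coeff (i + 1) = (piP c k).coeff i + c k * (piP c k).coeff (i + 1) := by
  rw [piP, add_mul, coeff_add, coeff_C_mul, coeff_X_mul]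

theorem d1_gt (c : ℕ → D) {k i : ℕ} (h : k < i) : (piP c k).coeff i = 0 := by
  induction k generalizing i with
  | zero => rw [piP, coeff_one, if_neg h.ne']
  | succ k ih =>
    obtain ⟨i, rfl⟩ : ∃ i', i = i' + 1 := ⟨i - 1, by omega⟩
    rw [d1_succ, ih (by omega), ih (by omega), mul_zero, add_zero]

theorem piP_coeff_self (c : ℕ → D) (k : ℕ) : (piP c k).coeff k = 1 := by
  induction k with
  | zero => exact coeff_one_zero
  | succ k ih => rw [d1_succ, ih, d1_gt c k.lt_succ_self, mul_zero, add_zero]

theorem piP_coeff_gt (c : ℕ → D) {k i : ℕ} (h : k < i) : (piP c k).coeff i = 0 := by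
  exact d1_gt c h

theorem piP_coeff_pred (c : ℕ → D) (k : ℕ) :
    (piP c (k + 1)).coeff k = ∑ i ∈ range (k + 1), c i := by
  induction k with
  | zero => rw [d1_zero, piP_coeff_self, mul_one, zero_add, sum_range_one]
  | succ k ih => rw [d1_succ, ih, piP_coeff_self, mul_one, sum_range_succ _ (k + 1)]

theorem piP_coeff_of_pow (c : ℕ → D) {b : ℕ} {γ : D} (h : piP c b = X ^ b - C γ) {k i : ℕ}
    (hk : b ≤ k) (hi : (piP c k).coeff i ≠ 0) : b ≤ i ∨ i + b ≤ k := by
  induction k, hk using Nat.le_induction generalizing i with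
  | base =>
    by_contra hn
    refine hi ?_
    rw [h, coeff_sub, coeff_X_pow, coeff_C, if_neg (by omega), if_neg (by omega), sub_zero]
  | succ k hk ih =>
    rcases i with _ | i
    · omega
    · by_contra hn
      refine hi ?_
      have h1 : (piP c k).coeff i = 0 := not_not.1 fun h1 => hn (by have := ih h1; omega)
      have h2 : (piP c k).coeff (i + 1) = 0 := not_not.1 fun h1 => hn (by have := ih h1; omega)
      rw [d1_succ, h1, h2, mul_zero, add_zero]

variable {z j : Fin n} (c : ℕ → D)

theorem d1_single (α : Mn n) (d : D) : dist z j c (Finsupp.single α d) =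
    ∑ k ∈ range (α z + 1), Finsupp.single (α - Finsupp.single z k + Finsupp.single j k)
      (d * (piP c (α z)).coeff (α z - k)) := by
  simp only [dist, Finsupp.linearCombination_single, smul_sum, Finsupp.smul_single, smul_eq_mul]

theorem d1_at (hj : j ≠ z) (α : Mn n) {k : ℕ} (hk : k ≤ α z) :
    dist z j c (Finsupp.single α 1) (α - Finsupp.single z k + Finsupp.single j k) =
      (piP c (α z)).coeff (α z - k) := by
  rw [d1_single, Finsupp.finsetSum_apply, sum_eq_single k, Finsupp.single_eq_same, one_mul]
  · intro l hl hne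
    refine Finsupp.single_eq_of_ne fun e => hne ?_
    have h1 := DFunLike.congr_fun e z
    simp only [Finsupp.add_apply, Finsupp.tsub_apply, Finsupp.single_eq_same,
      Finsupp.single_eq_of_ne hj.symm] at h1
    rw [mem_range] at hl
    omega
  · exact fun h => absurd (mem_range.2 (Nat.lt_succ_of_le hk)) h

theorem d1_apply (x : Mn n →₀ D) (β : Mn n) :
    dist z j c x β = ∑ α ∈ x.support, x α * dist z j c (Finsupp.single α 1) β := by
  conv_lhs => rw [← x.sum_single, Finsupp.sum, map_sum, Finsupp.finsetSum_apply]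
  refine sum_congr rfl fun α _ => ?_
  rw [← Finsupp.smul_single_one, map_smul, Finsupp.smul_apply, smul_eq_mul]

theorem dist_self (hj : j ≠ z) (α : Mn n) : dist z j c (Finsupp.single α 1) α = 1 := by
  have h := d1_at c hj α (Nat.zero_le _)
  rwa [Finsupp.single_zero, Finsupp.single_zero, tsub_zero, add_zero, tsub_zero,
    piP_coeff_self] at h

theorem dist_supp (α β : Mn n) (h : dist z j c (Finsupp.single α 1) β ≠ 0) :
    ∃ k ≤ α z, β = α - Finsupp.single z k + Finsupp.single j k ∧
      (piP c (α z)).coeff (α z - k) ≠ 0 := by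
  rw [d1_single, Finsupp.finsetSum_apply] at h
  obtain ⟨k, hk, h1⟩ := exists_ne_zero_of_sum_ne_zero h
  obtain ⟨h2, h3⟩ := Finsupp.single_apply_ne_zero.1 h1
  exact ⟨k, Nat.le_of_lt_succ (mem_range.1 hk), h2, by rwa [one_mul] at h3⟩

theorem dist_pred (hj : j ≠ z) (α : Mn n) (h : 0 < α z) :
    dist z j c (Finsupp.single α 1) (α - Finsupp.single z 1 + Finsupp.single j 1) =
      ∑ i ∈ range (α z), c i := by
  rw [d1_at c hj α h]
  obtain ⟨m, hm⟩ : ∃ m, α z = m + 1 := ⟨α z - 1, by omega⟩
  rw [hm, Nat.add_sub_cancel, piP_coeff_pred]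

theorem dist_inj (hj : j ≠ z) : Function.Injective (dist z j c) := by
  refine (injective_iff_map_eq_zero _).2 fun x hx => ?_
  by_contra h0
  obtain ⟨α, hα, hm⟩ := exists_max_image x.support (fun α => α z)
    (Finsupp.support_nonempty_iff.2 h0)
  have h1 := d1_apply (z := z) (j := j) c x α
  rw [hx, sum_eq_single_of_mem α hα, dist_self c hj, mul_one] at h1
  · exact Finsupp.mem_support_iff.1 hα h1.symm
  · intro β hβ hne
    by_contra h2
    obtain ⟨k, hk, h3, -⟩ := dist_supp c β α (right_ne_zero_of_mul h2)
    have h4 := DFunLike.congr_fun h3 z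
    have h5 : β z ≤ α z := hm β hβ
    simp only [Finsupp.add_apply, Finsupp.tsub_apply, Finsupp.single_eq_same,
      Finsupp.single_eq_of_ne hj.symm] at h4
    obtain rfl : k = 0 := by omega
    exact hne (by simpa using h3.symm)

theorem dist_mem_univ (e : ℕ) {x : Mn n →₀ D} (hx : x ∈ sp D Set.univ e) :
    dist z j c x ∈ sp D Set.univ e := by
  refine mem_sp.2 fun β hβ => ⟨trivial, ?_⟩
  rw [d1_apply] at hβ
  obtain ⟨α, -, h1⟩ := exists_ne_zero_of_sum_ne_zero hβ
  obtain ⟨k, hk, rfl, -⟩ := dist_supp c α β (right_ne_zero_of_mul h1)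
  rw [← (mem_sp.1 hx α (left_ne_zero_of_mul h1)).2]
  conv_rhs => rw [← tsub_add_cancel_of_le (Finsupp.single_le_iff.2 hk)]
  simp only [map_add, Finsupp.degree_single]

/-- the correction operator -/
noncomputable def cor (z : Fin n) (c : ℕ → D) : (Mn n →₀ D) →ₗ[D] (Mn n →₀ D) :=
  Finsupp.linearCombination D fun α => Finsupp.single α (c (α z))

theorem cor_single (α : Mn n) (d : D) :
    cor z c (Finsupp.single α d) = Finsupp.single α (d * c (α z)) := by
  rw [cor, Finsupp.linearCombination_single, Finsupp.smul_single, smul_eq_mul]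

theorem dist_sh {i : Fin n} (hi : i ≠ z) (x : Mn n →₀ D) :
    dist z j c (sh D i x) = sh D i (dist z j c x) := by
  induction x using Finsupp.induction_linear with
  | zero => simp
  | add a b ha hb => simp only [map_add, ha, hb]
  | single α d =>
    have h1 : (α + Finsupp.single i 1 : Mn n) z = α z := by
      rw [Finsupp.add_apply, Finsupp.single_eq_of_ne hi.symm, add_zero]
    rw [sh_single, d1_single, d1_single, map_sum, h1]
    refine sum_congr rfl fun k hk => ?_
    rw [sh_single, add_right_comm, tsub_add_eq_add_tsub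
      (Finsupp.single_le_iff.2 (Nat.le_of_lt_succ (mem_range.1 hk)))]

theorem dist_sh_z (hj : j ≠ z) (x : Mn n →₀ D) :
    dist z j c (sh D z x - sh D j (cor z c x)) = sh D z (dist z j c x) := by
  induction x using Finsupp.induction_linear with
  | zero => simp
  | add a b ha hb => simp only [map_add, add_sub_add_comm, ha, hb]
  | single α d =>
    have h1 : (α + Finsupp.single j 1 : Mn n) z = α z := by
      rw [Finsupp.add_apply, Finsupp.single_eq_of_ne hj.symm, add_zero]
    have h2 : (α + Finsupp.single z 1 : Mn n) z = α z + 1 := by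
      rw [Finsupp.add_apply, Finsupp.single_eq_same]
    have e1 : ∀ k, α + Finsupp.single z 1 - Finsupp.single z (k + 1) + Finsupp.single j (k + 1) =
        α - Finsupp.single z k + Finsupp.single j (k + 1) := fun k => by
      rw [Finsupp.single_add z k 1, add_tsub_add_eq_tsub_right]
    have e2 : ∀ k ∈ range (α z + 1), α + Finsupp.single j 1 - Finsupp.single z k +
        Finsupp.single j k = α - Finsupp.single z k + Finsupp.single j (k + 1) := fun k hk => by
      rw [← tsub_add_eq_add_tsub (Finsupp.single_le_iff.2 (Nat.le_of_lt_succ (mem_range.1 hk))),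
        Finsupp.single_add, add_right_comm, add_assoc]
    have e3 : ∀ k ∈ range (α z), α - Finsupp.single z (k + 1) + Finsupp.single j (k + 1) +
        Finsupp.single z 1 = α - Finsupp.single z k + Finsupp.single j (k + 1) := fun k hk => by
      rw [add_right_comm, tsub_add_eq_add_tsub (Finsupp.single_le_iff.2 (mem_range.1 hk)), e1]
    rw [cor_single, sh_single, sh_single, map_sub, d1_single, d1_single, d1_single, map_sum, h1, h2,
      sum_range_succ' _ (α z + 1), add_sub_right_comm]
    simp only [e1, sh_single]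
    rw [← sum_sub_distrib, sum_range_succ, sum_range_succ', Nat.add_sub_add_right, Nat.sub_self,
      d1_zero, mul_assoc, e2 _ (self_mem_range_succ _), sub_self, add_zero]
    congr 1
    · refine sum_congr rfl fun k hk => ?_
      have := mem_range.1 hk
      rw [e2 k (mem_range.2 (by omega)), e3 k hk, ← Finsupp.single_sub, Nat.add_sub_add_right,
        show α z - k = α z - (k + 1) + 1 by omega, d1_succ, mul_add, mul_assoc, add_sub_cancel_right]
    · simp [piP_coeff_self]

end Vale.Agent.P200.B
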