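import Vale.Agent.P200.B.KDim

/-! A unipotent change of the operators. -/

open Module Finset

namespace Vale.Agent.P200.B

universe u

section

variable {D M : Type*} [Ring D] [AddCommGroup M] [Module D M] {n : ℕ}

theorem sg_shear {T : Finset (Fin n)} {i : Fin n} (hi : i ∉ T) (z : Fin n) :
    (-1 : ℤ) ^ ((insert i T).filter (· < z)).card =
      (if i < z then -1 else 1) * (-1) ^ (T.filter (· < z)).card := by
  rw [filter_insert]
  split_ifs
  · rw [card_insert_of_notMem fun h => hi (mem_filter.1 h).1, pow_succ, mul_comm]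
  · rw [one_mul]

/-- contraction with `e_z`, followed by `C` -/
def conShear (C : M →ₗ[D] M) (z : Fin n) (c : Finset (Fin n) → M) (T : Finset (Fin n)) : M :=
  if z ∈ T then 0 else ((-1 : ℤ) ^ (T.filter (· < z)).card) • C (c (insert z T))

/-- the unipotent map on chains -/
def thShear (C : M →ₗ[D] M) (z j : Fin n) : (Finset (Fin n) → M) →ₗ[D] (Finset (Fin n) → M) where
  toFun c := c + wedge j (conShear C z c)
  map_add' c c' := by
    funext T
    simp only [wedge, conShear, Pi.add_apply, map_add]
    split_ifs <;> simp only [smul_add, smul_zero, add_zero]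
    abel
  map_smul' a c := by
    funext T
    simp only [wedge, conShear, Pi.add_apply, Pi.smul_apply, map_smul, RingHom.id_apply]
    split_ifs <;> simp only [smul_add, smul_zero, add_zero, smul_comm a]

theorem thShear_inj (C : M →ₗ[D] M) {z j : Fin n} (hj : j ≠ z) :
    Function.Injective (thShear C z j) := by
  refine (injective_iff_map_eq_zero _).2 fun c hc => ?_
  have h0 : ∀ T, c T + wedge j (conShear C z c) T = 0 := fun T => congrFun hc T
  have h1 : ∀ T, z ∈ T → c T = 0 := fun T hT => by
    have h2 := h0 T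
    have h3 : z ∈ T.erase j := mem_erase.2 ⟨hj.symm, hT⟩
    simpa only [wedge, conShear, if_pos h3, smul_zero, ite_self, add_zero] using h2
  funext T
  have h2 := h0 T
  simpa only [wedge, conShear, h1 _ (mem_insert_self _ _), map_zero, smul_zero, ite_self,
    add_zero, Pi.zero_apply] using h2

theorem thShear_mem (C : M →ₗ[D] M) (z j : Fin n) {W : Submodule D M} (hW : ∀ x ∈ W, C x ∈ W)
    {p : ℕ} {c : Finset (Fin n) → M} (hc : c ∈ ch W p) : thShear C z j c ∈ ch W p := by
  refine Submodule.add_mem _ hc ?_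
  have h0 : ∀ T : Finset (Fin n), j ∈ T → z ∉ T.erase j → (insert z (T.erase j)).card = T.card :=
    fun T h1 h2 => by rw [card_insert_of_notMem h2, card_erase_add_one h1]
  rw [mem_ch] at hc ⊢
  refine ⟨fun T hT => ?_, fun T hT => ?_⟩
  · simp only [wedge, conShear]
    split_ifs with h1 h2
    · rw [smul_zero]
      exact W.zero_mem
    · exact zsmul_mem (zsmul_mem (hW _ (hc.1 _ ((h0 T h1 h2).trans hT))) _) _
    · exact W.zero_mem
  · simp only [wedge, conShear]
    split_ifs with h1 h2
    · rw [smul_zero]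
    · rw [hc.2 _ fun h => hT ((h0 T h1 h2).symm.trans h), map_zero, smul_zero, smul_zero]
    · rfl

theorem kd_shear (m m' : Fin n → M →ₗ[D] M) {z j : Fin n} (C : M →ₗ[D] M)
    (h1 : ∀ i, i ≠ z → m' i = m i) (h2 : ∀ x, m' z x = m z x - m j (C x))
    (c : Finset (Fin n) → M) (T : Finset (Fin n)) :
    kd m' c T = kd m c T - m j (conShear C z c T) := by
  rw [kd_apply, kd_apply, conShear]
  split_ifs with h
  · rw [map_zero, sub_zero]
    exact sum_congr rfl fun i hi => by rw [h1 i fun e => mem_compl.1 hi (e ▸ h)]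
  · rw [← add_sum_erase _ _ (mem_compl.2 h), ← add_sum_erase _ _ (mem_compl.2 h), h2, smul_sub,
      map_zsmul, sum_congr rfl fun i hi => by rw [h1 i (mem_erase.1 hi).1]]
    abel

theorem kd_conShear (m m' : Fin n → M →ₗ[D] M) {z : Fin n} (C : M →ₗ[D] M)
    (h1 : ∀ i, i ≠ z → m' i = m i) (hC : ∀ i, i ≠ z → ∀ x, C (m i x) = m i (C x))
    {c : Finset (Fin n) → M} (hc : kd m c = 0) : kd m' (conShear C z c) = 0 := by
  funext T
  rw [kd_apply, Pi.zero_apply]
  by_cases h : z ∈ T
  · exact sum_eq_zero fun i _ => by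
      rw [conShear, if_pos (mem_insert_of_mem h), map_zero, smul_zero]
  · have h3 : (-(-1 : ℤ) ^ (T.filter (· < z)).card) • C (kd m c (insert z T)) = 0 := by
      rw [hc, Pi.zero_apply, map_zero, smul_zero]
    rw [← add_sum_erase _ _ (mem_compl.2 h), conShear, if_pos (mem_insert_self _ _), map_zero,
      smul_zero, zero_add, ← h3, kd_apply, compl_insert, map_sum, smul_sum]
    refine sum_congr rfl fun i hi => ?_
    obtain ⟨e, hi⟩ := mem_erase.1 hi
    rw [conShear, if_neg (by simp [h, e.symm]), h1 i e, map_zsmul, map_zsmul, hC i e,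
      sg_shear (mem_compl.1 hi), sg_shear h, smul_smul, smul_smul, insert_comm]
    congr 1
    rcases lt_or_gt_of_ne e with l | l
    · rw [if_pos l, if_neg l.not_gt]
      ring
    · rw [if_neg l.not_gt, if_pos l]
      ring

end

theorem lam_shear {D M : Type*} [DivisionRing D] [AddCommGroup M] [Module D M] {n : ℕ}
    (m m' : Fin n → M →ₗ[D] M) {z j : Fin n} (hj : j ≠ z) (C : M →ₗ[D] M)
    (h1 : ∀ i, i ≠ z → m' i = m i) (h2 : ∀ x, m' z x = m z x - m j (C x))
    (hC : ∀ i, i ≠ z → ∀ x, C (m i x) = m i (C x)) (W : Submodule D M) [Module.Finite D W]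
    (hW : ∀ x ∈ W, C x ∈ W) (p : ℕ) : lam m W p ≤ lam m' W p := by
  have hf := ch_finite (n := n) W p
  have hf' : Module.Finite D ↥(ch W p ⊓ LinearMap.ker (kd m')) :=
    Submodule.finiteDimensional_of_le inf_le_left
  have h : ∀ c ∈ ch W p ⊓ LinearMap.ker (kd m),
      thShear C z j c ∈ ch W p ⊓ LinearMap.ker (kd m') := by
    rintro c ⟨hc, hk⟩
    refine ⟨thShear_mem C z j hW hc, ?_⟩
    have h3 := kd_wedge m' j (conShear C z c)
    rw [kd_conShear m m' C h1 hC hk] at h3
    change kd m' (c + wedge j (conShear C z c)) = 0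
    funext T
    have h4 := congrFun h3 T
    have h5 : kd m c T = 0 := congrFun hk T
    simp only [Pi.add_apply, wedge, Pi.zero_apply, smul_zero, ite_self, add_zero, h1 j hj] at h4
    rw [map_add, Pi.add_apply, kd_shear m m' C h1 h2, h4, h5, Pi.zero_apply, zero_sub,
      neg_add_cancel]
  exact LinearMap.finrank_le_finrank_of_injective (f := (thShear C z j).restrict h)
    fun x y e => Subtype.ext (thShear_inj C hj (congrArg Subtype.val e))

end Vale.Agent.P200.B
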