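import Vale.Agent.P200.B.Dist1
import Vale.Agent.P200.B.KShear

/-! The distraction keeps cycles, pure powers and shadows. -/

open Module Finset Polynomial

namespace Vale.Agent.P200.B

universe u

variable {D : Type*} [DivisionRing D] {n : ℕ} {z j : Fin n} (c : ℕ → D)

theorem ind_Dist2 {A : Set (Mn n)} {e : ℕ} (f : (Mn n →₀ D) →ₗ[D] (Mn n →₀ D))
    (W : Submodule D (Mn n →₀ D))
    (h : ∀ α ∈ A, α.degree = e → f (Finsupp.single α 1) ∈ W) : (sp D A e).map f ≤ W := by
  rw [sp, Finsupp.supported_eq_span_single, Submodule.map_span_le]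
  rintro _ ⟨α, hα, rfl⟩
  exact h α hα.1 hα.2

theorem single_Dist2 {A : Set (Mn n)} {e : ℕ} {α : Mn n} (h : α ∈ A) (he : α.degree = e) (d : D) :
    Finsupp.single α d ∈ sp D A e :=
  Finsupp.single_mem_supported D d (show α ∈ dg A e from ⟨h, he⟩)

theorem cor_mem_Dist2 {A : Set (Mn n)} {e : ℕ} {x : Mn n →₀ D} (hx : x ∈ sp D A e) :
    cor z c x ∈ sp D A e :=
  ind_Dist2 (cor z c) _ (fun α hα he => by
    rw [cor_single]
    exact single_Dist2 hα he _) (Submodule.mem_map_of_mem hx)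

theorem cor_sh_Dist2 {i : Fin n} (hi : i ≠ z) (x : Mn n →₀ D) :
    cor z c (sh D i x) = sh D i (cor z c x) := by
  induction x using Finsupp.induction_linear with
  | zero => simp
  | add a b ha hb => simp only [map_add, ha, hb]
  | single α d =>
    rw [sh_single, cor_single, cor_single, sh_single, Finsupp.add_apply,
      Finsupp.single_eq_of_ne hi.symm, add_zero]

theorem sh_mem_Dist2 (a : Fin n → ℕ) {A : Set (Mn n)} {e : ℕ} (i : Fin n) {x : Mn n →₀ D}
    (hx : x ∈ sp D A e) : sh D i x ∈ sp D (shp a A) (e + 1) :=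
  ind_Dist2 (sh D i) _ (fun α hα he => by
    rw [sh_single]
    exact single_Dist2 (Or.inr ⟨α, hα, i, rfl⟩)
      (by rw [map_add, he, Finsupp.degree_single]) _) (Submodule.mem_map_of_mem hx)

theorem lam_dist (hj : j ≠ z) (A : Set (Mn n)) (p e : ℕ) :
    lamM D A p e ≤ lam (sh D) ((sp D A e).map (dist z j c)) p := by
  have := sp_finite D A e
  have h := lam_shear (sh D) (Function.update (sh D) z (sh D z - sh D j ∘ₗ cor z c)) hj (cor z c)
    (fun i hi => Function.update_of_ne hi _ _) (fun x => by rw [Function.update_self]; rfl)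
    (fun i hi x => cor_sh_Dist2 c hi x) (sp D A e) (fun x hx => cor_mem_Dist2 c hx) p
  refine h.trans (le_of_eq (lam_map _ (sh D) (dist z j c) (dist_inj c hj) (fun i x => ?_) _ p).symm)
  by_cases hi : i = z
  · subst hi
    rw [Function.update_self]
    exact dist_sh_z c hj x
  · rw [Function.update_of_ne hi]
    exact dist_sh c hi x

theorem dist_Pb (hj : j ≠ z) (a : Fin n → ℕ) (hja : a j ≤ a z) {γ : D}
    (hπ : piP c (a z) = X ^ a z - C γ) (e : ℕ) :
    (sp D (Pb a) e).map (dist z j c) = sp D (Pb a) e := by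
  have := sp_finite D (Pb a) e
  refine Submodule.eq_of_le_of_finrank_eq (ind_Dist2 _ _ fun α hα he => ?_)
    (LinearEquiv.finrank_eq (Submodule.equivMapOfInjective _ (dist_inj c hj) _)).symm
  refine mem_sp.2 fun β hβ => ⟨?_, (mem_sp.1 (dist_mem_univ (z := z) (j := j) c e
    (single_Dist2 (Set.mem_univ α) he 1)) β hβ).2⟩
  obtain ⟨k, hk, rfl, hc⟩ := dist_supp c α β hβ
  obtain ⟨i, hi⟩ := hα
  by_cases hiz : i = z
  · subst hiz
    rcases piP_coeff_of_pow c hπ hi hc with h | h
    · refine ⟨i, ?_⟩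
      rw [Finsupp.add_apply, Finsupp.tsub_apply, Finsupp.single_eq_same]
      omega
    · refine ⟨j, ?_⟩
      rw [Finsupp.add_apply, Finsupp.single_eq_same]
      omega
  · refine ⟨i, ?_⟩
    rw [Finsupp.add_apply, Finsupp.tsub_apply, Finsupp.single_eq_of_ne hiz]
    omega

theorem dist_shp (hj : j ≠ z) (a : Fin n → ℕ) (A : Set (Mn n)) (e : ℕ) (i : Fin n)
    {x : Mn n →₀ D} (hx : x ∈ (sp D A e).map (dist z j c)) :
    sh D i x ∈ (sp D (shp a A) (e + 1)).map (dist z j c) := by
  obtain ⟨y, hy, rfl⟩ := hx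
  by_cases hi : i = z
  · subst hi
    rw [← dist_sh_z c hj]
    exact Submodule.mem_map_of_mem (Submodule.sub_mem _ (sh_mem_Dist2 a _ hy)
      (sh_mem_Dist2 a _ (cor_mem_Dist2 c hy)))
  · rw [← dist_sh c hi]
    exact Submodule.mem_map_of_mem (sh_mem_Dist2 a _ hy)

end Vale.Agent.P200.B
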