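import Vale.Agent.P200.B.Defs
import Vale.Agent.P200.Eq.Step
import Vale.Agent.P200.Eq.Tower
import Vale.Agent.P200.Eq.Final

/-! Frames for equal degrees. -/

open Module Finset TensorProduct MvPolynomial

namespace Vale.Agent.P200.B

universe u

theorem frameEq (K : Type u) [Field K] (n c : ℕ) (hc : c ≤ n) (a : Fin c → ℕ)
    (hpos : ∀ i, 0 < a i) (heq : ∀ i j, a i = a j)
    (f : Fin c → MvPolynomial (Fin n) K) (hdeg : ∀ i, (f i).IsHomogeneous (a i)) (hreg : Reg f)
    (I : Ideal (MvPolynomial (Fin n) K)) (hf : ∀ i, f i ∈ I) : Frame K hc a I := by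
  classical
  rcases Nat.eq_zero_or_pos c with rfl | hc0
  · refine ⟨K, inferInstance, inferInstance, fun i => 1 ⊗ₜ X i,
      Algebra.TensorProduct.includeRight, fun i => Submodule.tmul_mem_baseChange_of_mem _
        (isHomogeneous_X K i), fun i => rfl, ?_, fun i => i.elim0⟩
    refine span_of_eventually _ (fun i => Submodule.tmul_mem_baseChange_of_mem _
      (isHomogeneous_X K i)) (fun i j => Commute.all _ _) 1 fun α hα => ?_
    obtain ⟨i, hi⟩ : ∃ i, α i ≠ 0 := by
      by_contra hne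
      push Not at hne
      rw [show α = 0 from Finsupp.ext hne, map_zero] at hα
      omega
    have h1 : α = (α - Finsupp.single i 1) + Finsupp.single i 1 :=
      (tsub_add_cancel_of_le (Finsupp.single_le_iff.2 (Nat.one_le_iff_ne_zero.2 hi))).symm
    have h2 : (1 : K) ⊗ₜ[K] (monomial α (1 : K) : MvPolynomial (Fin n) K) =
        (1 : K) ⊗ₜ[K] monomial (α - Finsupp.single i 1) (1 : K) * (1 : K) ⊗ₜ[K] X i := by
      rw [Algebra.TensorProduct.tmul_mul_tmul, X, monomial_mul, mul_one, ← h1]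
    rw [h2]
    exact Ideal.mul_mem_left _ _ (Ideal.subset_span ⟨i, rfl⟩)
  let k := AlgebraicClosure K
  let z : Fin c := ⟨c - 1, by omega⟩
  have hle : ∀ i, a i ≤ a z := fun i => (heq i z).le
  obtain ⟨w, l, hw, hli, ⟨d₀, hd₀⟩, hwf, hl, hwl⟩ := Eq.exists_w hc a (a z) (hpos z) hle hpos _
    (fun i => (hdeg i).map _) (hreg.map (k := k))
  obtain ⟨D, _, _, e, τ, h1, h2, h3⟩ := Eq.exists_tower w (fun E _ _ =>
    Eq.exists_step (hpos z) w hw hli fun i =>
      ⟨d₀, by rw [X_pow_eq_monomial]; exact hd₀ _ (Finsupp.degree_single _ _).ge⟩) c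
  let : Algebra K D := Algebra.compHom D (algebraMap K k)
  have : IsScalarTower K k D := IsScalarTower.of_algebraMap_eq fun _ => rfl
  obtain ⟨μ, hμ, hμc⟩ := exists_mu K k D n
  obtain ⟨Y, hY⟩ : ∃ Y : ℕ → D ⊗[K] MvPolynomial (Fin n) K,
    ∀ i, Y i = ∑ x, e i x ⊗ₜ[K] X x := ⟨_, fun _ => rfl⟩
  obtain ⟨Z, hZ1, hZ2⟩ : ∃ Z : Fin n → D ⊗[K] MvPolynomial (Fin n) K,
      (∀ i : Fin n, (i : ℕ) < c → Z i = Y i) ∧ ∀ i : Fin n, c ≤ i → Z i = μ (l i) :=
    ⟨fun i => if (i : ℕ) < c then Y i else μ (l i), fun i hi => if_pos hi,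
      fun i hi => if_neg (not_lt.2 hi)⟩
  have hZ : ∀ i, Z i ∈ (homogeneousSubmodule (Fin n) K 1).baseChange D := by
    intro i
    rcases lt_or_ge (i : ℕ) c with h | h
    · rw [hZ1 i h, hY]
      exact Submodule.sum_mem _ fun x _ =>
        Submodule.tmul_mem_baseChange_of_mem _ (isHomogeneous_X K x)
    · rw [hZ2 i h]
      exact Eq.Final.mu_mem μ hμ (hl i)
  have hcomm : ∀ i j, Commute (Z i) (Z j) := by
    intro i j
    rcases lt_or_ge (i : ℕ) c with hi | hi
    · rcases lt_or_ge (j : ℕ) c with hj | hj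
      · by_cases hij : i = j
        · rw [hij]
        rw [hZ1 i hi, hZ1 j hj, hY, hY]
        refine Commute.sum_left _ _ _ fun x _ => Commute.sum_right _ _ _ fun y _ => ?_
        rw [Commute, SemiconjBy, Algebra.TensorProduct.tmul_mul_tmul,
          Algebra.TensorProduct.tmul_mul_tmul, (h1 i hi j hj (Fin.val_ne_of_ne hij) x y).eq,
          mul_comm (X x)]
      · rw [hZ2 j hj]
        exact (hμc _ _).symm
    · rw [hZ2 i hi]
      exact hμc _ _
  have hY2 : ∀ i < c, Y i ^ a z = ∑ j, τ i j • μ (w j) := fun i hi => by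
    rw [hY]
    exact Eq.Final.pow_eq μ hμ (h2 i hi)
  have hw2 : ∀ j : Fin n, c ≤ j → μ (w j) = Z j ^ a z := fun j hj => by
    rw [hwl j hj, map_pow, hZ2 j hj]
  have key : ∀ (s : ℕ) (L : Ideal (D ⊗[K] MvPolynomial (Fin n) K)), s ≤ c →
      (∀ i : Fin n, s ≤ i → Z i ∈ L) → (∀ i : Fin n, i < s → μ (w i) ∈ L) →
      ∀ α : Fin n →₀ ℕ, d₀ ≤ α.degree → (1 : D) ⊗ₜ[K] monomial α (1 : K) ∈ L := by
    intro s L hs hL hL' α hα
    have h4 : ∀ i : Fin n, s ≤ i → Z i ^ a z ∈ L := fun i hi => by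
      rw [← Nat.sub_add_cancel (hpos z), pow_succ]
      exact L.mul_mem_left _ (hL i hi)
    have h5 : ∀ j : Fin n, ¬ (s ≤ (j : ℕ) ∧ (j : ℕ) < c) → μ (w j) ∈ L := fun j hj => by
      rcases lt_or_ge (j : ℕ) s with h | h
      · exact hL' j h
      · rw [hw2 j (by omega)]
        exact h4 j h
    have h6 : ∀ j : Fin n, μ (w j) ∈ L := fun j => by
      by_cases hj : s ≤ (j : ℕ) ∧ (j : ℕ) < c
      · have hj' : j ∈ univ.filter fun l : Fin n => s ≤ (l : ℕ) ∧ (l : ℕ) < c :=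
          mem_filter.2 ⟨mem_univ j, hj⟩
        obtain ⟨b, hb⟩ := h3 (Ico s c) _ (fun i hi => (mem_Ico.1 hi).2)
          (Eq.Final.card_filter hc s) j hj'
        refine Eq.Final.solve (L.restrictScalars D) (y := fun i => Y i ^ a z)
          (fun i hi => hY2 i (mem_Ico.1 hi).2) (fun i hi => ?_)
          (fun j hj => h5 j fun h => hj (mem_filter.2 ⟨mem_univ j, h⟩)) hj' hb
        obtain ⟨h7, h8⟩ := mem_Ico.1 hi
        have h9 := h4 ⟨i, h8.trans_le hc⟩ h7
        rwa [hZ1 _ h8] at h9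
      · exact h5 j hj
    obtain ⟨g, hg⟩ := Ideal.mem_span_range_iff_exists_fun.1 (hd₀ α hα)
    rw [← hμ, map_monomial, map_one, ← hg, map_sum]
    exact Submodule.sum_mem _ fun j _ => by rw [map_mul]; exact L.mul_mem_left _ (h6 j)
  have hspan := span_of_eventually Z hZ hcomm d₀ (key 0 _ c.zero_le
    (fun i _ => Ideal.subset_span ⟨i, rfl⟩) fun i hi => absurd hi (Nat.not_lt_zero _))
  obtain ⟨ψ, hψ⟩ := exists_aeval (K := K) Z hcomm
  refine ⟨D, inferInstance, inferInstance, Z, ψ, hZ, hψ, hspan, fun i₀ => ?_⟩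
  have hi : ((Fin.castLE hc i₀ : Fin n) : ℕ) < c := i₀.2
  rw [heq i₀ z]
  generalize Fin.castLE hc i₀ = i at hi ⊢
  have ht : Z i ^ a z - ∑ j ∈ univ.filter (fun j : Fin n => c ≤ j), τ i j • Z j ^ a z ∈
      (pI I (a z)).baseChange D := by
    rw [hZ1 i hi, hY2 i hi, sum_split hc, sum_congr rfl fun j hj =>
      congrArg (τ i j • ·) (hw2 j (mem_filter.1 hj).2), add_sub_cancel_right]
    exact Submodule.sum_mem _ fun j _ => Submodule.smul_mem _ _
      (Eq.Final.mu_mem_ideal μ hμ (hf j) (hdeg j) (hle j) (hw _) (hwf j))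
  have hA := hpos z
  generalize a z = A at ht hA ⊢
  have h5 : ∀ β, (∀ j : Fin n, c ≤ j → Finsupp.single j A ≠ β) →
      (Finsupp.single (Finsupp.single i A) (1 : D) -
        ∑ j ∈ univ.filter (fun j : Fin n => c ≤ j), Finsupp.single (Finsupp.single j A) (τ i j))
        β = Finsupp.single (Finsupp.single i A) (1 : D) β := fun β hβ => by
    rw [Finsupp.sub_apply, Finsupp.finsetSum_apply, sum_eq_zero, sub_zero]
    exact fun j hj => Finsupp.single_eq_of_ne' (hβ j (mem_filter.1 hj).2)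
  have h6 : ∀ β ∈ (Finsupp.single (Finsupp.single i A) (1 : D) -
      ∑ j ∈ univ.filter (fun j : Fin n => c ≤ j),
        Finsupp.single (Finsupp.single j A) (τ i j)).support,
      β = Finsupp.single i A ∨ ∃ j : Fin n, c ≤ j ∧ Finsupp.single j A = β := fun β hβ => by
    by_contra h
    push Not at h
    rw [Finsupp.mem_support_iff, h5 β h.2] at hβ
    exact hβ (Finsupp.single_eq_of_ne h.1)
  refine ⟨Finsupp.single (Finsupp.single i A) (1 : D) -
    ∑ j ∈ univ.filter (fun j : Fin n => c ≤ j), Finsupp.single (Finsupp.single j A) (τ i j),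
    fun β hβ => ?_, ?_, ?_, fun β hβ => ?_⟩
  · rcases h6 β hβ with rfl | ⟨j, -, rfl⟩ <;> exact Finsupp.degree_single _ _
  · rw [map_sub, map_sum]
    simpa only [Finsupp.linearCombination_single, one_smul, ← X_pow_eq_monomial, map_pow, hψ]
      using ht
  · rw [h5, Finsupp.single_eq_same]
    · exact one_ne_zero
    · intro j hj h
      rw [Finsupp.single_left_injective hA.ne' h] at hj
      omega
  · refine (h6 β hβ).imp id ?_
    rintro ⟨j, hj, rfl⟩
    exact ⟨j, Fin.lt_def.2 (hi.trans_le hj), by rw [Finsupp.single_eq_same]; exact hA.ne'⟩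

end Vale.Agent.P200.B
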