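import Vale.Agent.P200.B.Defs
import Vale.Agent.P200.H.Main

/-! Frames over every field. -/

open Module Finset TensorProduct MvPolynomial

namespace Vale.Agent.P200.B

universe u

theorem frame_of_inv₀ {K : Type u} [Field K] {n c : ℕ} (hc : c ≤ n) (a : Fin c → ℕ)
    (hpos : ∀ i, 0 < a i) (f : Fin c → MvPolynomial (Fin n) K)
    (hdeg : ∀ i, (f i).IsHomogeneous (a i)) (I : Ideal (MvPolynomial (Fin n) K))
    (hf : ∀ i, f i ∈ I) (s : G.St.{u} n) (φ : K →+* s.F) (y : Fin n → MvPolynomial s.O s.F)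
    (h : G.Inv hc a f s φ y 0) : Frame K hc a I := by
  classical
  obtain ⟨hy, hpt, hpow⟩ := h
  let : Algebra K s.D := Algebra.compHom s.D φ
  have halg : ∀ x : K, algebraMap K s.D x = algebraMap s.F s.D (φ x) := fun _ => rfl
  obtain ⟨κ, hκ⟩ := G.Fin0.exists_kappa K s.D n
  obtain ⟨E, hE⟩ : ∃ E : MvPolynomial s.O s.F →+* s.D ⊗[K] MvPolynomial (Fin n) K,
    ∀ P, E P = κ (s.ev P) := ⟨κ.comp s.ev.toRingHom, fun _ => rfl⟩
  have hE1 : ∀ p : MvPolynomial (Fin n) K,
      E (rename s.xs (MvPolynomial.map φ p)) = (1 : s.D) ⊗ₜ[K] p := fun p => by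
    rw [hE, s.ev_rename_xs]
    induction p using MvPolynomial.induction_on' with
    | monomial m x =>
      have h1 : Eq.inc s.F s.D (Fin n) (monomial m (φ x)) =
          AddMonoidAlgebra.single m (algebraMap s.F s.D (φ x)) :=
        AddMonoidAlgebra.mapRingHom_single _ _ _
      rw [map_monomial, h1, hκ, ← halg, Algebra.algebraMap_eq_smul_one, smul_tmul, smul_monomial,
        smul_eq_mul, mul_one]
    | add p q hp hq => simp only [map_add, hp, hq, tmul_add]
  obtain ⟨Z, hZE⟩ : ∃ Z : Fin n → s.D ⊗[K] MvPolynomial (Fin n) K, ∀ j, Z j = E (y j) :=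
    ⟨_, fun _ => rfl⟩
  have hZ : ∀ j, Z j ∈ (homogeneousSubmodule (Fin n) K 1).baseChange s.D := fun j => by
    obtain ⟨t, -, ht⟩ := s.exists_lin (hy j)
    rw [hZE, hE, ht, G.lin, map_sum]
    refine Submodule.sum_mem _ fun i _ => ?_
    rw [hκ]
    exact Submodule.tmul_mem_baseChange_of_mem _
      (isHomogeneous_monomial _ (Finsupp.degree_single _ _))
  have hcomm : ∀ i j, Commute (Z i) (Z j) := fun i j => by
    rw [hZE, hZE]
    exact (Commute.all _ _).map E
  choose N hN using G.Fin0.mem_radical s y fun Ω _ _ χ hχ h0 =>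
    hpt Ω χ hχ (fun i hi => absurd hi (Nat.not_lt_zero _)) fun j _ => h0 j
  have hX : ∀ i, (1 : s.D) ⊗ₜ[K] ((X i : MvPolynomial (Fin n) K) ^ N (s.xs i)) ∈
      Ideal.span (Set.range Z) := fun i => by
    rw [← hE1, map_pow, map_X, map_pow, rename_X]
    refine G.Fin0.map_mem E _ ?_ (hN _)
    rintro g (⟨j, rfl⟩ | ⟨-, hg⟩)
    · exact Ideal.subset_span ⟨j, hZE j⟩
    · rw [hE, hg, map_zero]
      exact zero_mem _
  have hspan := span_of_eventually Z hZ hcomm (∑ i, N (s.xs i) + 1) fun α hα => by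
    obtain ⟨i, hi⟩ : ∃ i, N (s.xs i) ≤ α i := by
      by_contra hne
      push Not at hne
      have h1 : ∑ i, α i ≤ ∑ i, N (s.xs i) := sum_le_sum fun i _ => (hne i).le
      rw [Finsupp.degree_eq_sum] at hα
      omega
    have h1 : α = (α - Finsupp.single i (N (s.xs i))) + Finsupp.single i (N (s.xs i)) :=
      (tsub_add_cancel_of_le (Finsupp.single_le_iff.2 hi)).symm
    have h2 : (1 : s.D) ⊗ₜ[K] (monomial α (1 : K) : MvPolynomial (Fin n) K) =
        (1 : s.D) ⊗ₜ[K] monomial (α - Finsupp.single i (N (s.xs i))) (1 : K) *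
          (1 : s.D) ⊗ₜ[K] (X i ^ N (s.xs i)) := by
      rw [Algebra.TensorProduct.tmul_mul_tmul, X_pow_eq_monomial, monomial_mul, mul_one, mul_one,
        ← h1]
    rw [h2]
    exact Ideal.mul_mem_left _ _ (hX i)
  obtain ⟨ψ, hψ⟩ := exists_aeval (K := K) Z hcomm
  refine ⟨s.D, inferInstance, inferInstance, Z, ψ, hZ, hψ, hspan, fun i => ?_⟩
  obtain ⟨P, hP, hP0⟩ := hpow i (Nat.zero_le _)
  obtain ⟨e, he⟩ := Nat.exists_eq_succ_of_ne_zero (hpos i).ne'
  generalize Fin.castLE hc i = j at hP hP0 ⊢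
  generalize a i = d at hP0 he ⊢
  have h1 : ψ (monomial (Finsupp.single j d) 1) = E P := by
    have h2 : E (y j ^ d - P) = 0 := by rw [hE, hP0, map_zero]
    rw [map_sub, sub_eq_zero, map_pow, ← hZE] at h2
    rw [← X_pow_eq_monomial, map_pow, hψ, h2]
  have h2 : E P ∈ Ideal.span (Set.range (fun i' => (1 : s.D) ⊗ₜ[K] f i') ∪ Z '' Set.Ioi j) := by
    refine G.Fin0.map_mem E _ ?_ hP
    rintro g (⟨i', rfl⟩ | ⟨j', hj', rfl⟩)
    · exact Ideal.subset_span (Or.inl ⟨i', (hE1 _).symm⟩)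
    · exact Ideal.subset_span (Or.inr ⟨j', hj', hZE j'⟩)
  have h3 := G.Fin0.pr_mem_of_span
    ((I.restrictScalars K ⊓ homogeneousSubmodule (Fin n) K d).baseChange s.D ⊔
      (Finsupp.supported s.D s.D {β : Fin n →₀ ℕ | β.degree = d ∧ ∃ j', j < j' ∧ β j' ≠ 0}).map
        (Finsupp.linearCombination s.D fun β => ψ (monomial β 1))) d (by
      rintro g (⟨i', rfl⟩ | ⟨j', hj', rfl⟩) r
      · exact Submodule.mem_sup_left (G.Fin0.pr_mul_f (hf i') (hdeg i') d r)
      · subst he
        rw [Span.pr_mul e r _ (hZ j')]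
        have h4 := Span.pr_mem e r
        rw [← Groebner.map_supported Z hZ ψ hψ hspan] at h4
        obtain ⟨v, hv, h5⟩ := h4
        refine Submodule.mem_sup_right ⟨v.mapDomain (· + Finsupp.single j' 1),
          (Finsupp.mem_supported _ _).2 fun γ hγ => ?_, ?_⟩
        · obtain ⟨δ, hδ, rfl⟩ := mem_image.1 (Finsupp.mapDomain_support hγ)
          refine ⟨?_, j', hj', by simp⟩
          rw [map_add, Finsupp.degree_single,
            show δ.degree = e from (Finsupp.mem_supported _ _).1 hv hδ]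
        · rw [Groebner.phi_shift Z ψ hψ, h5]) h2
  rw [← h1, Eq.Final.pr_of_mem (Groebner.psi_mem Z hZ ψ hψ d _ (Finsupp.degree_single _ _)),
    if_pos rfl] at h3
  obtain ⟨x, hx, _, ⟨w, hw, rfl⟩, h4⟩ := Submodule.mem_sup.1 h3
  have hw' := (Finsupp.mem_supported _ _).1 hw
  have h5 : w (Finsupp.single j d) = 0 := by
    by_contra hne
    obtain ⟨-, j', hj', h6⟩ := hw' (Finsupp.mem_support_iff.2 hne)
    exact h6 (Finsupp.single_eq_of_ne hj'.ne')
  have h6 : ∀ β ∈ (Finsupp.single (Finsupp.single j d) (1 : s.D) - w).support,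
      β = Finsupp.single j d ∨ β ∈ w.support := fun β hβ => by
    by_contra hne
    push Not at hne
    rw [Finsupp.mem_support_iff, Finsupp.sub_apply, Finsupp.single_eq_of_ne hne.1,
      Finsupp.notMem_support_iff.1 hne.2, sub_zero] at hβ
    exact hβ rfl
  refine ⟨Finsupp.single (Finsupp.single j d) 1 - w, fun β hβ => ?_, ?_, ?_, fun β hβ => ?_⟩
  · rcases h6 β hβ with rfl | h7
    · exact Finsupp.degree_single _ _
    · exact (hw' h7).1
  · rw [map_sub, Finsupp.linearCombination_single, one_smul, ← h4, add_sub_cancel_right]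
    exact hx
  · rw [Finsupp.sub_apply, h5, sub_zero, Finsupp.single_eq_same]
    exact one_ne_zero
  · exact (h6 β hβ).imp id fun h7 => (hw' h7).2

theorem frameH (K : Type u) [Field K] (n c : ℕ) (hc : c ≤ n) (a : Fin c → ℕ)
    (ha : ∀ i, 2 ≤ a i) (hmono : Monotone a)
    (f : Fin c → MvPolynomial (Fin n) K) (hdeg : ∀ i, (f i).IsHomogeneous (a i)) (hreg : Reg f)
    (I : Ideal (MvPolynomial (Fin n) K)) (hf : ∀ i, f i ∈ I) : Frame K hc a I := by
  let k := AlgebraicClosure K
  have hpos : ∀ i, 0 < a i := fun i => lt_of_lt_of_le two_pos (ha i)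
  have hdeg' : ∀ i, (MvPolynomial.map (algebraMap K k) (f i)).IsHomogeneous (a i) :=
    fun i => (hdeg i).map _
  have key : ∀ t, t ≤ c → ∃ (s : G.St.{u} n) (φ : k →+* s.F) (y : Fin n → MvPolynomial s.O s.F),
      G.Inv hc a (fun i => MvPolynomial.map (algebraMap K k) (f i)) s φ y (c - t) := by
    intro t
    induction t with
    | zero => exact fun _ => H.start hc a _ hpos hdeg' (hreg.map (k := k))
    | succ t ih =>
      intro ht
      obtain ⟨s, φ, y, h⟩ := ih (by omega)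
      refine H.stage hc a _ (H.rich_of_isAlgClosed k) (fun i => H.stepP n (hpos i)) hpos hmono hdeg'
        (by omega) s φ y ?_
      rwa [show c - (t + 1) + 1 = c - t by omega]
  obtain ⟨s, φ, y, h⟩ := key c le_rfl
  rw [Nat.sub_self] at h
  refine frame_of_inv₀ hc a hpos f hdeg I hf s (φ.comp (algebraMap K k)) y ?_
  simpa only [G.Inv, MvPolynomial.map_map] using h

end Vale.Agent.P200.B
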