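import Vale.Agent.P200.B.Defs

/-! Unfolding lemmas. -/

open Module Finset

namespace Vale.Agent.P200.B

universe u

section

variable {D M : Type*} [Ring D] [AddCommGroup M] [Module D M] {n : ℕ}

theorem kd_apply (m : Fin n → M →ₗ[D] M) (c : Finset (Fin n) → M) (T : Finset (Fin n)) :
    kd m c T = ∑ i ∈ Tᶜ, ((-1 : ℤ) ^ (T.filter (· < i)).card) • m i (c (insert i T)) := by
  simp only [kd, LinearMap.pi_apply, LinearMap.sum_apply, LinearMap.smul_apply,
    LinearMap.comp_apply, LinearMap.proj_apply]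

theorem mem_ch {W : Submodule D M} {p : ℕ} {c : Finset (Fin n) → M} :
    c ∈ ch W p ↔ (∀ T, T.card = p → c T ∈ W) ∧ ∀ T, T.card ≠ p → c T = 0 := by
  simp only [ch, Submodule.mem_pi, Set.mem_univ, true_imp_iff]
  constructor
  · intro h
    refine ⟨fun T hT => ?_, fun T hT => ?_⟩
    · simpa only [if_pos hT] using h T
    · simpa only [if_neg hT, Submodule.mem_bot] using h T
  · rintro ⟨h1, h2⟩ T
    split_ifs with hT
    · exact h1 T hT
    · exact h2 T hT

theorem sh_single (i : Fin n) (α : Mn n) (d : D) :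
    sh D i (Finsupp.single α d) = Finsupp.single (α + Finsupp.single i 1) d :=
  Finsupp.mapDomain_single

theorem sh_comm (i j : Fin n) (x : Mn n →₀ D) : sh D i (sh D j x) = sh D j (sh D i x) := by
  induction x using Finsupp.induction_linear with
  | zero => simp
  | add a b ha hb => simp only [map_add, ha, hb]
  | single α d => simp only [sh_single, add_right_comm]

theorem mem_sp {A : Set (Mn n)} {e : ℕ} {x : Mn n →₀ D} :
    x ∈ sp D A e ↔ ∀ α, x α ≠ 0 → α ∈ A ∧ α.degree = e :=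
  (Finsupp.mem_supported D x).trans
    ⟨fun h _ hα => h (Finsupp.mem_support_iff.2 hα), fun h α hα => h α (Finsupp.mem_support_iff.1 hα)⟩

end

variable {n : ℕ}

theorem dg_finite (A : Set (Mn n)) (e : ℕ) : (dg A e).Finite :=
  (Finsupp.finite_of_degree_eq e).subset fun _ h => h.2

theorem cnt_mono {A B : Set (Mn n)} {e : ℕ} (h : dg A e ⊆ B) : cnt A e ≤ cnt B e :=
  Set.ncard_le_ncard (fun _ hα => ⟨h hα, hα.2⟩) (dg_finite B e)

theorem cnt_congr {A B : Set (Mn n)} {e : ℕ} (h : dg A e = dg B e) : cnt A e = cnt B e := by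
  rw [cnt, cnt, h]

theorem dg_eq_of_cnt {A B : Set (Mn n)} {e : ℕ} (h : dg A e ⊆ B) (hc : cnt B e ≤ cnt A e) :
    dg A e = dg B e :=
  Set.eq_of_subset_of_ncard_le (fun _ hα => ⟨h hα, hα.2⟩) hc (dg_finite B e)

theorem lamM_congr (D : Type*) [Ring D] {A B : Set (Mn n)} {e : ℕ} (h : dg A e = dg B e)
    (p : ℕ) : lamM D A p e = lamM D B p e := by
  rw [lamM, lamM, sp, sp, h]

theorem sp_finite (D : Type*) [DivisionRing D] (A : Set (Mn n)) (e : ℕ) :
    Module.Finite D (sp D A e) := supported_finite (dg_finite A e)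

theorem finrank_sp (D : Type*) [DivisionRing D] (A : Set (Mn n)) (e : ℕ) :
    finrank D (sp D A e) = cnt A e := supported_finrank _

theorem sp_mono (D : Type*) [Ring D] {A B : Set (Mn n)} {e : ℕ} (h : dg A e ⊆ B) :
    sp D A e ≤ sp D B e := Finsupp.supported_mono fun _ hα => ⟨h hα, hα.2⟩

@[simp] theorem sn_last (β : Mn n) (w : ℕ) : sn β w (Fin.last n) = w := by
  simp [sn]

@[simp] theorem sn_castSucc (β : Mn n) (w : ℕ) (i : Fin n) : sn β w i.castSucc = β i := by
  simp [sn]

theorem mn_ext {α β : Mn (n + 1)} (h : ∀ i : Fin n, α i.castSucc = β i.castSucc)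
    (h' : α (Fin.last n) = β (Fin.last n)) : α = β :=
  Finsupp.ext fun i => Fin.lastCases h' h i

theorem degree_sn (β : Mn n) (w : ℕ) : (sn β w).degree = β.degree + w := by
  rw [Finsupp.degree_eq_sum, Finsupp.degree_eq_sum, Fin.sum_univ_castSucc]
  simp

theorem exists_sn (α : Mn (n + 1)) : ∃ β w, α = sn β w :=
  ⟨Finsupp.equivFunOnFinite.symm fun i => α i.castSucc, α (Fin.last n),
    mn_ext (fun i => by simp) (by simp)⟩

theorem sn_inj {β β' : Mn n} {w w' : ℕ} (h : sn β w = sn β' w') : β = β' ∧ w = w' :=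
  ⟨Finsupp.ext fun i => by rw [← sn_castSucc β w, h, sn_castSucc],
    by rw [← sn_last β w, h, sn_last]⟩

theorem sn_add_castSucc (β : Mn n) (w k : ℕ) (j : Fin n) :
    sn β w + Finsupp.single j.castSucc k = sn (β + Finsupp.single j k) w :=
  mn_ext (fun i => by simp [Finsupp.single_apply])
    (by simp [Finsupp.single_apply, (Fin.castSucc_lt_last j).ne])

theorem sn_add_last (β : Mn n) (w k : ℕ) :
    sn β w + Finsupp.single (Fin.last n) k = sn β (w + k) :=
  mn_ext (fun i => by simp [Finsupp.single_apply, (Fin.castSucc_lt_last i).ne']) (by simp)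

theorem sn_mem_Pb {a : Fin (n + 1) → ℕ} {β : Mn n} {w : ℕ} :
    sn β w ∈ Pb a ↔ β ∈ Pb (fun i => a i.castSucc) ∨ a (Fin.last n) ≤ w := by
  simp only [Pb, Set.mem_setOf_eq, Fin.exists_fin_succ', sn_castSucc, sn_last]

end Vale.Agent.P200.B
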