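import Vale.Agent.P200.B.KDim

/-! Base change. -/

open Module Finset TensorProduct MvPolynomial

namespace Vale.Agent.P200.B

universe u

variable {K : Type*} [Field K] (D : Type*) [DivisionRing D] [Algebra K D] {n : ℕ}

section

variable {D} {ι : Type*} [DecidableEq ι] (b : Basis ι K D) {M : Type*} [AddCommGroup M] [Module K M]

theorem mem_bc_KBase (P : Submodule K M) (x : D ⊗[K] M) :
    x ∈ P.baseChange D ↔ ∀ j, equivFinsuppOfBasisLeft b x j ∈ P := by
  constructor
  · rintro ⟨y, rfl⟩ j
    induction y with
    | zero => simp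
    | tmul d p =>
      rw [LinearMap.baseChange_tmul, equivFinsuppOfBasisLeft_apply_tmul_apply]
      exact P.smul_mem _ p.2
    | add y z hy hz =>
      rw [map_add, map_add, Finsupp.add_apply]
      exact add_mem hy hz
  · intro h
    rw [← (equivFinsuppOfBasisLeft b).symm_apply_apply x, equivFinsuppOfBasisLeft_symm_apply]
    exact Submodule.sum_mem _ fun j _ => Submodule.tmul_mem_baseChange_of_mem _ (h j)

theorem co_bc_KBase {M' : Type*} [AddCommGroup M'] [Module K M'] (f : M →ₗ[K] M') (x : D ⊗[K] M)
    (j : ι) :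
    equivFinsuppOfBasisLeft b (f.baseChange D x) j = f (equivFinsuppOfBasisLeft b x j) := by
  induction x with
  | zero => simp
  | tmul d p => simp
  | add y z hy hz => simp only [map_add, Finsupp.add_apply, hy, hz]

variable (K D M n) in
/-- components of a tensor -/
noncomputable def piKBase : D ⊗[K] (Finset (Fin n) → M) →ₗ[D] (Finset (Fin n) → D ⊗[K] M) :=
  LinearMap.pi fun T => (LinearMap.proj T : (Finset (Fin n) → M) →ₗ[K] M).baseChange D

theorem co_pi_KBase (y : D ⊗[K] (Finset (Fin n) → M)) (j : ι) (T : Finset (Fin n)) :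
    equivFinsuppOfBasisLeft b (piKBase K D n M y T) j = equivFinsuppOfBasisLeft b y j T :=
  co_bc_KBase b _ y j

include b in
theorem pi_bij_KBase : Function.Bijective (piKBase K D n M) := by
  constructor
  · intro y z h
    refine (equivFinsuppOfBasisLeft b).injective (Finsupp.ext fun j => funext fun T => ?_)
    rw [← co_pi_KBase, h, co_pi_KBase]
  · intro c
    refine ⟨∑ T, (LinearMap.single K (fun _ => M) T).baseChange D (c T), funext fun T => ?_⟩
    refine (equivFinsuppOfBasisLeft b).injective (Finsupp.ext fun j => ?_)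
    rw [co_pi_KBase, map_sum, Finsupp.finsetSum_apply]
    simp [co_bc_KBase, Pi.single_apply]

theorem co_zero_KBase (x : D ⊗[K] M) : x = 0 ↔ ∀ j, equivFinsuppOfBasisLeft b x j = 0 := by
  rw [← (equivFinsuppOfBasisLeft b).map_eq_zero_iff, Finsupp.ext_iff]
  rfl

theorem co_kd_KBase (m : Fin n → M →ₗ[K] M) (y : D ⊗[K] (Finset (Fin n) → M)) (j : ι)
    (T : Finset (Fin n)) :
    equivFinsuppOfBasisLeft b
      (kd (fun i => (m i).baseChange D) (piKBase K D n M y) T) j =
      kd m (equivFinsuppOfBasisLeft b y j) T := by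
  rw [kd_apply, kd_apply, map_sum, Finsupp.finsetSum_apply]
  refine sum_congr rfl fun i _ => ?_
  rw [map_zsmul, Finsupp.smul_apply, co_bc_KBase, co_pi_KBase]

end

theorem lam_baseChange {M : Type*} [AddCommGroup M] [Module K M] (m : Fin n → M →ₗ[K] M)
    (W : Submodule K M) (p : ℕ) :
    lam (fun i => (m i).baseChange D) (W.baseChange D) p = lam m W p := by
  classical
  let b := Basis.ofVectorSpace K D
  let E := LinearEquiv.ofBijective (piKBase K D n M) (pi_bij_KBase b)
  have e : ((ch W p ⊓ LinearMap.ker (kd m)).baseChange D).map E.toLinearMap =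
      ch (W.baseChange D) p ⊓ LinearMap.ker (kd fun i => (m i).baseChange D) := by
    ext c
    obtain ⟨y, rfl⟩ := E.surjective c
    rw [Submodule.mem_map_equiv, LinearEquiv.symm_apply_apply, mem_bc_KBase b,
      LinearEquiv.ofBijective_apply]
    simp only [Submodule.mem_inf, mem_ch, LinearMap.mem_ker, funext_iff, Pi.zero_apply,
      mem_bc_KBase b, co_zero_KBase b, co_kd_KBase, co_pi_KBase]
    exact ⟨fun h => ⟨⟨fun T hT j => (h j).1.1 T hT, fun T hT j => (h j).1.2 T hT⟩,
      fun T j => (h j).2 T⟩,
      fun h j => ⟨⟨fun T hT => h.1.1 T hT j, fun T hT => h.1.2 T hT j⟩, fun T => h.2 T j⟩⟩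
  rw [lam, lam, ← e, LinearEquiv.finrank_map_eq, Groebner.finrank_bc]

variable (K) in
theorem lamM_base (A : Set (Mn n)) (p e : ℕ) : lamM D A p e = lamM K A p e := by
  classical
  rw [lamM, lamM, ← lam_baseChange D, ← lam_map (fun i => (sh K i).baseChange D) (sh D)
    (finsuppScalarRight K D D (Mn n)).toLinearMap (LinearEquiv.injective _)]
  · congr 1
    rw [sp, sp, Finsupp.supported_eq_span_single, Finsupp.supported_eq_span_single,
      Submodule.baseChange_span, Submodule.map_span, Set.image_image, Set.image_image]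
    congr 2
    funext α
    ext β
    simp [Finsupp.single_apply]
  · intro i x
    obtain ⟨y, rfl⟩ := (finsuppScalarRight K D D (Mn n)).symm.surjective x
    induction y using Finsupp.induction_linear with
    | zero => simp
    | add a b ha hb => simp only [map_add, ha, hb]
    | single α d =>
      rw [LinearEquiv.coe_coe, LinearEquiv.apply_symm_apply, finsuppScalarRight_symm_apply_single,
        LinearMap.baseChange_tmul, sh_single, sh_single,
        ← finsuppScalarRight_symm_apply_single (S := D),
        LinearEquiv.apply_symm_apply]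

theorem lamI_span (A : Set (Mn n)) (hA : ∀ α ∈ A, ∀ i, α + Finsupp.single i 1 ∈ A) (p e : ℕ) :
    lamI (Ideal.span ((fun α => monomial α (1 : K)) '' A)) p e = lamM K A p e := by
  have hr : ∀ (x : MvPolynomial (Fin n) K) α, (basisMonomials (Fin n) K).repr x α = coeff α x :=
    fun _ _ => rfl
  rw [lamI, lamM, ← lam_map _ (sh K) (basisMonomials (Fin n) K).repr.toLinearMap
    (LinearEquiv.injective _)]
  · congr 1
    ext x
    obtain ⟨y, rfl⟩ := (basisMonomials (Fin n) K).repr.surjective x
    rw [Submodule.mem_map_equiv, LinearEquiv.symm_apply_apply, mem_sp, pI, Submodule.mem_inf,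
      Groebner.hom_eq, mem_restrictSupport_iff, Submodule.restrictScalars_mem,
      mem_ideal_span_monomial_image]
    simp only [hr, ← MvPolynomial.mem_support_iff]
    constructor
    · rintro ⟨h1, h2⟩ β hβ
      obtain ⟨α, hα, hle⟩ := h1 β hβ
      exact ⟨Groebner.upper_of_succ A hA α hα β hle, h2 hβ⟩
    · intro h
      exact ⟨fun β hβ => ⟨β, (h β hβ).1, le_rfl⟩, fun β hβ => (h β hβ).2⟩
  · intro i x
    induction x using MvPolynomial.induction_on' with
    | add a b ha hb => simp only [map_add, ha, hb]
    | monomial α d =>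
      have h : ∀ β, (basisMonomials (Fin n) K).repr (monomial β d) = Finsupp.single β d :=
        fun _ => rfl
      rw [LinearMap.mulLeft_apply, LinearEquiv.coe_coe, X, monomial_mul, one_mul, h, h, sh_single,
        add_comm]

theorem lamI_base (I : Ideal (MvPolynomial (Fin n) K)) (p e : ℕ) :
    lamI I p e = lam (fun i => LinearMap.mulRight D ((1 : D) ⊗ₜ[K] (X i : MvPolynomial (Fin n) K)))
      ((pI I e).baseChange D) p := by
  rw [lamI, ← lam_baseChange D]
  congr 1
  funext i
  refine LinearMap.ext fun x => ?_
  induction x with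
  | zero => simp
  | tmul d q => simp [mul_comm]
  | add y z hy hz => simp only [map_add, hy, hz]

end Vale.Agent.P200.B
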