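import Vale.Agent.P200.B.KDim

/-! Betti numbers through the ranks of the differential. -/

open Module Finset MvPolynomial

namespace Vale.Agent.P200.B

universe u

variable {K : Type*} [Field K] {n : ℕ}

/-- the degree `d` part of the quotient -/
noncomputable def pQ (I : Ideal (MvPolynomial (Fin n) K)) (d : ℕ) :
    Submodule K (MvPolynomial (Fin n) K ⧸ I) :=
  (homogeneousSubmodule (Fin n) K d).map (Ideal.Quotient.mkₐ K I).toLinearMap

/-- the rank of the differential on `Λ^p ⊗ (S/I)_d` -/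
noncomputable def rk (I : Ideal (MvPolynomial (Fin n) K)) (p d : ℕ) : ℕ :=
  finrank K ((ch (pQ I d) p).map (kos I))

theorem rn_KBr1 {V V' : Type*} [AddCommGroup V] [Module K V] [AddCommGroup V'] [Module K V']
    (f : V →ₗ[K] V') (W : Submodule K V) [Module.Finite K W] :
    finrank K (W.map f) + finrank K ↥(W ⊓ LinearMap.ker f) = finrank K W := by
  rw [← LinearMap.finrank_range_add_finrank_ker (f.domRestrict W), LinearMap.range_domRestrict,
    LinearMap.ker_domRestrict, ← Submodule.finrank_map_subtype_eq W, Submodule.map_comap_subtype]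

instance fin_KBr1 (I : Ideal (MvPolynomial (Fin n) K)) (d : ℕ) : Module.Finite K (pQ I d) :=
  have := Groebner.finite_hom (K := K) (n := n) d
  Module.Finite.map _ _

theorem betti_KBr1 (I : Ideal (MvPolynomial (Fin n) K)) (p d : ℕ) :
    betti I p d + rk I p d + finrank K ↥(cyc I p d ⊓ LinearMap.range (kos I)) =
      n.choose p * finrank K (pQ I d) := by
  have := ch_finite (n := n) (pQ I d) p
  have h1 := rn_KBr1 (kos I) (ch (pQ I d) p)
  have : Module.Finite K (cyc I p d) :=
    Submodule.finiteDimensional_of_le (S₂ := ch (pQ I d) p) inf_le_left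
  have h2 := Submodule.finrank_quotient_add_finrank
    ((LinearMap.range (kos I)).comap (cyc I p d).subtype)
  rw [← Submodule.finrank_map_subtype_eq (cyc I p d), Submodule.map_comap_subtype] at h2
  rw [finrank_ch] at h1
  change betti I p d + _ = _ at h2
  change rk I p d + finrank K (cyc I p d) = _ at h1
  omega

theorem hc_KBr1 (i : Fin n) (g : MvPolynomial (Fin n) K) :
    homogeneousComponent 0 (X i * g) = 0 ∧
      ∀ d, homogeneousComponent (d + 1) (X i * g) = X i * homogeneousComponent d g := by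
  induction g using MvPolynomial.induction_on' with
  | add p q hp hq =>
    refine ⟨?_, fun d => ?_⟩
    · rw [mul_add, map_add, hp.1, hq.1, add_zero]
    · rw [mul_add, map_add, hp.2, hq.2, map_add, mul_add]
  | monomial α c =>
    have h1 : monomial α c ∈ homogeneousSubmodule (Fin n) K α.degree :=
      isHomogeneous_monomial c rfl
    have h2 : X i * monomial α c ∈ homogeneousSubmodule (Fin n) K (1 + α.degree) :=
      (isHomogeneous_X K i).mul h1
    refine ⟨?_, fun d => ?_⟩
    · rw [homogeneousComponent_of_mem h2, if_neg (by omega)]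
    · rw [homogeneousComponent_of_mem h2, homogeneousComponent_of_mem h1]
      by_cases h : d = α.degree
      · rw [if_pos h, if_pos (by omega)]
      · rw [if_neg h, if_neg (by omega), mul_zero]

theorem proj_KBr1 (I : Ideal (MvPolynomial (Fin n) K))
    (hI : ∀ g ∈ I, ∀ d, homogeneousComponent d g ∈ I) :
    ∃ π : ℕ → (MvPolynomial (Fin n) K ⧸ I) →ₗ[K] (MvPolynomial (Fin n) K ⧸ I),
      (∀ d x, π d x ∈ pQ I d) ∧ (∀ d, ∀ x ∈ pQ I d, π d x = x) ∧
      (∀ i x, π 0 (Ideal.Quotient.mk I (X i) * x) = 0) ∧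
      ∀ d i x, π (d + 1) (Ideal.Quotient.mk I (X i) * x) = Ideal.Quotient.mk I (X i) * π d x := by
  obtain ⟨s, hs⟩ := (Ideal.Quotient.mkₐ K I).toLinearMap.exists_rightInverse_of_surjective
    (LinearMap.range_eq_top.2 (Ideal.Quotient.mkₐ_surjective K I))
  let π := fun d => (Ideal.Quotient.mkₐ K I).toLinearMap ∘ₗ homogeneousComponent d ∘ₗ s
  have hπ : ∀ d g, π d (Ideal.Quotient.mk I g) =
      Ideal.Quotient.mk I (homogeneousComponent d g) := fun d g => by
    refine Ideal.Quotient.eq.2 ?_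
    rw [LinearMap.comp_apply, ← map_sub]
    exact hI _ (Ideal.Quotient.eq.1 (LinearMap.congr_fun hs (Ideal.Quotient.mk I g))) d
  refine ⟨π, fun d x => ⟨_, homogeneousComponent_mem d _, rfl⟩, ?_, fun i x => ?_,
    fun d i x => ?_⟩
  · rintro d _ ⟨g, hg, rfl⟩
    exact (hπ d g).trans (by rw [homogeneousComponent_of_mem hg, if_pos rfl]; rfl)
  · obtain ⟨g, rfl⟩ := Ideal.Quotient.mk_surjective x
    rw [← map_mul, hπ, (hc_KBr1 i g).1, map_zero]
  · obtain ⟨g, rfl⟩ := Ideal.Quotient.mk_surjective x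
    rw [← map_mul, hπ, hπ, (hc_KBr1 i g).2, map_mul]

theorem finrank_pQ (I : Ideal (MvPolynomial (Fin n) K)) (d : ℕ) :
    finrank K (pQ I d) + dimIn I d = finrank K (homogeneousSubmodule (Fin n) K d) := by
  have := Groebner.finite_hom (K := K) (n := n) d
  rw [← rn_KBr1 (Ideal.Quotient.mkₐ K I).toLinearMap (homogeneousSubmodule (Fin n) K d), dimIn,
    inf_comm]
  have e : LinearMap.ker (Ideal.Quotient.mkₐ K I).toLinearMap = I.restrictScalars K :=
    Submodule.ext fun _ => Ideal.Quotient.eq_zero_iff_mem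
  rw [e]
  rfl

theorem rk_zero (I : Ideal (MvPolynomial (Fin n) K)) (d : ℕ) : rk I 0 d = 0 := by
  have e : (ch (pQ I d) 0).map (kos I) = ⊥ := by
    rw [eq_bot_iff]
    rintro _ ⟨c, hc, rfl⟩
    exact kd_zero _ hc
  rw [rk, e, finrank_bot]

theorem betti_zero (I : Ideal (MvPolynomial (Fin n) K))
    (hI : ∀ g ∈ I, ∀ d, homogeneousComponent d g ∈ I) (p : ℕ) :
    betti I p 0 + rk I p 0 = n.choose p * finrank K (pQ I 0) := by
  obtain ⟨π, -, h2, h3, -⟩ := proj_KBr1 I hI
  have e : cyc I p 0 ⊓ LinearMap.range (kos I) = ⊥ := by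
    rw [eq_bot_iff]
    rintro _ ⟨⟨hc, -⟩, y, rfl⟩
    funext T
    by_cases hT : T.card = p
    · rw [← h2 0 _ ((mem_ch.1 hc).1 T hT), kos, kd_apply, map_sum]
      exact sum_eq_zero fun i _ => by rw [map_zsmul, LinearMap.mulLeft_apply, h3, smul_zero]
    · exact (mem_ch.1 hc).2 T hT
  rw [← betti_KBr1, e, finrank_bot, add_zero]

theorem betti_succ (I : Ideal (MvPolynomial (Fin n) K))
    (hI : ∀ g ∈ I, ∀ d, homogeneousComponent d g ∈ I) (p d : ℕ) :
    betti I p (d + 1) + rk I p (d + 1) + rk I (p + 1) d =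
      n.choose p * finrank K (pQ I (d + 1)) := by
  obtain ⟨π, h1, h2, -, h4⟩ := proj_KBr1 I hI
  have e : cyc I p (d + 1) ⊓ LinearMap.range (kos I) = (ch (pQ I d) (p + 1)).map (kos I) := by
    refine le_antisymm ?_ ?_
    · rintro _ ⟨⟨hc, -⟩, y, rfl⟩
      refine ⟨fun T => if T.card = p + 1 then π d (y T) else 0,
        mem_ch.2 ⟨fun T hT => ?_, fun T hT => if_neg hT⟩, funext fun T => ?_⟩
      · rw [if_pos hT]
        exact h1 d _
      by_cases hT : T.card = p
      · rw [← h2 _ _ ((mem_ch.1 hc).1 T hT), kos, kd_apply, kd_apply, map_sum]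
        refine sum_congr rfl fun i hi => ?_
        rw [map_zsmul, LinearMap.mulLeft_apply, LinearMap.mulLeft_apply, h4,
          if_pos (by rw [card_insert_of_notMem (mem_compl.1 hi), hT])]
      · rw [(mem_ch.1 hc).2 T hT, kos, kd_apply]
        refine sum_eq_zero fun i hi => ?_
        rw [if_neg (by rw [card_insert_of_notMem (mem_compl.1 hi)]; omega), map_zero, smul_zero]
    · rintro _ ⟨y, hy, rfl⟩
      refine ⟨⟨kd_mem _ ?_ hy, kd_kd _ (fun i j x => mul_left_comm _ _ _) y⟩, y, rfl⟩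
      rintro i _ ⟨g, hg, rfl⟩
      exact ⟨X i * g, add_comm 1 d ▸ (isHomogeneous_X K i).mul hg, map_mul (Ideal.Quotient.mk I) _ _⟩
  rw [← betti_KBr1, e]
  rfl

end Vale.Agent.P200.B
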