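import Vale.Agent.P200.B.KDim

/-! Exactness of the Koszul complex of the polynomial ring. -/

open Module Finset

namespace Vale.Agent.P200.B

universe u

variable {D : Type*} [DivisionRing D] {n : ℕ}

/-- division by a variable -/
noncomputable def kexS (D : Type*) [DivisionRing D] (j : Fin n) :
    (Mn n →₀ D) →ₗ[D] (Mn n →₀ D) :=
  Finsupp.lcomapDomain (· + Finsupp.single j 1) (add_left_injective _)

theorem kex_apply (j : Fin n) (x : Mn n →₀ D) (α : Mn n) :
    kexS D j x α = x (α + Finsupp.single j 1) := rfl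

theorem kex_add (i : Fin n) (x : Mn n →₀ D) (α : Mn n) :
    sh D i x (α + Finsupp.single i 1) = x α :=
  Finsupp.mapDomain_apply (add_left_injective _) x α

theorem kex_zero {i : Fin n} (x : Mn n →₀ D) {α : Mn n} (h : α i = 0) : sh D i x α = 0 := by
  refine Finsupp.mapDomain_of_notMem_range x α ?_
  rintro ⟨β, rfl⟩
  simp at h

theorem kex_cases (i : Fin n) (α : Mn n) : α i = 0 ∨ ∃ β, α = β + Finsupp.single i 1 := by
  by_cases h : α i = 0
  · exact Or.inl h
  · exact Or.inr ⟨α - Finsupp.single i 1, (tsub_add_cancel_of_le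
      (Finsupp.single_le_iff.2 (Nat.one_le_iff_ne_zero.2 h))).symm⟩

theorem kex_self (j : Fin n) (x : Mn n →₀ D) : kexS D j (sh D j x) = x := by
  ext α
  rw [kex_apply, kex_add]

theorem kex_comm {i j : Fin n} (h : i ≠ j) (x : Mn n →₀ D) :
    kexS D j (sh D i x) = sh D i (kexS D j x) := by
  ext α
  rw [kex_apply]
  rcases kex_cases i α with h0 | ⟨β, rfl⟩
  · rw [kex_zero _ h0, kex_zero]
    simp [h0, h]
  · rw [kex_add, add_right_comm, kex_add, kex_apply]

theorem kex_step (j : Fin n) {u : Finset (Fin n) → Mn n →₀ D} (h0 : kd (sh D) u = 0)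
    (T : Finset (Fin n)) : u T - kd (sh D) (wedge j fun T => kexS D j (u T)) T =
      if j ∈ T then 0 else u T - sh D j (kexS D j (u T)) := by
  have h1 := congrFun (kd_wedge (sh D) j fun T => kexS D j (u T)) T
  rw [Pi.add_apply] at h1
  rw [eq_sub_of_add_eq h1, wedge]
  split_ifs with hj
  · have h2 : kd (sh D) (fun T => kexS D j (u T)) (T.erase j) -
        kexS D j (kd (sh D) u (T.erase j)) =
        ((-1 : ℤ) ^ ((T.erase j).filter (· < j)).card) • (sh D j (kexS D j (u T)) - u T) := by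
      rw [kd_apply, kd_apply, map_sum, ← sum_sub_distrib, sum_eq_single j]
      · rw [map_zsmul, kex_self, insert_erase hj, smul_sub]
      · intro i _ hi
        rw [map_zsmul, kex_comm hi, sub_self]
      · intro h
        exact absurd (mem_compl.2 (notMem_erase j T)) h
    rw [h0, Pi.zero_apply, map_zero, sub_zero] at h2
    rw [h2, smul_smul, ← mul_pow, neg_mul_neg, one_mul, one_pow, one_smul]
    abel
  · rw [sub_zero]

theorem kex_mem (j : Fin n) {p e : ℕ} {u : Finset (Fin n) → Mn n →₀ D}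
    (hu : u ∈ ch (sp D Set.univ (e + 1)) p) :
    (fun T => kexS D j (u T)) ∈ ch (sp D Set.univ e) p := by
  obtain ⟨h1, h2⟩ := mem_ch.1 hu
  refine mem_ch.2 ⟨fun T hT => mem_sp.2 fun α hα => ⟨trivial, ?_⟩, fun T hT => by
    simp only [h2 T hT, map_zero]⟩
  have := (mem_sp.1 (h1 T hT) _ hα).2
  rw [map_add, Finsupp.degree_single] at this
  omega

theorem kex_sh (i : Fin n) {e : ℕ} {x : Mn n →₀ D} (hx : x ∈ sp D Set.univ e) :
    sh D i x ∈ sp D Set.univ (e + 1) := by
  refine mem_sp.2 fun α hα => ⟨trivial, ?_⟩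
  rcases kex_cases i α with h0 | ⟨β, rfl⟩
  · exact absurd (kex_zero x h0) hα
  · rw [kex_add] at hα
    rw [map_add, Finsupp.degree_single, (mem_sp.1 hx _ hα).2]

theorem kex_ind {p e : ℕ} {c : Finset (Fin n) → Mn n →₀ D}
    (hc : c ∈ ch (sp D Set.univ (e + 1)) p) (h0 : kd (sh D) c = 0) (S : Finset (Fin n)) :
    ∃ y ∈ ch (sp D Set.univ e) (p + 1),
      ∀ (T : Finset (Fin n)) (α : Mn n), (c - kd (sh D) y :) T α ≠ 0 → ∀ j ∈ S, α j = 0 := by
  induction S using Finset.induction_on with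
  | empty => exact ⟨0, zero_mem _, fun _ _ _ _ h => absurd h (notMem_empty _)⟩
  | insert j S _ ih =>
    obtain ⟨y, hy, h⟩ := ih
    have hu : c - kd (sh D) y ∈ ch (sp D Set.univ (e + 1)) p :=
      sub_mem hc (kd_mem _ (fun i _ hx => kex_sh i hx) hy)
    have hu0 : kd (sh D) (c - kd (sh D) y) = 0 := by
      rw [map_sub, h0, kd_kd _ sh_comm, sub_zero]
    refine ⟨y + wedge j fun T => kexS D j ((c - kd (sh D) y :) T),
      add_mem hy (wedge_mem j (kex_mem j hu)), fun T α hα => ?_⟩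
    rw [map_add, ← sub_sub, Pi.sub_apply, kex_step j hu0] at hα
    split_ifs at hα with hj
    · exact absurd rfl hα
    · rw [Finsupp.sub_apply] at hα
      rcases kex_cases j α with h1 | ⟨β, rfl⟩
      · rw [kex_zero _ h1, sub_zero] at hα
        exact forall_mem_insert _ _ _ |>.2 ⟨h1, h T α hα⟩
      · rw [kex_add, kex_apply, sub_self] at hα
        exact absurd rfl hα

theorem exact_succ {p e : ℕ} {c : Finset (Fin n) → Mn n →₀ D}
    (hc : c ∈ ch (sp D Set.univ (e + 1)) p) (h0 : kd (sh D) c = 0) :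
    ∃ y ∈ ch (sp D Set.univ e) (p + 1), kd (sh D) y = c := by
  obtain ⟨y, hy, h⟩ := kex_ind hc h0 univ
  refine ⟨y, hy, (sub_eq_zero.1 ?_).symm⟩
  obtain ⟨h1, h2⟩ := mem_ch.1 (sub_mem hc (kd_mem _ (fun i _ hx => kex_sh i hx) hy))
  funext T
  by_cases hT : T.card = p
  · ext α
    by_contra hα
    have e1 := (mem_sp.1 (h1 T hT) α hα).2
    have e2 : α = 0 := Finsupp.ext fun j => h T α hα j (mem_univ j)
    rw [e2, map_zero] at e1
    omega
  · exact h2 T hT

theorem exact_zero {p : ℕ} {c : Finset (Fin n) → Mn n →₀ D}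
    (hc : c ∈ ch (sp D Set.univ 0) (p + 1)) (h0 : kd (sh D) c = 0) : c = 0 := by
  obtain ⟨h1, h2⟩ := mem_ch.1 hc
  have hz : ∀ j, (fun T => kexS D j (c T)) = 0 := fun j => by
    funext T
    by_cases hT : T.card = p + 1
    · ext α
      by_contra hα
      have := (mem_sp.1 (h1 T hT) _ hα).2
      rw [map_add, Finsupp.degree_single] at this
      omega
    · simp only [h2 T hT, map_zero, Pi.zero_apply]
  funext T
  by_cases hT : T.card = p + 1
  · obtain ⟨j, hj⟩ := card_pos.1 (show 0 < T.card by omega)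
    have h3 := kex_step j h0 T
    have h4 : wedge j (0 : Finset (Fin n) → Mn n →₀ D) = 0 := by
      funext T
      simp [wedge]
    rwa [hz, h4, map_zero, if_pos hj, Pi.zero_apply, sub_zero] at h3
  · exact h2 T hT

theorem mu_top (A : Set (Mn n)) (q k : ℕ) :
    mu (sh D) (sp D Set.univ k) (sp D A (k + 1)) (q + 1) =
      lamM D (Set.univ : Set (Mn n)) (q + 1) k + lamM D A q (k + 1) := by
  have := sp_finite D (Set.univ : Set (Mn n)) k
  have := ch_finite (n := n) (sp D (Set.univ : Set (Mn n)) k) (q + 1)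
  rw [mu, lamM, lamM, lam, lam]
  set V := ch (sp D (Set.univ : Set (Mn n)) k) (q + 1) ⊓
    (Submodule.pi Set.univ fun _ => sp D A (k + 1)).comap (kd (sh D)) with hV
  have : Module.Finite D V := Submodule.finiteDimensional_inf_left _ _
  have h1 := LinearMap.finrank_range_add_finrank_ker (K := D) (V := V)
    (kd (n := n) (sh D) ∘ₗ V.subtype)
  have h2 : V ⊓ LinearMap.ker (kd (sh D)) =
      ch (sp D Set.univ k) (q + 1) ⊓ LinearMap.ker (kd (sh D)) := by
    refine le_antisymm (inf_le_inf_right _ inf_le_left) fun x hx => ⟨⟨hx.1, ?_⟩, hx.2⟩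
    have : kd (sh D) x = 0 := hx.2
    show kd (sh D) x ∈ Submodule.pi Set.univ fun _ => sp D A (k + 1)
    rw [this]
    exact zero_mem _
  have h3 : V.map (kd (sh D)) = ch (sp D A (k + 1)) q ⊓ LinearMap.ker (kd (sh D)) := by
    refine le_antisymm ?_ fun x hx => ?_
    · rintro _ ⟨y, ⟨hy, hy'⟩, rfl⟩
      refine ⟨mem_ch.2 ⟨fun T _ => hy' T trivial, ?_⟩, kd_kd _ sh_comm y⟩
      exact (mem_ch.1 (kd_mem _ (fun i _ hx => kex_sh i hx) hy)).2
    · obtain ⟨a1, a2⟩ := mem_ch.1 hx.1
      obtain ⟨y, hy, rfl⟩ := exact_succ (e := k) (p := q) (c := x)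
        (mem_ch.2 ⟨fun T hT => sp_mono D (Set.subset_univ _) (a1 T hT), a2⟩) hx.2
      refine ⟨y, ⟨hy, fun T _ => ?_⟩, rfl⟩
      by_cases hT : T.card = q
      · exact a1 T hT
      · rw [a2 T hT]
        exact zero_mem _
  rw [LinearMap.range_comp, Submodule.range_subtype, LinearMap.ker_comp,
    ← Submodule.finrank_map_subtype_eq V, Submodule.map_comap_subtype, h2, h3] at h1
  omega

end Vale.Agent.P200.B
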