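import Vale.Agent.P200.B.KBr1
import Vale.Agent.P200.B.KExact
import Vale.Agent.P200.B.KBase

/-! Ranks through linear syzygies, and the comparison of Betti numbers. -/

open Module Finset MvPolynomial

namespace Vale.Agent.P200.B

universe u

variable {K : Type*} [Field K] {n : ℕ}

theorem kbr2_rank {V W : Type*} [AddCommGroup V] [Module K V] [AddCommGroup W] [Module K W]
    (f : V →ₗ[K] W) (B : Submodule K V) [Module.Finite K B] :
    finrank K (B.map f) + finrank K ↥(B ⊓ LinearMap.ker f) = finrank K B := by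
  have h := (f.domRestrict B).finrank_range_add_finrank_ker
  rwa [LinearMap.range_domRestrict, LinearMap.ker_domRestrict,
    ← Submodule.finrank_map_subtype_eq B, Submodule.map_comap_subtype] at h

theorem kbr2_repr (f : MvPolynomial (Fin n) K) (α : Mn n) :
    (basisMonomials (Fin n) K).repr f α = coeff α f := rfl

theorem kbr2_sh (i : Fin n) (f : MvPolynomial (Fin n) K) :
    (basisMonomials (Fin n) K).repr (X i * f) = sh K i ((basisMonomials (Fin n) K).repr f) := by
  have h : (basisMonomials (Fin n) K).repr.toLinearMap ∘ₗ LinearMap.mulLeft K (X i) =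
      sh K i ∘ₗ (basisMonomials (Fin n) K).repr.toLinearMap := by
    refine (basisMonomials (Fin n) K).ext fun α => ?_
    have h1 : (X i : MvPolynomial (Fin n) K) * basisMonomials (Fin n) K α =
        basisMonomials (Fin n) K (α + Finsupp.single i 1) := by
      simp only [coe_basisMonomials, X, monomial_mul, one_mul, add_comm]
    simp only [LinearMap.comp_apply, LinearMap.mulLeft_apply, LinearEquiv.coe_coe, h1,
      Basis.repr_self, sh_single]
  exact LinearMap.congr_fun h f

theorem kbr2_mem {e : ℕ} {f : MvPolynomial (Fin n) K} :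
    (basisMonomials (Fin n) K).repr f ∈ sp K Set.univ e ↔ f ∈ homogeneousSubmodule (Fin n) K e := by
  rw [mem_sp, mem_homogeneousSubmodule]
  refine forall_congr' fun α => ?_
  rw [kbr2_repr, Finsupp.degree_eq_weight_one]
  exact imp_congr_right fun _ => and_iff_right (Set.mem_univ _)

theorem kbr2_exact {p e : ℕ} {c : Finset (Fin n) → MvPolynomial (Fin n) K}
    (hc : c ∈ ch (homogeneousSubmodule (Fin n) K (e + 1)) p)
    (h0 : kd (fun i => LinearMap.mulLeft K (X i : MvPolynomial (Fin n) K)) c = 0) :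
    ∃ y ∈ ch (homogeneousSubmodule (Fin n) K e) (p + 1),
      kd (fun i => LinearMap.mulLeft K (X i : MvPolynomial (Fin n) K)) y = c := by
  have hk := kd_comp (fun i => LinearMap.mulLeft K (X i : MvPolynomial (Fin n) K)) (sh K)
    (basisMonomials (Fin n) K).repr.toLinearMap.toAddMonoidHom kbr2_sh
  obtain ⟨y, hy, hy'⟩ := exact_succ (p := p) (e := e)
    (c := fun T => (basisMonomials (Fin n) K).repr (c T))
    (mem_ch.2 ⟨fun T hT => kbr2_mem.2 ((mem_ch.1 hc).1 T hT),
      fun T hT => by rw [(mem_ch.1 hc).2 T hT, map_zero]⟩)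
    ((hk c).trans (by rw [h0]; exact funext fun _ => map_zero _))
  refine ⟨fun T => (basisMonomials (Fin n) K).repr.symm (y T), mem_ch.2
    ⟨fun T hT => kbr2_mem.1 ?_, fun T hT => by rw [(mem_ch.1 hy).2 T hT, map_zero]⟩, ?_⟩
  · rw [LinearEquiv.apply_symm_apply]
    exact (mem_ch.1 hy).1 T hT
  · funext T
    refine (basisMonomials (Fin n) K).repr.injective ?_
    have h1 := congrFun (hk fun T => (basisMonomials (Fin n) K).repr.symm (y T)) T
    simp only [LinearMap.toAddMonoidHom_coe, LinearEquiv.coe_coe,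
      LinearEquiv.apply_symm_apply] at h1
    exact h1.symm.trans (congrFun hy' T)

theorem rk_succ (I : Ideal (MvPolynomial (Fin n) K)) (p d : ℕ) :
    rk I (p + 1) d + lamI I p (d + 1) =
      lamI (⊤ : Ideal (MvPolynomial (Fin n) K)) p (d + 1) := by
  have htop : pI (⊤ : Ideal (MvPolynomial (Fin n) K)) (d + 1) =
      homogeneousSubmodule (Fin n) K (d + 1) := by
    rw [pI, Submodule.restrictScalars_top, top_inf_eq]
  have hk : ∀ c, kos I ((Ideal.Quotient.mkₐ K I).toLinearMap.compLeft (Finset (Fin n)) c) =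
      (Ideal.Quotient.mkₐ K I).toLinearMap.compLeft (Finset (Fin n))
        (kd (fun i => LinearMap.mulLeft K (X i : MvPolynomial (Fin n) K)) c) :=
    kd_comp (fun i => LinearMap.mulLeft K (X i : MvPolynomial (Fin n) K))
      (fun i => LinearMap.mulLeft K (Ideal.Quotient.mk I (X i)))
      (Ideal.Quotient.mkₐ K I).toLinearMap.toAddMonoidHom fun _ _ => rfl
  have hf : Module.Finite K (homogeneousSubmodule (Fin n) K (d + 1)) :=
    Module.Finite.iff_fg.2 (homogeneousSubmodule_fg _ _ _)
  have hf' := ch_finite (n := n) (homogeneousSubmodule (Fin n) K (d + 1)) p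
  have hf'' : Module.Finite K ↥(ch (homogeneousSubmodule (Fin n) K (d + 1)) p ⊓
      LinearMap.ker (kd fun i => LinearMap.mulLeft K (X i : MvPolynomial (Fin n) K))) :=
    Submodule.finiteDimensional_of_le inf_le_left
  have h := kbr2_rank ((Ideal.Quotient.mkₐ K I).toLinearMap.compLeft (Finset (Fin n)))
    (ch (homogeneousSubmodule (Fin n) K (d + 1)) p ⊓
      LinearMap.ker (kd fun i => LinearMap.mulLeft K (X i : MvPolynomial (Fin n) K)))
  have h1 : (ch (homogeneousSubmodule (Fin n) K (d + 1)) p ⊓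
      LinearMap.ker (kd fun i => LinearMap.mulLeft K (X i : MvPolynomial (Fin n) K))).map
      ((Ideal.Quotient.mkₐ K I).toLinearMap.compLeft (Finset (Fin n))) =
      (ch (pQ I d) (p + 1)).map (kos I) := by
    refine le_antisymm ?_ ?_
    · rintro _ ⟨c, ⟨hc, hc0⟩, rfl⟩
      obtain ⟨y, hy, rfl⟩ := kbr2_exact hc hc0
      refine ⟨_, mem_ch.2 ⟨fun T hT => ⟨y T, (mem_ch.1 hy).1 T hT, rfl⟩, fun T hT => ?_⟩, hk y⟩
      exact (congrArg (Ideal.Quotient.mk I) ((mem_ch.1 hy).2 T hT)).trans (map_zero _)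
    · rintro _ ⟨z, hz, rfl⟩
      have h2 : ∀ T : Finset (Fin n), ∃ y : MvPolynomial (Fin n) K,
          (T.card = p + 1 → y ∈ homogeneousSubmodule (Fin n) K d) ∧ (T.card ≠ p + 1 → y = 0) ∧
            Ideal.Quotient.mk I y = z T := fun T => by
        by_cases hT : T.card = p + 1
        · obtain ⟨y, hy, hy'⟩ := (mem_ch.1 hz).1 T hT
          exact ⟨y, fun _ => hy, fun h => absurd hT h, hy'⟩
        · exact ⟨0, fun h => absurd h hT, fun _ => rfl, by rw [(mem_ch.1 hz).2 T hT, map_zero]⟩
      choose y hy1 hy2 hy3 using h2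
      refine ⟨_, ⟨kd_mem _ (W := homogeneousSubmodule (Fin n) K d) (fun i x hx => ?_)
        (mem_ch.2 ⟨hy1, hy2⟩), kd_kd _ (fun i j x => mul_left_comm _ _ _) y⟩, ?_⟩
      · rw [add_comm]
        exact (isHomogeneous_X K i).mul hx
      · rw [← hk]
        exact congrArg (kos I) (funext hy3)
  have h2 : (ch (homogeneousSubmodule (Fin n) K (d + 1)) p ⊓
      LinearMap.ker (kd fun i => LinearMap.mulLeft K (X i : MvPolynomial (Fin n) K))) ⊓
      LinearMap.ker ((Ideal.Quotient.mkₐ K I).toLinearMap.compLeft (Finset (Fin n))) =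
      ch (pI I (d + 1)) p ⊓
        LinearMap.ker (kd fun i => LinearMap.mulLeft K (X i : MvPolynomial (Fin n) K)) := by
    refine le_antisymm ?_ ?_
    · rintro c ⟨⟨hc, hc0⟩, hq⟩
      exact ⟨mem_ch.2 ⟨fun T hT => ⟨Ideal.Quotient.eq_zero_iff_mem.1 (congrFun hq T),
        (mem_ch.1 hc).1 T hT⟩, (mem_ch.1 hc).2⟩, hc0⟩
    · rintro c ⟨hc, hc0⟩
      refine ⟨⟨mem_ch.2 ⟨fun T hT => ((mem_ch.1 hc).1 T hT).2, (mem_ch.1 hc).2⟩, hc0⟩,
        funext fun T => Ideal.Quotient.eq_zero_iff_mem.2 ?_⟩
      by_cases hT : T.card = p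
      · exact ((mem_ch.1 hc).1 T hT).1
      · rw [(mem_ch.1 hc).2 T hT]
        exact I.zero_mem
  rw [h1, h2] at h
  rw [lamI, lamI, htop]
  exact h

theorem betti_le (I J : Ideal (MvPolynomial (Fin n) K))
    (hI : ∀ g ∈ I, ∀ d, homogeneousComponent d g ∈ I)
    (hJ : ∀ g ∈ J, ∀ d, homogeneousComponent d g ∈ J) (hH : ∀ d, dimIn J d = dimIn I d)
    (hl : ∀ p e, lamI I p e ≤ lamI J p e) (p d : ℕ) : betti I p d ≤ betti J p d := by
  have h1 : ∀ d, finrank K (pQ I d) = finrank K (pQ J d) := fun d => by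
    have := finrank_pQ I d
    have := finrank_pQ J d
    have := hH d
    omega
  have h2 : ∀ p d, rk J p d ≤ rk I p d := fun p d => by
    cases p with
    | zero => rw [rk_zero, rk_zero]
    | succ p =>
      have := rk_succ I p d
      have := rk_succ J p d
      have := hl p (d + 1)
      omega
  cases d with
  | zero =>
    have := betti_zero I hI p
    have := betti_zero J hJ p
    have := h2 p 0
    rw [h1] at *
    omega
  | succ d =>
    have := betti_succ I hI p d
    have := betti_succ J hJ p d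
    have := h2 p (d + 1)
    have := h2 (p + 1) d
    rw [h1] at *
    omega

end Vale.Agent.P200.B
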