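import Vale.Agent.P200.B.KExact
import Vale.Agent.P200.Eq.Final

/-! A chain map between the Koszul complexes of two coordinate systems. -/

open Module Finset TensorProduct MvPolynomial

namespace Vale.Agent.P200.B

universe u

namespace KCh1

variable (D : Type*) {R : Type*} [Ring D] [Ring R] [Module D R] [IsScalarTower D R R] {n : ℕ}

/-- the chain map identity on a basis vector -/
def Id (Z x : Fin n → R) (t : Finset (Fin n) → Finset (Fin n) → R) (T : Finset (Fin n)) : Prop :=
  kd (fun i => LinearMap.mulRight D (Z i)) (t T) =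
    fun T' => ∑ U, kd (fun i => LinearMap.mulRight D (x i)) (Pi.single T 1) U * t U T'

variable {D}

omit [IsScalarTower D R R] in
theorem single_mem {W : Submodule D R} (h : (1 : R) ∈ W) {T : Finset (Fin n)} {p : ℕ}
    (hT : T.card = p) : (Pi.single T 1 : Finset (Fin n) → R) ∈ ch W p := by
  refine mem_ch.2 ⟨fun U _ => ?_, fun U hU => Pi.single_eq_of_ne (by
    rintro rfl
    exact hU hT) _⟩
  rw [Pi.single_apply]
  split_ifs
  exacts [h, W.zero_mem]

omit [IsScalarTower D R R] in
theorem kd_single (m : Fin n → R →ₗ[D] R) {T U : Finset (Fin n)} (h : T.card ≤ U.card) :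
    kd m (Pi.single T 1) U = 0 := by
  rw [kd_apply]
  refine sum_eq_zero fun i hi => ?_
  rw [Pi.single_eq_of_ne, map_zero, smul_zero]
  rintro rfl
  rw [card_insert_of_notMem (mem_compl.1 hi)] at h
  omega

theorem kd_sum (x : Fin n → R) (c : Finset (Fin n) → R) (t : Finset (Fin n) → Finset (Fin n) → R) :
    kd (fun i => LinearMap.mulRight D (x i)) (fun T' => ∑ T, c T * t T T') =
      fun T' => ∑ T, c T * kd (fun i => LinearMap.mulRight D (x i)) (t T) T' := by
  have h : (fun T' => ∑ T, c T * t T T') = ∑ T, fun T' => c T * t T T' :=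
    funext fun T' => (Finset.sum_apply T' univ fun T T' => c T * t T T').symm
  rw [h, map_sum]
  funext T'
  rw [Finset.sum_apply]
  exact sum_congr rfl fun T _ => congrFun (kd_comp (fun i => LinearMap.mulRight D (x i)) _
    (AddMonoidHom.mulLeft (c T)) (fun i y => (mul_assoc _ _ _).symm) (t T)) T'

theorem lift_Id (Z x : Fin n → R) (t : Finset (Fin n) → Finset (Fin n) → R)
    (c : Finset (Fin n) → R) (h : ∀ T, c T ≠ 0 → Id D Z x t T) :
    kd (fun i => LinearMap.mulRight D (Z i)) (fun T' => ∑ T, c T * t T T') =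
      fun T' => ∑ T, kd (fun i => LinearMap.mulRight D (x i)) c T * t T T' := by
  have e : c = fun T' => ∑ T, c T * (Pi.single T 1 : Finset (Fin n) → R) T' := by
    funext T'
    rw [sum_eq_single T' (fun T _ hT => by rw [Pi.single_eq_of_ne' hT, mul_zero])
      (fun h => absurd (mem_univ _) h), Pi.single_eq_same, mul_one]
  have e2 := kd_sum (D := D) x c fun T => Pi.single T 1
  rw [← e] at e2
  rw [kd_sum, e2]
  funext T'
  simp only [sum_mul, mul_assoc]
  rw [sum_comm]
  refine sum_congr rfl fun T _ => ?_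
  by_cases hT : c T = 0
  · simp only [hT, zero_mul, sum_const_zero]
  · rw [← mul_sum]
    exact congrArg _ (congrFun (h T hT) T')

theorem exact_Z {K D : Type*} [Field K] [DivisionRing D] [Algebra K D]
    (Z : Fin n → D ⊗[K] MvPolynomial (Fin n) K)
    (hZ : ∀ i, Z i ∈ (homogeneousSubmodule (Fin n) K 1).baseChange D)
    (ψ : MvPolynomial (Fin n) K →ₐ[K] D ⊗[K] MvPolynomial (Fin n) K) (hψ : ∀ i, ψ (X i) = Z i)
    (hspan : (homogeneousSubmodule (Fin n) K 1).baseChange D ≤ Submodule.span D (Set.range Z))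
    {p : ℕ} {b : Finset (Fin n) → D ⊗[K] MvPolynomial (Fin n) K}
    (hb : b ∈ ch ((homogeneousSubmodule (Fin n) K 1).baseChange D) p)
    (h0 : kd (fun i => LinearMap.mulRight D (Z i)) b = 0) :
    ∃ y : Finset (Fin n) → D, (∀ T, T.card ≠ p + 1 → y T = 0) ∧
      kd (fun i => LinearMap.mulRight D (Z i)) (fun T => y T ⊗ₜ[K] 1) = b := by
  have hinj := Eq.Final.phi_inj Z hZ ψ hψ hspan
  have hmap := Groebner.map_supported Z hZ ψ hψ hspan 1
  have hsh := Groebner.phi_shift Z ψ hψ
  have hone : ∀ d : D, Finsupp.linearCombination D (fun β : Fin n →₀ ℕ => ψ (monomial β 1))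
      (Finsupp.single 0 d) = d ⊗ₜ[K] 1 := fun d => by
    rw [Finsupp.linearCombination_single, monomial_zero', C_1, map_one,
      Algebra.TensorProduct.one_def, smul_tmul', smul_eq_mul, mul_one]
  generalize Finsupp.linearCombination D (fun β : Fin n →₀ ℕ => ψ (monomial β 1)) = Φ
    at hinj hmap hsh hone
  have hc := kd_comp (sh D) (fun i => LinearMap.mulRight D (Z i)) Φ.toAddMonoidHom
    fun i x => hsh x i
  obtain ⟨hb1, hb2⟩ := mem_ch.1 hb
  have hv : ∀ T, ∃ v, Φ v = b T ∧ (T.card = p → v ∈ sp D Set.univ (0 + 1)) := by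
    intro T
    by_cases hT : T.card = p
    · obtain ⟨v, hv, e⟩ := hmap.ge (hb1 T hT)
      exact ⟨v, e, fun _ => mem_sp.2 fun α hα =>
        ⟨trivial, (Finsupp.mem_supported D v).1 hv (Finsupp.mem_support_iff.2 hα)⟩⟩
    · exact ⟨0, by rw [map_zero, hb2 T hT], fun h => absurd h hT⟩
  choose v hv1 hv2 using hv
  have hbv : b = fun T => Φ (v T) := funext fun T => (hv1 T).symm
  obtain ⟨y, hy, e⟩ := exact_succ (c := v)
    (mem_ch.2 ⟨hv2, fun T hT => hinj (by rw [hv1, hb2 T hT, map_zero])⟩)
    (funext fun T => hinj (by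
      have h := congrFun (hc v) T
      have h' : kd (fun i => LinearMap.mulRight D (Z i)) b T = Φ (kd (sh D) v T) := hbv ▸ h
      rw [← h', h0, Pi.zero_apply, Pi.zero_apply, map_zero]))
  obtain ⟨hy1, hy2⟩ := mem_ch.1 hy
  refine ⟨fun T => y T 0, fun T hT => DFunLike.congr_fun (hy2 T hT) 0, ?_⟩
  have h1 : (fun T => (y T 0) ⊗ₜ[K] (1 : MvPolynomial (Fin n) K)) = fun T => Φ (y T) := by
    funext T
    rw [← hone]
    congr 1
    ext α
    by_cases hα : α = 0
    · rw [hα, Finsupp.single_eq_same]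
    · rw [Finsupp.single_eq_of_ne hα]
      by_cases hT : T.card = p + 1
      · by_contra h
        exact hα ((Finsupp.degree_eq_zero_iff α).1 (mem_sp.1 (hy1 T hT) α (Ne.symm h)).2)
      · rw [hy2 T hT, Finsupp.zero_apply]
  rw [h1, hbv, ← e]
  exact hc y

end KCh1

theorem exists_theta {K D : Type*} [Field K] [DivisionRing D] [Algebra K D] {n : ℕ}
    (Z : Fin n → D ⊗[K] MvPolynomial (Fin n) K)
    (hZ : ∀ i, Z i ∈ (homogeneousSubmodule (Fin n) K 1).baseChange D)
    (ψ : MvPolynomial (Fin n) K →ₐ[K] D ⊗[K] MvPolynomial (Fin n) K) (hψ : ∀ i, ψ (X i) = Z i)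
    (hspan : (homogeneousSubmodule (Fin n) K 1).baseChange D ≤ Submodule.span D (Set.range Z)) :
    ∃ θ : Finset (Fin n) → Finset (Fin n) → D, (∀ T T', T.card ≠ T'.card → θ T T' = 0) ∧
      θ ∅ ∅ = 1 ∧ ∀ c : Finset (Fin n) → D ⊗[K] MvPolynomial (Fin n) K,
        kd (fun i => LinearMap.mulRight D (Z i)) (fun T' => ∑ T, c T * (θ T T' ⊗ₜ[K] 1)) =
          fun T' => ∑ T, kd (fun i => LinearMap.mulRight D
            ((1 : D) ⊗ₜ[K] (X i : MvPolynomial (Fin n) K))) c T * (θ T T' ⊗ₜ[K] 1) := by
  have key : ∀ p : ℕ, ∃ θ : Finset (Fin n) → Finset (Fin n) → D,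
      (∀ T T', T.card ≠ T'.card → θ T T' = 0) ∧ θ ∅ ∅ = 1 ∧ ∀ T, T.card ≤ p →
        KCh1.Id D Z (fun i => (1 : D) ⊗ₜ[K] (X i : MvPolynomial (Fin n) K))
          (fun T T' => θ T T' ⊗ₜ[K] 1) T := by
    intro p
    induction p with
    | zero =>
      refine ⟨fun T T' => if T.card = T'.card then 1 else 0, fun T T' h => if_neg h, if_pos rfl,
        fun T hT => ?_⟩
      have hT0 : T.card = 0 := Nat.le_zero.1 hT
      have h1 : kd (fun i => LinearMap.mulRight D ((1 : D) ⊗ₜ[K] (X i : MvPolynomial (Fin n) K)))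
          (Pi.single T 1) = 0 := kd_zero _ (KCh1.single_mem (W := ⊤) trivial hT0)
      rw [KCh1.Id, h1, kd_zero (W := ⊤) _ (mem_ch.2 ⟨fun _ _ => trivial, fun T' hT' => ?_⟩)]
      · funext T'
        simp only [Pi.zero_apply, zero_mul, sum_const_zero]
      · change (if T.card = T'.card then (1 : D) else 0) ⊗ₜ[K] (1 : MvPolynomial (Fin n) K) = 0
        rw [if_neg fun h : T.card = T'.card => hT' (h.symm.trans hT0), zero_tmul]
    | succ p ih =>
      obtain ⟨θ, h1, h2, h3⟩ := ih
      have ha : ∀ (q : ℕ) (T : Finset (Fin n)), T.card = q + 1 →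
          kd (fun i => LinearMap.mulRight D ((1 : D) ⊗ₜ[K] (X i : MvPolynomial (Fin n) K)))
            (Pi.single T 1) ∈ ch ((homogeneousSubmodule (Fin n) K 1).baseChange D) q :=
        fun q T hT => kd_mem _ (W := (homogeneousSubmodule (Fin n) K 0).baseChange D)
          (fun i x hx => Groebner.mul_mem_bc (Q := homogeneousSubmodule (Fin n) K 1)
            (fun a ha b hb => IsHomogeneous.mul ha hb) hx
            (Submodule.tmul_mem_baseChange_of_mem _ (isHomogeneous_X K i)))
          (KCh1.single_mem (Submodule.tmul_mem_baseChange_of_mem (1 : D)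
            (isHomogeneous_one (Fin n) K)) hT)
      have hy : ∀ T : Finset (Fin n), ∃ y : Finset (Fin n) → D, T.card = p + 1 →
          (∀ T', T'.card ≠ p + 1 → y T' = 0) ∧
          kd (fun i => LinearMap.mulRight D (Z i)) (fun T' => y T' ⊗ₜ[K] 1) =
            fun T' => ∑ U, kd (fun i => LinearMap.mulRight D
              ((1 : D) ⊗ₜ[K] (X i : MvPolynomial (Fin n) K))) (Pi.single T 1) U *
                (θ U T' ⊗ₜ[K] 1) := by
        intro T
        by_cases hT : T.card = p + 1
        swap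
        · exact ⟨0, fun h => absurd h hT⟩
        obtain ⟨ha1, ha2⟩ := mem_ch.1 (ha p T hT)
        have := KCh1.exact_Z Z hZ ψ hψ hspan (p := p)
          (b := fun T' => ∑ U, kd (fun i => LinearMap.mulRight D
              ((1 : D) ⊗ₜ[K] (X i : MvPolynomial (Fin n) K))) (Pi.single T 1) U *
                (θ U T' ⊗ₜ[K] 1)) (mem_ch.2 ⟨fun T' _ => ?_, fun T' hT' => ?_⟩) ?_
        · obtain ⟨y, hy⟩ := this
          exact ⟨y, fun _ => hy⟩
        · refine Submodule.sum_mem _ fun U _ => ?_
          by_cases hU : U.card = p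
          · exact Groebner.mul_mem_bc (Q := homogeneousSubmodule (Fin n) K 0)
              (fun a ha b hb => IsHomogeneous.mul ha hb) (ha1 U hU)
              (Submodule.tmul_mem_baseChange_of_mem _ (isHomogeneous_one (Fin n) K))
          · rw [ha2 U hU, zero_mul]
            exact Submodule.zero_mem _
        · refine sum_eq_zero fun U _ => ?_
          by_cases hU : U.card = p
          · rw [h1 U T' fun h => hT' (h.symm.trans hU), zero_tmul, mul_zero]
          · rw [ha2 U hU, zero_mul]
        · rw [KCh1.lift_Id Z _ (fun T T' => θ T T' ⊗ₜ[K] 1) _ fun U hU => h3 U (le_of_eq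
            (by_contra fun h => hU (ha2 U h))), kd_kd _ fun i j x => ?_]
          · funext T'
            simp only [Pi.zero_apply, zero_mul, sum_const_zero]
          · rw [LinearMap.mulRight_apply, LinearMap.mulRight_apply, LinearMap.mulRight_apply,
              LinearMap.mulRight_apply, mul_assoc, mul_assoc, Groebner.central]
      choose y hy using hy
      obtain ⟨θ', g1, g2⟩ : ∃ θ' : Finset (Fin n) → Finset (Fin n) → D,
          (∀ T, T.card = p + 1 → θ' T = y T) ∧ ∀ T, T.card ≠ p + 1 → θ' T = θ T :=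
        ⟨fun T => if T.card = p + 1 then y T else θ T, fun T h => if_pos h, fun T h => if_neg h⟩
      refine ⟨θ', fun T T' h => ?_, ?_, fun T hT => ?_⟩
      · by_cases hT : T.card = p + 1
        · rw [g1 T hT]
          exact (hy T hT).1 T' fun h' => h (hT.trans h'.symm)
        · rw [g2 T hT]
          exact h1 T T' h
      · rw [g2 ∅ (Nat.succ_ne_zero p).symm]
        exact h2
      · have e : ∀ T', ∑ U, kd (fun i => LinearMap.mulRight D
              ((1 : D) ⊗ₜ[K] (X i : MvPolynomial (Fin n) K))) (Pi.single T 1) U *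
                (θ' U T' ⊗ₜ[K] 1) =
            ∑ U, kd (fun i => LinearMap.mulRight D
              ((1 : D) ⊗ₜ[K] (X i : MvPolynomial (Fin n) K))) (Pi.single T 1) U *
                (θ U T' ⊗ₜ[K] 1) := fun T' => sum_congr rfl fun U _ => by
          by_cases hU : U.card = p + 1
          · rw [KCh1.kd_single _ (hT.trans hU.ge), zero_mul, zero_mul]
          · rw [g2 U hU]
        rw [KCh1.Id, funext e]
        by_cases hT' : T.card = p + 1
        · rw [g1 T hT']
          exact (hy T hT').2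
        · rw [g2 T hT']
          exact h3 T (by omega)
  obtain ⟨θ, h1, h2, h3⟩ := key n
  exact ⟨θ, h1, h2, fun c => KCh1.lift_Id Z _ (fun T T' => θ T T' ⊗ₜ[K] 1) c fun T _ =>
    h3 T (card_finset_fin_le T)⟩

end Vale.Agent.P200.B
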