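import Vale.Agent.P200.B.KCh1

/-! Change of coordinates does not lose cycles. -/

open Module Finset TensorProduct MvPolynomial

namespace Vale.Agent.P200.B

universe u

section

variable {K D : Type*} [Field K] [DivisionRing D] [Algebra K D] {n : ℕ}

/-- coefficient of a monomial -/
noncomputable def kch2Co (D : Type*) [DivisionRing D] [Algebra K D] (α : Fin n →₀ ℕ) :
    D ⊗[K] MvPolynomial (Fin n) K →ₗ[D] D :=
  (Algebra.TensorProduct.basis D (basisMonomials (Fin n) K)).coord α

theorem kch2_tmul (α : Fin n →₀ ℕ) (d : D) (s : MvPolynomial (Fin n) K) :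
    kch2Co D α (d ⊗ₜ[K] s) = coeff α s • d := by
  rw [kch2Co, Basis.coord_apply, Algebra.TensorProduct.basis_repr_tmul, Finsupp.smul_apply,
    Finsupp.mapRange_apply, smul_eq_mul, ← Algebra.commutes, ← Algebra.smul_def]
  rfl

theorem kch2_ext {x : D ⊗[K] MvPolynomial (Fin n) K} (h : ∀ α, kch2Co D α x = 0) : x = 0 :=
  (Algebra.TensorProduct.basis D (basisMonomials (Fin n) K)).forall_coord_eq_zero_iff.1 h

theorem kch2_mul (α : Fin n →₀ ℕ) (x : D ⊗[K] MvPolynomial (Fin n) K) (d : D) :
    kch2Co D α (x * (d ⊗ₜ[K] 1)) = kch2Co D α x * d := by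
  induction x using TensorProduct.induction_on with
  | zero => simp
  | tmul a s => simp only [Algebra.TensorProduct.tmul_mul_tmul, mul_one, kch2_tmul, smul_mul_assoc]
  | add x y hx hy => simp only [add_mul, map_add, hx, hy]

theorem kch2_mem {V : Submodule K (MvPolynomial (Fin n) K)} {x : D ⊗[K] MvPolynomial (Fin n) K}
    (hx : x ∈ V.baseChange D) (d : D) : x * (d ⊗ₜ[K] 1) ∈ V.baseChange D := by
  refine Groebner.mul_mem_bc (Q := K ∙ (1 : MvPolynomial (Fin n) K)) (fun p hp q hq => ?_) hx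
    (Submodule.tmul_mem_baseChange_of_mem d (Submodule.mem_span_singleton_self _))
  obtain ⟨k, rfl⟩ := Submodule.mem_span_singleton.1 hq
  rw [mul_smul_comm, mul_one]
  exact V.smul_mem k hp

theorem kch2_inj (Z : Fin n → D ⊗[K] MvPolynomial (Fin n) K)
    (θ : Finset (Fin n) → Finset (Fin n) → D) (h2 : θ ∅ ∅ = 1)
    (h3 : ∀ c : Finset (Fin n) → D ⊗[K] MvPolynomial (Fin n) K,
      kd (fun i => LinearMap.mulRight D (Z i)) (fun T' => ∑ T, c T * (θ T T' ⊗ₜ[K] 1)) =
        fun T' => ∑ T, kd (fun i => LinearMap.mulRight D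
          ((1 : D) ⊗ₜ[K] (X i : MvPolynomial (Fin n) K))) c T * (θ T T' ⊗ₜ[K] 1)) (p : ℕ) :
    ∀ v : Finset (Fin n) → D, (∀ T, T.card ≠ p → v T = 0) → (∀ T', ∑ T, v T * θ T T' = 0) →
      ∀ T, v T = 0 := by
  induction p with
  | zero =>
    intro v hv h T
    by_cases hT : T = ∅
    · have := h ∅
      rw [Finset.sum_eq_single ∅ (fun S _ hS => by
        rw [hv S (fun e => hS (Finset.card_eq_zero.1 e)), zero_mul]) (by simp), h2, mul_one] at this
      rw [hT, this]
    · exact hv T fun e => hT (Finset.card_eq_zero.1 e)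
  | succ p ih =>
    intro v hv h T₀
    by_cases hT : T₀.card = p + 1
    swap
    · exact hv T₀ hT
    obtain ⟨i, hi⟩ : T₀.Nonempty := Finset.card_pos.1 (by omega)
    have e := h3 fun T => v T ⊗ₜ[K] 1
    have e0 : (fun T' => ∑ T, (v T ⊗ₜ[K] (1 : MvPolynomial (Fin n) K)) * (θ T T' ⊗ₜ[K] 1)) =
        0 := by
      funext T'
      simp only [Algebra.TensorProduct.tmul_mul_tmul, mul_one, ← TensorProduct.sum_tmul, h T',
        TensorProduct.zero_tmul, Pi.zero_apply]
    rw [e0, map_zero] at e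
    have key := ih (fun T => kch2Co D (Finsupp.single i 1) (kd (fun i => LinearMap.mulRight D
      ((1 : D) ⊗ₜ[K] (X i : MvPolynomial (Fin n) K))) (fun T => v T ⊗ₜ[K] 1) T))
      (fun T hc => ?_) (fun T' => ?_) (T₀.erase i)
    · simp only [kd_apply, map_sum, map_zsmul, LinearMap.mulRight_apply,
        Algebra.TensorProduct.tmul_mul_tmul, mul_one, one_mul, kch2_tmul] at key
      rw [Finset.sum_eq_single i (fun j _ hj => by
        rw [coeff_X, if_neg (fun e => hj (Finsupp.single_left_injective one_ne_zero e)),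
          zero_smul, smul_zero]) (by simp), coeff_X, if_pos rfl, one_smul, Finset.insert_erase hi] at key
      rcases neg_one_pow_eq_or ℤ ((T₀.erase i).filter (· < i)).card with s | s
      · rwa [s, one_smul] at key
      · rwa [s, neg_one_smul, neg_eq_zero] at key
    · rw [kd_apply, Finset.sum_eq_zero, map_zero]
      intro j hj
      rw [hv (insert j T) (by rw [Finset.card_insert_of_notMem (by simpa using hj)]; omega),
        TensorProduct.zero_tmul, map_zero, smul_zero]
    · have := congrArg (kch2Co D (Finsupp.single i 1)) (congrFun e T')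
      simpa only [Pi.zero_apply, map_zero, map_sum, kch2_mul, eq_comm] using this

end

theorem lam_of_theta {K D : Type*} [Field K] [DivisionRing D] [Algebra K D] {n : ℕ}
    (Z : Fin n → D ⊗[K] MvPolynomial (Fin n) K) (θ : Finset (Fin n) → Finset (Fin n) → D)
    (h1 : ∀ T T', T.card ≠ T'.card → θ T T' = 0) (h2 : θ ∅ ∅ = 1)
    (h3 : ∀ c : Finset (Fin n) → D ⊗[K] MvPolynomial (Fin n) K,
      kd (fun i => LinearMap.mulRight D (Z i)) (fun T' => ∑ T, c T * (θ T T' ⊗ₜ[K] 1)) =
        fun T' => ∑ T, kd (fun i => LinearMap.mulRight D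
          ((1 : D) ⊗ₜ[K] (X i : MvPolynomial (Fin n) K))) c T * (θ T T' ⊗ₜ[K] 1))
    (V : Submodule K (MvPolynomial (Fin n) K)) [Module.Finite K V] (p : ℕ) :
    lam (fun i => LinearMap.mulRight D ((1 : D) ⊗ₜ[K] (X i : MvPolynomial (Fin n) K)))
      (V.baseChange D) p ≤ lam (fun i => LinearMap.mulRight D (Z i)) (V.baseChange D) p := by
  let Θ : (Finset (Fin n) → D ⊗[K] MvPolynomial (Fin n) K) →ₗ[D]
      (Finset (Fin n) → D ⊗[K] MvPolynomial (Fin n) K) :=
    LinearMap.pi fun T' => ∑ T, LinearMap.mulRight D (θ T T' ⊗ₜ[K] 1) ∘ₗ LinearMap.proj T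
  have hΘ : ∀ c, Θ c = fun T' => ∑ T, c T * (θ T T' ⊗ₜ[K] 1) := fun c => by
    funext T'
    simp only [Θ, LinearMap.pi_apply, LinearMap.sum_apply, LinearMap.comp_apply,
      LinearMap.proj_apply, LinearMap.mulRight_apply]
  have hm : ∀ c ∈ ch (V.baseChange D) p ⊓ LinearMap.ker (kd fun i => LinearMap.mulRight D
      ((1 : D) ⊗ₜ[K] (X i : MvPolynomial (Fin n) K))),
      Θ c ∈ ch (V.baseChange D) p ⊓ LinearMap.ker (kd fun i => LinearMap.mulRight D (Z i)) := by
    rintro c ⟨hc, hk⟩
    obtain ⟨c1, c2⟩ := mem_ch.1 hc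
    rw [hΘ]
    refine ⟨mem_ch.2 ⟨fun T' _ => Submodule.sum_mem _ fun T _ => ?_,
      fun T' hT' => Finset.sum_eq_zero fun T _ => ?_⟩, ?_⟩
    · by_cases hT : T.card = p
      · exact kch2_mem (c1 T hT) _
      · rw [c2 T hT, zero_mul]
        exact Submodule.zero_mem _
    · by_cases hT : T.card = p
      · rw [h1 T T' (by omega), TensorProduct.zero_tmul, mul_zero]
      · rw [c2 T hT, zero_mul]
    · have hk' := LinearMap.mem_ker.1 hk
      refine LinearMap.mem_ker.2 ?_
      rw [h3, hk']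
      funext T'
      simp
  haveI := Groebner.finite_bc (D := D) V
  haveI := ch_finite (n := n) (V.baseChange D) p
  haveI : Module.Finite D ↥(ch (V.baseChange D) p ⊓
      LinearMap.ker (kd fun i => LinearMap.mulRight D (Z i))) :=
    Submodule.finiteDimensional_of_le inf_le_left
  refine LinearMap.finrank_le_finrank_of_injective (f := Θ.restrict hm) ?_
  refine (injective_iff_map_eq_zero _).2 fun c hc => Subtype.ext (funext fun T => ?_)
  have e : Θ c = 0 := congrArg Subtype.val hc
  rw [hΘ] at e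
  refine kch2_ext fun α => kch2_inj Z θ h2 h3 p (fun T => kch2Co D α (c.1 T))
    (fun T hT => ?_) (fun T' => ?_) T
  · rw [(mem_ch.1 c.2.1).2 T hT, map_zero]
  · have := congrArg (kch2Co D α) (congrFun e T')
    simpa only [Pi.zero_apply, map_zero, map_sum, kch2_mul] using this

end Vale.Agent.P200.B
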