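import Vale.Agent.P200.B.Lex2

/-! The shadow of a stable set through its layers. -/

open Finset

namespace Vale.Agent.P200.B

universe u

variable {n : ℕ} {a : Fin (n + 1) → ℕ} {e : ℕ}

theorem cnt_lay_top {A : Set (Mn (n + 1))} (hA : dg (Pb a) e ⊆ A) {w k : ℕ}
    (hw : a (Fin.last n) ≤ w) (hk : k + w = e) : dg (lay A w) k = dg Set.univ k := by
  ext β
  refine ⟨fun h => ⟨trivial, h.2⟩, fun h => ⟨hA ⟨sn_mem_Pb.2 (Or.inr hw), ?_⟩, h.2⟩⟩
  rw [degree_sn, h.2, hk]

theorem lay_Pb {A : Set (Mn (n + 1))} (hA : dg (Pb a) e ⊆ A) {w k : ℕ} (hk : k + w = e) :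
    dg (Pb fun i => a i.castSucc) k ⊆ lay A w := by
  intro β h
  refine hA ⟨sn_mem_Pb.2 (Or.inl h.1), ?_⟩
  rw [degree_sn, h.2, hk]

theorem laySh_zero (hb : 0 < a (Fin.last n)) (A : Set (Mn (n + 1))) :
    lay (shp a A) 0 = shp (fun i => a i.castSucc) (lay A 0) := by
  ext β
  constructor
  · rintro (h | ⟨α, hα, i, h⟩)
    · exact Or.inl ((sn_mem_Pb.1 h).resolve_right (by omega))
    · obtain ⟨β', w, rfl⟩ := exists_sn α
      induction i using Fin.lastCases with
      | last =>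
        rw [sn_add_last] at h
        have := (sn_inj h).2
        omega
      | cast j =>
        rw [sn_add_castSucc] at h
        obtain ⟨h1, rfl⟩ := sn_inj h
        exact Or.inr ⟨β', hα, j, h1⟩
  · rintro (h | ⟨β', hβ, j, rfl⟩)
    · exact Or.inl (sn_mem_Pb.2 (Or.inl h))
    · exact Or.inr ⟨_, hβ, j.castSucc, (sn_add_castSucc _ _ _ _).symm⟩

theorem laySh_succ {A : Set (Mn (n + 1))} (hA : dg (Pb a) e ⊆ A)
    (sA : Stable (Fin.last n) (a (Fin.last n)) e A) {v k : ℕ} (hv : v + 1 < a (Fin.last n))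
    (hk : k + v = e) : dg (lay (shp a A) (v + 1)) k = dg (lay A v) k := by
  ext β
  refine and_congr_left fun hd => ⟨?_, fun h => Or.inr ⟨_, h, Fin.last n, (sn_add_last _ _ _).symm⟩⟩
  rintro (h | ⟨α, hα, i, h⟩)
  · exact lay_Pb hA hk ⟨(sn_mem_Pb.1 h).resolve_right (by omega), hd⟩
  · obtain ⟨β', w, rfl⟩ := exists_sn α
    induction i using Fin.lastCases with
    | last =>
      rw [sn_add_last] at h
      obtain ⟨rfl, h2⟩ := sn_inj h
      obtain rfl : v = w := by omega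
      exact hα
    | cast j =>
      rw [sn_add_castSucc] at h
      obtain ⟨rfl, rfl⟩ := sn_inj h
      rw [map_add, Finsupp.degree_single] at hd
      exact sA.lay hv hα (by omega) j

theorem laySh_top (A : Set (Mn (n + 1))) {v : ℕ} (hv : a (Fin.last n) ≤ v) :
    lay (shp a A) v = Set.univ :=
  Set.eq_univ_of_forall fun _ => Or.inl (sn_mem_Pb.2 (Or.inr hv))

theorem shp_cmp (hb : 0 < a (Fin.last n)) {A L : Set (Mn (n + 1))} (hA : dg (Pb a) e ⊆ A)
    (hL : dg (Pb a) e ⊆ L) (sA : Stable (Fin.last n) (a (Fin.last n)) e A)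
    (sL : Stable (Fin.last n) (a (Fin.last n)) e L) (hc : cnt A e = cnt L e)
    (h0 : cnt (shp (fun i => a i.castSucc) (lay L 0)) (e + 1) ≤
      cnt (shp (fun i => a i.castSucc) (lay A 0)) (e + 1))
    (h1 : ∀ m, m + 1 = a (Fin.last n) → m ≤ e → cnt (lay A m) (e - m) ≤ cnt (lay L m) (e - m)) :
    cnt (shp a L) (e + 1) ≤ cnt (shp a A) (e + 1) := by
  have key : ∑ v ∈ range (e + 1), (cnt (lay (shp a L) (v + 1)) (e + 1 - (v + 1)) +
      cnt (lay A v) (e - v)) ≤ ∑ v ∈ range (e + 1),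
        (cnt (lay (shp a A) (v + 1)) (e + 1 - (v + 1)) + cnt (lay L v) (e - v)) := by
    refine sum_le_sum fun v hv => ?_
    have hv' : v ≤ e := Nat.lt_succ_iff.1 (mem_range.1 hv)
    have hk : e - v + v = e := Nat.sub_add_cancel hv'
    rw [Nat.add_sub_add_right]
    rcases lt_trichotomy (v + 1) (a (Fin.last n)) with h | h | h
    · rw [cnt_congr (laySh_succ hL sL h hk), cnt_congr (laySh_succ hA sA h hk), add_comm]
    · rw [laySh_top L h.ge, laySh_top A h.ge]
      exact Nat.add_le_add_left (h1 v h hv') _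
    · rw [laySh_top L h.le, laySh_top A h.le, cnt_congr (cnt_lay_top hA (by omega) hk),
        cnt_congr (cnt_lay_top hL (by omega) hk)]
  rw [sum_add_distrib, sum_add_distrib, ← cnt_lay, ← cnt_lay] at key
  rw [cnt_lay, cnt_lay (shp a A), sum_range_succ', sum_range_succ' _ (e + 1), laySh_zero hb,
    laySh_zero hb, Nat.sub_zero]
  omega

end Vale.Agent.P200.B
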