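import Vale.Agent.P200.B.KLayer
import Vale.Agent.P200.B.KExact
import Vale.Agent.P200.B.LaySh

/-! Comparison of cycles of stable sets. -/

open Module Finset

namespace Vale.Agent.P200.B

universe u

theorem mu_stable_KCmp (D : Type*) [DivisionRing D] {n b e : ℕ} {A : Set (Mn (n + 1))}
    (sA : Stable (Fin.last n) b e A) {w : ℕ} (hw : w + 1 < b) (he : w < e) (p : ℕ) :
    mu (sh D) (sp D (lay A (w + 1)) (e - w - 1)) (sp D (lay A w) (e - w)) p =
      n.choose p * cnt (lay A (w + 1)) (e - (w + 1)) := by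
  have := sp_finite D (lay A (w + 1)) (e - w - 1)
  rw [mu_of_le _ _ p, finrank_sp, Nat.sub_sub]
  intro i x hx
  refine Finsupp.supported_comap_lmapDomain D D (fun α : Mn n => α + Finsupp.single i 1) _
    (Finsupp.supported_mono (fun β hβ => ?_) hx)
  have h2 := hβ.2
  refine ⟨sA.lay hw hβ.1 (by omega) i, ?_⟩
  rw [map_add, Finsupp.degree_single]
  omega

theorem lam_cmp (D : Type*) [DivisionRing D] {n : ℕ} {a : Fin (n + 1) → ℕ} {e : ℕ}
    (hb : 0 < a (Fin.last n)) {A L : Set (Mn (n + 1))} (hA : dg (Pb a) e ⊆ A)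
    (hL : dg (Pb a) e ⊆ L) (sA : Stable (Fin.last n) (a (Fin.last n)) e A)
    (sL : Stable (Fin.last n) (a (Fin.last n)) e L) (hc : cnt A e = cnt L e) (p : ℕ)
    (h0 : lamM D (lay A 0) p e + n.choose p * cnt (lay L 0) e ≤
      lamM D (lay L 0) p e + n.choose p * cnt (lay A 0) e)
    (h1 : ∀ m q, m + 1 = a (Fin.last n) → m < e →
      lamM D (lay A m) q (e - m) ≤ lamM D (lay L m) q (e - m)) :
    lamM D A p e ≤ lamM D L p e := by
  have key : ∀ w ∈ range e,
      mu (sh D) (sp D (lay A (w + 1)) (e - w - 1)) (sp D (lay A w) (e - w)) p +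
        n.choose p * cnt (lay L (w + 1)) (e - (w + 1)) ≤
      mu (sh D) (sp D (lay L (w + 1)) (e - w - 1)) (sp D (lay L w) (e - w)) p +
        n.choose p * cnt (lay A (w + 1)) (e - (w + 1)) := by
    intro w hw
    have he := mem_range.1 hw
    rcases lt_or_ge (w + 1) (a (Fin.last n)) with h | h
    · rw [mu_stable_KCmp D sA h he, mu_stable_KCmp D sL h he, add_comm]
    · have eA := cnt_lay_top hA h (k := e - w - 1) (by omega)
      have eL := cnt_lay_top hL h (k := e - w - 1) (by omega)
      have e1 : sp D (lay A (w + 1)) (e - w - 1) = sp D Set.univ (e - w - 1) := by rw [sp, sp, eA]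
      have e2 : sp D (lay L (w + 1)) (e - w - 1) = sp D Set.univ (e - w - 1) := by rw [sp, sp, eL]
      rw [← Nat.sub_sub, cnt_congr (eL.trans eA.symm), e1, e2]
      refine Nat.add_le_add_right ?_ _
      rcases h.eq_or_lt with h | h
      · cases p with
        | zero =>
          have := sp_finite D (Set.univ : Set (Mn n)) (e - w - 1)
          rw [mu_zero, mu_zero]
        | succ q =>
          have h2 := h1 w q h.symm he
          obtain ⟨k, hk⟩ : ∃ k, e - w = k + 1 := ⟨e - w - 1, by omega⟩
          rw [hk] at h2 ⊢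
          rw [Nat.add_sub_cancel, mu_top, mu_top]
          exact Nat.add_le_add_left h2 _
      · have e3 : sp D (lay A w) (e - w) = sp D (lay L w) (e - w) := by
          rw [sp, sp, cnt_lay_top hA (Nat.le_of_lt_succ h) (by omega),
            cnt_lay_top hL (Nat.le_of_lt_succ h) (by omega)]
        rw [e3]
  have hs := sum_le_sum key
  rw [sum_add_distrib, sum_add_distrib, ← mul_sum, ← mul_sum] at hs
  rw [cnt_lay, cnt_lay, sum_range_succ', sum_range_succ', Nat.sub_zero] at hc
  have hc' := congrArg (n.choose p * ·) hc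
  simp only [mul_add] at hc'
  rw [lamM_lay, lamM_lay D L]
  omega

end Vale.Agent.P200.B
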