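import Vale.Agent.P200.B.KSign

/-! Dimension counts for chains and cycles. -/

open Module Finset

namespace Vale.Agent.P200.B

universe u

variable {D M M' : Type*} [DivisionRing D] [AddCommGroup M] [Module D M] [AddCommGroup M']
  [Module D M'] {n : ℕ}

/-- chains as families indexed by the sets of size `p` -/
def chEquiv (W : Submodule D M) (p : ℕ) :
    ch (n := n) W p ≃ₗ[D] ({T : Finset (Fin n) // T.card = p} → W) where
  toFun c T := ⟨c.1 T.1, (mem_ch.1 c.2).1 T.1 T.2⟩
  map_add' _ _ := rfl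
  map_smul' _ _ := rfl
  invFun u := ⟨fun T => if h : T.card = p then u ⟨T, h⟩ else 0, mem_ch.2
    ⟨fun T hT => by rw [dif_pos hT]; exact (u ⟨T, hT⟩).2, fun T hT => dif_neg hT⟩⟩
  left_inv c := Subtype.ext (funext fun T => by
    by_cases h : T.card = p
    · exact dif_pos h
    · exact (dif_neg h).trans ((mem_ch.1 c.2).2 T h).symm)
  right_inv u := funext fun T => Subtype.ext (dif_pos T.2)

theorem ch_finite (W : Submodule D M) [Module.Finite D W] (p : ℕ) :
    Module.Finite D (ch (n := n) W p) :=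
  Module.Finite.equiv (chEquiv W p).symm

theorem finrank_ch (W : Submodule D M) [Module.Finite D W] (p : ℕ) :
    finrank D (ch (n := n) W p) = n.choose p * finrank D W := by
  rw [(chEquiv W p).finrank_eq, Module.finrank_pi_fintype, sum_const, card_univ,
    Fintype.card_finset_len, Fintype.card_fin, smul_eq_mul]

theorem kdim_mono {W W' : Submodule D M} (h : W ≤ W') (p : ℕ) :
    ch (n := n) W p ≤ ch W' p := fun _ hc =>
  mem_ch.2 ⟨fun T hT => h ((mem_ch.1 hc).1 T hT), (mem_ch.1 hc).2⟩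

theorem lam_mono (m : Fin n → M →ₗ[D] M) {W W' : Submodule D M} (h : W ≤ W')
    [Module.Finite D W'] (p : ℕ) : lam m W p ≤ lam m W' p := by
  have := ch_finite (n := n) W' p
  have := Submodule.finiteDimensional_inf_left (ch W' p) (LinearMap.ker (kd m))
  exact Submodule.finrank_mono (inf_le_inf_right _ (kdim_mono h p))

theorem lam_le_add (m : Fin n → M →ₗ[D] M) {W W' : Submodule D M} (h : W ≤ W')
    [Module.Finite D W'] (p : ℕ) :
    lam m W' p + n.choose p * finrank D W ≤ lam m W p + n.choose p * finrank D W' := by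
  have := Submodule.finiteDimensional_of_le h
  have := ch_finite (n := n) W' p
  have := ch_finite (n := n) W p
  have := Submodule.finiteDimensional_inf_left (ch W' p) (LinearMap.ker (kd m))
  have h1 := Submodule.finrank_sup_add_finrank_inf_eq (ch W p)
    (ch W' p ⊓ LinearMap.ker (kd m))
  have h2 : finrank D ↥(ch W p ⊔ ch W' p ⊓ LinearMap.ker (kd m)) ≤ finrank D (ch (n := n) W' p) :=
    Submodule.finrank_mono (sup_le (kdim_mono h p) inf_le_left)
  rw [← inf_assoc, inf_eq_left.2 (kdim_mono h p)] at h1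
  rw [← finrank_ch, ← finrank_ch, lam, lam]
  omega

theorem kdim_map (m : Fin n → M →ₗ[D] M) (m' : Fin n → M' →ₗ[D] M') (f : M →ₗ[D] M')
    (hf : Function.Injective f) (h : ∀ i x, f (m i x) = m' i (f x)) (W : Submodule D M)
    (p : ℕ) : (ch W p ⊓ LinearMap.ker (kd m)).map (f.compLeft (Finset (Fin n))) =
      ch (W.map f) p ⊓ LinearMap.ker (kd m') := by
  have e : ∀ c, kd m' (f.compLeft (Finset (Fin n)) c) = fun T => f (kd m c T) := fun c =>
    kd_comp m m' f.toAddMonoidHom h c
  refine le_antisymm ?_ fun c' ⟨h1, h2⟩ => ?_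
  · rintro _ ⟨c, ⟨h1, h2⟩, rfl⟩
    refine ⟨mem_ch.2 ⟨fun T hT => ⟨c T, (mem_ch.1 h1).1 T hT, rfl⟩, fun T hT => ?_⟩, ?_⟩
    · exact (congrArg f ((mem_ch.1 h1).2 T hT)).trans (map_zero f)
    · refine (e c).trans (funext fun T => ?_)
      rw [LinearMap.mem_ker.1 h2]
      exact map_zero f
  · have h3 : ∀ T, ∃ x, (T.card = p → x ∈ W) ∧ (T.card ≠ p → x = 0) ∧ f x = c' T := fun T => by
      by_cases hT : T.card = p
      · obtain ⟨x, hx, e⟩ := (mem_ch.1 h1).1 T hT
        exact ⟨x, fun _ => hx, fun h => absurd hT h, e⟩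
      · exact ⟨0, fun h => absurd h hT, fun _ => rfl,
          (map_zero f).trans ((mem_ch.1 h1).2 T hT).symm⟩
    choose c c1 c2 c3 using h3
    have e2 : f.compLeft (Finset (Fin n)) c = c' := funext c3
    refine ⟨c, ⟨mem_ch.2 ⟨c1, c2⟩, funext fun T => hf ?_⟩, e2⟩
    have h4 := congrFun (e c) T
    rw [e2, LinearMap.mem_ker.1 h2] at h4
    exact h4.symm.trans (map_zero f).symm

theorem lam_map (m : Fin n → M →ₗ[D] M) (m' : Fin n → M' →ₗ[D] M') (f : M →ₗ[D] M')
    (hf : Function.Injective f) (h : ∀ i x, f (m i x) = m' i (f x)) (W : Submodule D M)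
    (p : ℕ) : lam m' (W.map f) p = lam m W p := by
  rw [lam, lam, ← kdim_map m m' f hf h]
  exact (Submodule.equivMapOfInjective _
    (fun c c' e => funext fun T => hf (congrFun e T)) _).finrank_eq.symm

theorem lam_le_of_inj (m : Fin n → M →ₗ[D] M) (m' : Fin n → M' →ₗ[D] M') (f : M →ₗ[D] M')
    (hf : Function.Injective f) (h : ∀ i x, f (m i x) = m' i (f x)) {W : Submodule D M}
    {W' : Submodule D M'} [Module.Finite D W'] (hW : ∀ x ∈ W, f x ∈ W') (p : ℕ) :
    lam m W p ≤ lam m' W' p := by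
  rw [← lam_map m m' f hf h]
  exact lam_mono m' (Submodule.map_le_iff_le_comap.2 hW) p

theorem mu_of_le (m : Fin n → M →ₗ[D] M) {W' W : Submodule D M} [Module.Finite D W']
    (h : ∀ i, ∀ x ∈ W', m i x ∈ W) (p : ℕ) : mu m W' W p = n.choose p * finrank D W' := by
  rw [mu, inf_eq_left.2, finrank_ch]
  intro c hc T _
  rw [kd_apply]
  refine W.sum_mem fun i _ => W.smul_of_tower_mem _ (h i _ ?_)
  by_cases hT : (insert i T).card = p
  · exact (mem_ch.1 hc).1 _ hT
  · rw [(mem_ch.1 hc).2 _ hT]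
    exact W'.zero_mem

theorem mu_zero (m : Fin n → M →ₗ[D] M) (W' W : Submodule D M) [Module.Finite D W'] :
    mu m W' W 0 = finrank D W' := by
  rw [mu, inf_eq_left.2, finrank_ch, Nat.choose_zero_right, one_mul]
  intro c hc
  rw [Submodule.mem_comap, kd_zero m hc]
  exact Submodule.zero_mem _

end Vale.Agent.P200.B
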