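import Vale.Agent.P200.B.KDim

/-! Passage to leading monomials. -/

open Module Finset

namespace Vale.Agent.P200.B

universe u

variable {D : Type*} [DivisionRing D] {B : Type*} [LinearOrder B] {n : ℕ}

theorem ncard_inS {ι : Type*} {κ : ι → B} (hκ : Function.Injective κ) {s : Set ι} (hs : s.Finite)
    {U : Submodule D (ι →₀ D)} (hU : U ≤ Finsupp.supported D D s) :
    (inS κ U).ncard = finrank D U := by
  have hT : ∀ u ∈ U, u.support ⊆ hs.toFinset := by
    intro u hu β hβ
    rw [Set.Finite.mem_toFinset]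
    exact (Finsupp.mem_supported D _).1 (hU hu) hβ
  exact (@finrank_eq_ncard_lead D _ _ (LinearOrder.lift' κ hκ) _ _ hT).symm

theorem dg_inS (κ : Mn n → B) {U : Submodule D (Mn n →₀ D)} {e : ℕ} (hU : U ≤ sp D Set.univ e) :
    dg (inS κ U) e = inS κ U := by
  ext α
  refine ⟨fun h => h.1, fun h => ⟨h, ?_⟩⟩
  obtain ⟨u, hu, h1, -⟩ := h
  exact (mem_sp.1 (hU hu) α h1).2

theorem cnt_inS {κ : Mn n → B} (hκ : IsKey κ) {U : Submodule D (Mn n →₀ D)} {e : ℕ}
    (hU : U ≤ sp D Set.univ e) : cnt (inS κ U) e = finrank D U := by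
  rw [cnt, dg_inS κ hU]
  exact ncard_inS hκ.1 (dg_finite Set.univ e) hU

theorem inS_shift {κ : Mn n → B} (hκ : IsKey κ) {U U' : Submodule D (Mn n →₀ D)} {i : Fin n}
    (h : ∀ x ∈ U, sh D i x ∈ U') {α : Mn n} (hα : α ∈ inS κ U) :
    α + Finsupp.single i 1 ∈ inS κ U' := by
  obtain ⟨u, hu, h1, h2⟩ := hα
  have hinj : Function.Injective fun β : Mn n => β + Finsupp.single i 1 := add_left_injective _
  have hv : ∀ β : Mn n, sh D i u (β + Finsupp.single i 1) = u β := fun β =>
    Finsupp.mapDomain_apply hinj u β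
  refine ⟨sh D i u, h u hu, by rwa [hv], fun γ hγ => ?_⟩
  by_cases hr : γ ∈ Set.range fun β : Mn n => β + Finsupp.single i 1
  · obtain ⟨β, rfl⟩ := hr
    rw [hv]
    exact h2 β ((hκ.2 _ _ _).1 hγ)
  · exact Finsupp.mapDomain_of_notMem_range _ _ hr

/-- comparison of dimensions through the top part for a weight -/
theorem finrank_le_of_top {ι : Type*} (w : ι → B) {s : Set ι} (hs : s.Finite)
    {V V' : Submodule D (ι →₀ D)} (hV' : V' ≤ Finsupp.supported D D s)
    (h : ∀ v ∈ V, ∀ b : B, (∀ α, v α ≠ 0 → w α ≤ b) → v.filter (fun α => w α = b) ∈ V') :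
    finrank D V ≤ finrank D V' := by
  by_cases hfin : Module.Finite D V
  swap
  · have := Module.Free.of_divisionRing D V
    rw [finrank_of_not_finite hfin]
    exact Nat.zero_le _
  obtain ⟨S, hS⟩ := (Submodule.fg_iff_finiteDimensional V).2 hfin
  have hs' : (⋃ v ∈ (S : Set (ι →₀ D)), (v.support : Set ι)).Finite :=
    S.finite_toSet.biUnion fun v _ => v.support.finite_toSet
  have hV : V ≤ Finsupp.supported D D (⋃ v ∈ (S : Set (ι →₀ D)), (v.support : Set ι)) := by
    rw [← hS, Submodule.span_le]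
    intro v hv
    exact (Finsupp.mem_supported D v).2 (Set.subset_biUnion_of_mem (u := fun v : ι →₀ D =>
      (v.support : Set ι)) hv)
  obtain ⟨_, -⟩ := exists_wellFoundedLT ι
  let κ : ι → B ×ₗ ι := fun α => toLex (w α, α)
  have hκ : Function.Injective κ := fun α β hαβ => congrArg (fun z => (ofLex z).2) hαβ
  rw [← ncard_inS hκ hs' hV, ← ncard_inS hκ hs hV']
  refine Set.ncard_le_ncard ?_ (hs.subset ?_)
  · rintro α ⟨u, hu, h1, h2⟩
    refine ⟨_, h u hu (w α) fun β hβ => ?_, ?_, fun β hβ => ?_⟩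
    · by_contra hlt
      exact hβ (h2 β (Prod.Lex.toLex_lt_toLex.2 (Or.inl (not_le.1 hlt))))
    · rwa [Finsupp.filter_apply, if_pos rfl]
    · rw [Finsupp.filter_apply, h2 β hβ, ite_self]
  · rintro α ⟨u, hu, h1, -⟩
    exact (Finsupp.mem_supported D u).1 (hV' hu) (Finsupp.mem_support_iff.2 h1)

theorem kgr_sh_filter (i : Fin n) (P Q : Mn n → Prop) [DecidablePred P] [DecidablePred Q]
    (h : ∀ α, P α ↔ Q (α + Finsupp.single i 1)) (x : Mn n →₀ D) :
    sh D i (x.filter P) = (sh D i x).filter Q := by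
  induction x using Finsupp.induction_linear with
  | zero => rw [Finsupp.filter_zero, map_zero, Finsupp.filter_zero]
  | add a b ha hb => simp only [Finsupp.filter_add, map_add, ha, hb]
  | single α d =>
    rw [sh_single]
    by_cases hP : P α
    · rw [Finsupp.filter_single_of_pos _ hP, Finsupp.filter_single_of_pos _ ((h α).1 hP), sh_single]
    · rw [Finsupp.filter_single_of_neg _ hP,
        Finsupp.filter_single_of_neg _ (fun hQ => hP ((h α).2 hQ)), map_zero]

theorem lam_le_inS {κ : Mn n → B} (hκ : IsKey κ) {U : Submodule D (Mn n →₀ D)} {e : ℕ}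
    (hU : U ≤ sp D Set.univ e) (p : ℕ) : lam (sh D) U p ≤ lamM D (inS κ U) p e := by
  let E : (Finset (Fin n) → Mn n →₀ D) ≃ₗ[D] (Finset (Fin n) × Mn n →₀ D) :=
    (Finsupp.linearEquivFunOnFinite D (Mn n →₀ D) (Finset (Fin n))).symm ≪≫ₗ
      (Finsupp.curryLinearEquiv D).symm
  have hE : ∀ c z, E c z = c z.1 z.2 := fun c z => rfl
  let w : Finset (Fin n) × Mn n → B := fun z => κ (z.2 + ∑ i ∈ z.1, Finsupp.single i 1)
  rw [lamM, lam, lam, ← E.finrank_map_eq, ← E.finrank_map_eq]
  refine finrank_le_of_top w (s := Set.univ ×ˢ dg Set.univ e)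
    (Set.finite_univ.prod (dg_finite _ _)) ?_ ?_
  · rintro _ ⟨c, ⟨hc, -⟩, rfl⟩
    refine (Finsupp.mem_supported D _).2 fun z hz => ⟨trivial, trivial, ?_⟩
    have h1 : c z.1 z.2 ≠ 0 := (Finsupp.mem_support_iff (f := E c)).1 hz
    by_cases hT : z.1.card = p
    · exact (mem_sp.1 ((mem_ch.1 hc).1 _ hT) _ h1).2
    · rw [(mem_ch.1 hc).2 _ hT] at h1
      exact absurd rfl h1
  · rintro _ ⟨c, ⟨hc, hk⟩, rfl⟩ b hb
    refine ⟨fun T => (c T).filter fun α => w (T, α) = b, ⟨mem_ch.2 ⟨fun T hT => ?_, fun T hT => ?_⟩,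
      ?_⟩, ?_⟩
    · have hcT := (mem_ch.1 hc).1 T hT
      refine mem_sp.2 fun α hα => ?_
      rw [Finsupp.filter_apply] at hα
      split_ifs at hα with hw
      · refine ⟨⟨c T, hcT, hα, fun β hβ => ?_⟩, (mem_sp.1 (hU hcT) α hα).2⟩
        by_contra hne
        have h1 : w (T, β) ≤ b := hb (T, β) hne
        rw [← hw] at h1
        exact absurd ((hκ.2 _ _ _).2 hβ) (not_lt.2 h1)
      · exact absurd rfl hα
    · rw [(mem_ch.1 hc).2 T hT, Finsupp.filter_zero]
    · have hk' : kd (sh D) c = 0 := hk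
      change kd (sh D) _ = 0
      funext T
      have h1 := congrArg (Finsupp.filterAddHom fun α => w (T, α) = b) (congrFun hk' T)
      rw [kd_apply, map_sum, Pi.zero_apply, map_zero] at h1
      rw [kd_apply, Pi.zero_apply, ← h1]
      refine Finset.sum_congr rfl fun i hi => ?_
      rw [map_zsmul]
      congr 1
      refine kgr_sh_filter i _ _ (fun α => ?_) _
      simp only [w, Finset.sum_insert (Finset.mem_compl.1 hi), add_assoc]
    · ext z
      rw [Finsupp.filter_apply]
      exact Finsupp.filter_apply (fun α => w (z.1, α) = b) (c z.1) z.2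

end Vale.Agent.P200.B
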