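import Vale.Agent.P200.B.KCh2
import Vale.Agent.P200.B.KBase
import Vale.Agent.P200.B.KGr

/-! From a frame to a monomial ideal with at least as many linear syzygies. -/

open Module Finset TensorProduct MvPolynomial

namespace Vale.Agent.P200.B

universe u

theorem of_frame {K : Type u} [Field K] {n c : ℕ} {hc : c ≤ n} {a : Fin c → ℕ}
    {I : Ideal (MvPolynomial (Fin n) K)} (h : Frame K hc a I) :
    ∃ A : Set (Mn n), (∀ α ∈ A, ∀ i, α + Finsupp.single i 1 ∈ A) ∧
      (∀ i, Finsupp.single (Fin.castLE hc i) (a i) ∈ A) ∧ (∀ e, cnt A e = dimIn I e) ∧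
      ∀ p e, lamI I p e ≤ lamM K A p e := by
  classical
  obtain ⟨D, _, _, Z, ψ, hZ, hψ, hspan, hv⟩ := h
  let Φ := Finsupp.linearCombination D (fun β : Mn n => ψ (monomial β 1))
  let U : ℕ → Submodule D (Mn n →₀ D) := fun d =>
    Finsupp.supported D D {β : Mn n | β.degree = d} ⊓ ((pI I d).baseChange D).comap Φ
  let κ : Mn n → (Colex (Mn n))ᵒᵈ := fun α => OrderDual.toDual (toColex α)
  have hκ : IsKey κ := by
    refine ⟨fun _ _ h => h, fun α β t => ?_⟩
    change toColex (β + t) < toColex (α + t) ↔ toColex β < toColex α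
    rw [toColex_add, toColex_add, add_lt_add_iff_right]
  have hU : ∀ e, U e ≤ sp D Set.univ e := fun e x hx =>
    mem_sp.2 fun α hα =>
      ⟨Set.mem_univ _, (Finsupp.mem_supported D _).1 hx.1 (Finsupp.mem_support_iff.2 hα)⟩
  let A : Set (Mn n) := {α | α ∈ inS κ (U α.degree)}
  have hdg : ∀ e, dg A e = dg (inS κ (U e)) e := fun e => by
    ext α
    constructor
    · rintro ⟨h1, rfl⟩
      exact ⟨h1, rfl⟩
    · rintro ⟨h1, rfl⟩
      exact ⟨h1, rfl⟩
  have hle : ∀ e, (pI I e).baseChange D ≤ (homogeneousSubmodule (Fin n) K e).baseChange D :=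
    fun e => Submodule.baseChange_mono D inf_le_right
  refine ⟨A, fun α hα i => ?_, fun i => ?_, fun e => ?_, fun p e => ?_⟩
  · refine inS_shift hκ (U := U α.degree) (U' := U (α + Finsupp.single i 1).degree) (i := i)
      (fun v hv => ⟨?_, ?_⟩) hα
    · refine (Finsupp.mem_supported D _).2 fun γ hγ => ?_
      obtain ⟨δ, hδ, rfl⟩ := Finset.mem_image.1 (Finsupp.mapDomain_support hγ)
      have := (Finsupp.mem_supported D _).1 hv.1 hδ
      change (δ + Finsupp.single i 1).degree = (α + Finsupp.single i 1).degree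
      rw [map_add, map_add, show δ.degree = α.degree from this]
    · change Φ (v.mapDomain (· + Finsupp.single i 1)) ∈
        (pI I (α + Finsupp.single i 1).degree).baseChange D
      rw [Groebner.phi_shift Z ψ hψ, map_add, Finsupp.degree_single]
      refine Groebner.mul_mem_bc (fun p hp q hq => ?_) (Submodule.mem_comap.1 hv.2) (hZ i)
      exact ⟨I.mul_mem_right q hp.1, IsHomogeneous.mul hp.2 hq⟩
  · obtain ⟨v, h1, h2, h3, h4⟩ := hv i
    refine ⟨v, ?_, h3, fun β hβ => ?_⟩
    · rw [Finsupp.degree_single]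
      exact ⟨(Finsupp.mem_supported D _).2 fun β hβ => h1 β hβ, h2⟩
    · by_contra hne
      rcases h4 β (Finsupp.mem_support_iff.2 hne) with rfl | ⟨j', hj, hj'⟩
      · exact lt_irrefl _ hβ
      · have hβ' : toColex β < toColex (Finsupp.single (Fin.castLE hc i) (a i)) := hβ
        obtain ⟨l, hi1, hi2⟩ := Finsupp.Colex.lt_iff.1 hβ'
        have hij : l = Fin.castLE hc i := by
          by_contra h
          exact Nat.not_lt_zero _ (hi2.trans_eq (Finsupp.single_eq_of_ne h))
        subst hij
        exact hj' ((hi1 j' hj).trans (Finsupp.single_eq_of_ne hj.ne'))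
  · rw [cnt_congr (hdg e), cnt_inS hκ (hU e),
      Groebner.finrank_U Z hZ ψ hψ hspan e _ (hle e), Groebner.finrank_bc]
    rfl
  · obtain ⟨θ, h1, h2, h3⟩ := exists_theta Z hZ ψ hψ hspan
    have := Groebner.finite_hom (K := K) (n := n) e
    have : Module.Finite K (pI I e) := Submodule.finiteDimensional_of_le inf_le_right
    have hm : (U e).map Φ = (pI I e).baseChange D := by
      refine le_antisymm ?_ fun y hy => ?_
      · rintro _ ⟨x, hx, rfl⟩
        exact hx.2
      · have := hle e hy
        rw [← Groebner.map_supported Z hZ ψ hψ hspan e] at this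
        obtain ⟨x, hx, rfl⟩ := this
        exact ⟨x, ⟨hx, hy⟩, rfl⟩
    rw [lamI_base D I p e, lamM_congr K (hdg e), ← lamM_base K D]
    refine (lam_of_theta Z θ h1 h2 h3 (pI I e) p).trans ?_
    rw [← hm, lam_map (sh D) (fun i => LinearMap.mulRight D (Z i)) Φ
      (Eq.Final.phi_inj Z hZ ψ hψ hspan) (fun i x => Groebner.phi_shift Z ψ hψ x i)]
    exact lam_le_inS hκ (hU e) p

end Vale.Agent.P200.B
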