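import Vale.Agent.P200.B.KDim

/-! Cycles through the layers of the last variable. -/

open Module Finset

namespace Vale.Agent.P200.B

universe u

namespace KLayer

variable (D : Type*) [DivisionRing D] {n : ℕ}

/-- the slice of exponent `w` of the last variable -/
noncomputable def sl (w : ℕ) : (Mn (n + 1) →₀ D) →ₗ[D] (Mn n →₀ D) :=
  Finsupp.lcomapDomain (fun β => sn β w) fun _ _ h => (sn_inj h).1

/-- the slice of the components without the last index -/
noncomputable def L (w : ℕ) :
    (Finset (Fin (n + 1)) → Mn (n + 1) →₀ D) →ₗ[D] (Finset (Fin n) → Mn n →₀ D) :=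
  LinearMap.pi fun T => sl D w ∘ₗ LinearMap.proj (T.map Fin.castSuccEmb)

variable {D}

theorem sl_apply (w : ℕ) (x : Mn (n + 1) →₀ D) (β : Mn n) : sl D w x β = x (sn β w) := rfl

theorem sl_ext {x : Mn (n + 1) →₀ D} (h : ∀ w, sl D w x = 0) : x = 0 := by
  ext α
  obtain ⟨β, w, rfl⟩ := exists_sn α
  rw [← sl_apply, h]
  rfl

theorem sl_single (w w' : ℕ) (β : Mn n) (d : D) :
    sl D w (Finsupp.single (sn β w') d) = if w = w' then Finsupp.single β d else 0 := by
  classical
  ext γ
  rw [sl_apply]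
  split_ifs with h
  · subst h
    rw [Finsupp.single_apply, Finsupp.single_apply]
    exact if_congr ⟨fun h => (sn_inj h).1, fun h => h ▸ rfl⟩ rfl rfl
  · exact Finsupp.single_eq_of_ne fun e => h (sn_inj e).2

theorem sl_sh (w : ℕ) (i : Fin n) (x : Mn (n + 1) →₀ D) :
    sl D w (sh D i.castSucc x) = sh D i (sl D w x) := by
  induction x using Finsupp.induction_linear with
  | zero => simp only [map_zero]
  | add a b ha hb => simp only [map_add, ha, hb]
  | single α d =>
    obtain ⟨β, w', rfl⟩ := exists_sn α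
    rw [sh_single, sn_add_castSucc, sl_single, sl_single]
    split_ifs
    · rw [sh_single]
    · rw [map_zero]

theorem sl_last (x : Mn (n + 1) →₀ D) :
    sl D 0 (sh D (Fin.last n) x) = 0 ∧ ∀ w, sl D (w + 1) (sh D (Fin.last n) x) = sl D w x := by
  induction x using Finsupp.induction_linear with
  | zero => simp only [map_zero, implies_true, and_self]
  | add a b ha hb => simp only [map_add, ha, hb, add_zero, implies_true, and_self]
  | single α d =>
    obtain ⟨β, w', rfl⟩ := exists_sn α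
    refine ⟨?_, fun w => ?_⟩
    · rw [sh_single, sn_add_last, sl_single, if_neg (by omega)]
    · rw [sh_single, sn_add_last, sl_single, sl_single]
      exact if_congr (by omega) rfl rfl

theorem mem_sp_iff {A : Set (Mn (n + 1))} {e : ℕ} {x : Mn (n + 1) →₀ D} :
    x ∈ sp D A e ↔ (∀ w, sl D w x ∈ sp D (lay A w) (e - w)) ∧ ∀ w, e < w → sl D w x = 0 := by
  constructor
  · intro h
    refine ⟨fun w => mem_sp.2 fun β hβ => ?_, fun w hw => Finsupp.ext fun β => ?_⟩
    · obtain ⟨h1, h2⟩ := mem_sp.1 h _ hβ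
      rw [degree_sn] at h2
      exact ⟨h1, by omega⟩
    · by_contra hβ
      have h2 := (mem_sp.1 h _ hβ).2
      rw [degree_sn] at h2
      omega
  · rintro ⟨h1, h2⟩
    refine mem_sp.2 fun α hα => ?_
    obtain ⟨β, w, rfl⟩ := exists_sn α
    obtain ⟨h3, h4⟩ := mem_sp.1 (h1 w) β hα
    have h5 : ¬ e < w := fun h => hα (by
      rw [← sl_apply, h2 w h]
      rfl)
    exact ⟨h3, by rw [degree_sn]; omega⟩

theorem exists_sl {e : ℕ} (u : ℕ → Mn n →₀ D) (hu : ∀ w, e < w → u w = 0) :
    ∃ x : Mn (n + 1) →₀ D, ∀ w, sl D w x = u w := by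
  have h : ∀ (w w' : ℕ) (y : Mn n →₀ D),
      sl D w (y.mapDomain fun β => sn β w') = if w = w' then y else 0 := by
    intro w w' y
    induction y using Finsupp.induction_linear with
    | zero => rw [Finsupp.mapDomain_zero, map_zero, ite_self]
    | add a b ha hb =>
      rw [Finsupp.mapDomain_add, map_add, ha, hb]
      split_ifs
      exacts [rfl, add_zero _]
    | single β d => rw [Finsupp.mapDomain_single, sl_single]
  refine ⟨∑ w' ∈ range (e + 1), (u w').mapDomain fun β => sn β w', fun w => ?_⟩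
  rw [map_sum, sum_congr rfl fun w' _ => h w w' (u w'), sum_ite_eq]
  split_ifs with hw
  · rfl
  · exact (hu w (by rw [mem_range] at hw; omega)).symm

theorem last_notMem (T : Finset (Fin n)) : Fin.last n ∉ T.map Fin.castSuccEmb := by
  simp [(Fin.castSucc_lt_last _).ne]

theorem cases_T (T' : Finset (Fin (n + 1))) : ∃ T : Finset (Fin n),
    T' = T.map Fin.castSuccEmb ∨ T' = insert (Fin.last n) (T.map Fin.castSuccEmb) := by
  refine ⟨univ.filter fun i => i.castSucc ∈ T', ?_⟩
  by_cases h : Fin.last n ∈ T'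
  · right
    ext i
    induction i using Fin.lastCases <;> simp [h, (Fin.castSucc_lt_last _).ne]
  · left
    ext i
    induction i using Fin.lastCases <;> simp [h, (Fin.castSucc_lt_last _).ne]

theorem kd_emb (w : ℕ) (c : Finset (Fin (n + 1)) → Mn (n + 1) →₀ D) (T : Finset (Fin n)) :
    sl D w (kd (sh D) c (T.map Fin.castSuccEmb)) = kd (sh D) (L D w c) T + (-1 : ℤ) ^ T.card •
      sl D w (sh D (Fin.last n) (c (insert (Fin.last n) (T.map Fin.castSuccEmb)))) := by
  have h1 : (T.map Fin.castSuccEmb)ᶜ = insert (Fin.last n) (Tᶜ.map Fin.castSuccEmb) := by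
    ext i
    induction i using Fin.lastCases <;> simp [(Fin.castSucc_lt_last _).ne]
  have h2 : (T.map Fin.castSuccEmb).filter (· < Fin.last n) = T.map Fin.castSuccEmb :=
    filter_true_of_mem fun i hi => by
      obtain ⟨j, -, rfl⟩ := mem_map.1 hi
      exact Fin.castSucc_lt_last j
  rw [kd_apply, kd_apply, h1, sum_insert (last_notMem _), h2, card_map, map_add, add_comm,
    map_zsmul, sum_map, map_sum]
  congr 1
  refine sum_congr rfl fun i _ => ?_
  rw [map_zsmul, filter_map, card_map, ← map_insert]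
  exact congrArg₂ _ (congrArg _ (congrArg card (filter_congr fun j _ =>
    Fin.castSucc_lt_castSucc_iff))) (sl_sh w i _)

theorem kd_ins (w : ℕ) (c : Finset (Fin (n + 1)) → Mn (n + 1) →₀ D) (T : Finset (Fin n)) :
    sl D w (kd (sh D) c (insert (Fin.last n) (T.map Fin.castSuccEmb))) =
      kd (sh D) (fun U => sl D w (c (insert (Fin.last n) (U.map Fin.castSuccEmb)))) T := by
  have h1 : (insert (Fin.last n) (T.map Fin.castSuccEmb))ᶜ = Tᶜ.map Fin.castSuccEmb := by
    ext i
    induction i using Fin.lastCases <;> simp [(Fin.castSucc_lt_last _).ne]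
  rw [kd_apply, kd_apply, h1, sum_map, map_sum]
  refine sum_congr rfl fun i _ => ?_
  rw [map_zsmul, filter_insert, if_neg (not_lt.2 (Fin.le_last _)), filter_map, card_map,
    insert_comm, ← map_insert]
  exact congrArg₂ _ (congrArg _ (congrArg card (filter_congr fun j _ =>
    Fin.castSucc_lt_castSucc_iff))) (sl_sh w i _)

variable {A : Set (Mn (n + 1))} {e p : ℕ} {c : Finset (Fin (n + 1)) → Mn (n + 1) →₀ D}

theorem L_mem (hc : c ∈ ch (sp D A e) p) (w : ℕ) : L D w c ∈ ch (sp D (lay A w) (e - w)) p := by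
  obtain ⟨h1, h2⟩ := mem_ch.1 hc
  refine mem_ch.2 ⟨fun T hT => (mem_sp_iff.1 (h1 _ ((card_map _).trans hT))).1 w, fun T hT => ?_⟩
  change sl D w (c (T.map Fin.castSuccEmb)) = 0
  rw [h2 _ (by rwa [card_map]), map_zero]

theorem kd_L_zero (hc : kd (sh D) c = 0) : kd (sh D) (L D 0 c) = 0 := by
  funext T
  have h := kd_emb 0 c T
  rw [hc, (sl_last _).1, smul_zero, add_zero, Pi.zero_apply, map_zero] at h
  exact h.symm

theorem kd_L_succ (hc : kd (sh D) c = 0) (w : ℕ) (T : Finset (Fin n)) :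
    kd (sh D) (L D (w + 1) c) T =
      -((-1 : ℤ) ^ T.card • sl D w (c (insert (Fin.last n) (T.map Fin.castSuccEmb)))) := by
  have h := kd_emb (w + 1) c T
  rw [hc, (sl_last _).2, Pi.zero_apply, map_zero] at h
  exact eq_neg_of_add_eq_zero_left h.symm

theorem sg_sg {M : Type*} [AddCommGroup M] (k : ℕ) (x : M) :
    (-1 : ℤ) ^ k • (-1 : ℤ) ^ k • x = x := by
  rw [smul_smul, ← mul_pow, neg_mul_neg, one_mul, one_pow, one_smul]

theorem inj (hc : c ∈ ch (sp D A e) p) (h0 : kd (sh D) c = 0) (h1 : L D 0 c = 0)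
    (h2 : ∀ w < e, L D (w + 1) c = 0) : c = 0 := by
  have h3 : ∀ w, L D w c = 0 := by
    intro w
    cases w with
    | zero => exact h1
    | succ w =>
      by_cases hw : w < e
      · exact h2 w hw
      · funext T
        by_cases hT : T.card = p
        · exact (mem_sp_iff.1 ((mem_ch.1 hc).1 _ ((card_map _).trans hT))).2 _ (by omega)
        · exact (mem_ch.1 (L_mem hc _)).2 T hT
  funext T'
  obtain ⟨T, rfl | rfl⟩ := cases_T T'
  · exact sl_ext fun w => congrFun (h3 w) T
  · refine sl_ext fun w => ?_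
    have h := kd_L_succ h0 w T
    rw [h3, map_zero, Pi.zero_apply, eq_comm, neg_eq_zero] at h
    rw [← sg_sg T.card (sl D w _), h, smul_zero]

theorem kd_sign (z : Finset (Fin n) → Mn n →₀ D) (T : Finset (Fin n)) :
    kd (sh D) (fun U => (-1 : ℤ) ^ U.card • z U) T = -((-1 : ℤ) ^ T.card • kd (sh D) z T) := by
  rw [kd_apply, kd_apply, smul_sum, ← sum_neg_distrib]
  refine sum_congr rfl fun i hi => ?_
  rw [card_insert_of_notMem (mem_compl.1 hi), map_zsmul, smul_comm, pow_succ, mul_neg_one, neg_smul]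

theorem surj (u : ℕ → Finset (Fin n) → Mn n →₀ D) (h1 : ∀ w, u w ∈ ch (sp D (lay A w) (e - w)) p)
    (h2 : ∀ w, e < w → u w = 0) (h3 : kd (sh D) (u 0) = 0)
    (h4 : ∀ w T, kd (sh D) (u (w + 1)) T ∈ sp D (lay A w) (e - w)) :
    ∃ c ∈ ch (sp D A e) p, kd (sh D) c = 0 ∧ ∀ w, L D w c = u w := by
  choose x hx using fun T => exists_sl (fun w => u w T) fun w hw => congrFun (h2 w hw) T
  have h5 : ∀ T w, e < w → (-1 : ℤ) ^ T.card • (-kd (sh D) (u (w + 1))) T = 0 := fun T w hw => by
    rw [h2 _ (by omega), map_zero, neg_zero, Pi.zero_apply, smul_zero]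
  choose y hy using fun T => exists_sl _ (h5 T)
  obtain ⟨c, hc1, hc2⟩ : ∃ c : Finset (Fin (n + 1)) → Mn (n + 1) →₀ D,
      (∀ T, c (T.map Fin.castSuccEmb) = x T) ∧
        ∀ T, c (insert (Fin.last n) (T.map Fin.castSuccEmb)) = y T := by
    refine ⟨fun T' => if Fin.last n ∈ T' then y (univ.filter fun i => i.castSucc ∈ T')
      else x (univ.filter fun i => i.castSucc ∈ T'), fun T => ?_, fun T => ?_⟩
    · refine (if_neg (last_notMem T)).trans (congrArg x ?_)
      ext i
      simp
    · refine (if_pos (mem_insert_self _ _)).trans (congrArg y ?_)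
      ext i
      simp [(Fin.castSucc_lt_last _).ne]
  have hL : ∀ w, L D w c = u w := fun w => funext fun T => by
    change sl D w (c (T.map Fin.castSuccEmb)) = _
    rw [hc1, hx]
  refine ⟨c, mem_ch.2 ⟨fun T' hT => ?_, fun T' hT => ?_⟩, funext fun T' => ?_, hL⟩
  · obtain ⟨T, rfl | rfl⟩ := cases_T T'
    · rw [hc1]
      rw [card_map] at hT
      exact mem_sp_iff.2 ⟨fun w => hx T w ▸ (mem_ch.1 (h1 w)).1 T hT,
        fun w hw => (hx T w).trans (congrFun (h2 w hw) T)⟩
    · rw [hc2]
      exact mem_sp_iff.2 ⟨fun w => hy T w ▸ zsmul_mem (Submodule.neg_mem _ (h4 w T)) _,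
        fun w hw => (hy T w).trans (h5 T w hw)⟩
  · obtain ⟨T, rfl | rfl⟩ := cases_T T'
    · rw [hc1]
      rw [card_map] at hT
      exact sl_ext fun w => (hx T w).trans ((mem_ch.1 (h1 w)).2 T hT)
    · rw [hc2]
      rw [card_insert_of_notMem (last_notMem T), card_map] at hT
      refine sl_ext fun w => ?_
      rw [hy, Pi.neg_apply, kd_apply, sum_eq_zero, neg_zero, smul_zero]
      intro i hi
      rw [(mem_ch.1 (h1 _)).2 _ (by rwa [card_insert_of_notMem (mem_compl.1 hi)]), map_zero,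
        smul_zero]
  · obtain ⟨T, rfl | rfl⟩ := cases_T T'
    · refine sl_ext fun w => ?_
      rw [kd_emb, hL, hc2]
      cases w with
      | zero => rw [h3, (sl_last _).1, smul_zero, add_zero, Pi.zero_apply]
      | succ w => rw [(sl_last _).2, hy, sg_sg, Pi.neg_apply, add_neg_cancel]
    · refine sl_ext fun w => ?_
      rw [kd_ins]
      simp only [hc2, hy]
      rw [kd_sign, map_neg, kd_kd _ sh_comm, neg_zero, Pi.zero_apply, smul_zero, neg_zero]

theorem rank_eq {V V' : Type*} [AddCommGroup V] [Module D V] [AddCommGroup V'] [Module D V']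
    (f : ℕ → V →ₗ[D] V') (P : Submodule D V) (Q : ℕ → Submodule D V') (e : ℕ)
    (hQ : ∀ w, Module.Finite D (Q w)) (hm : ∀ w, ∀ c ∈ P, f w c ∈ Q w)
    (hi : ∀ c ∈ P, (∀ w < e + 1, f w c = 0) → c = 0)
    (hs : ∀ u : ℕ → V', (∀ w, u w ∈ Q w) → (∀ w, e < w → u w = 0) → ∃ c ∈ P, ∀ w, f w c = u w) :
    finrank D P = ∑ w ∈ range (e + 1), finrank D (Q w) := by
  let F := LinearMap.pi fun w : Fin (e + 1) => (f w).restrict (hm w)
  have hinj : Function.Injective F :=
    (injective_iff_map_eq_zero F).2 fun c hc => Subtype.ext (hi c c.2 fun w hw =>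
      congrArg Subtype.val (congrFun hc ⟨w, hw⟩))
  have hsurj : Function.Surjective F := by
    intro b
    obtain ⟨c, hc1, hc2⟩ := hs (fun w => if h : w < e + 1 then (b ⟨w, h⟩).1 else 0)
      (fun w => by
        split_ifs with h
        exacts [(b ⟨w, h⟩).2, Submodule.zero_mem _])
      fun w hw => dif_neg (by omega)
    exact ⟨⟨c, hc1⟩, funext fun w => Subtype.ext ((hc2 w).trans (dif_pos w.2))⟩
  rw [(LinearEquiv.ofBijective F ⟨hinj, hsurj⟩).finrank_eq, Module.finrank_pi_fintype,
    Fin.sum_univ_eq_sum_range fun w => finrank D (Q w)]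

end KLayer

theorem lamM_lay (D : Type*) [DivisionRing D] {n : ℕ} (A : Set (Mn (n + 1))) (p e : ℕ) :
    lamM D A p e = lamM D (lay A 0) p e + ∑ w ∈ range e,
      mu (sh D) (sp D (lay A (w + 1)) (e - w - 1)) (sp D (lay A w) (e - w)) p := by
  let Q : ℕ → Submodule D (Finset (Fin n) → Mn n →₀ D) := fun w => Nat.casesOn w
    (LinearMap.ker (kd (sh D)))
    fun w => (Submodule.pi Set.univ fun _ => sp D (lay A w) (e - w)).comap (kd (sh D))
  have h := KLayer.rank_eq (KLayer.L D) (ch (sp D A e) p ⊓ LinearMap.ker (kd (sh D)))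
    (fun w => ch (sp D (lay A w) (e - w)) p ⊓ Q w) e
    (fun w => by
      have := sp_finite D (lay A w) (e - w)
      have := ch_finite (n := n) (sp D (lay A w) (e - w)) p
      exact Submodule.finiteDimensional_inf_left _ _)
    (fun w c hc => ⟨KLayer.L_mem hc.1 w, ?_⟩)
    (fun c hc h => KLayer.inj hc.1 hc.2 (h 0 (Nat.succ_pos e))
      fun w hw => h (w + 1) (Nat.succ_lt_succ hw))
    (fun u h1 h2 => by
      obtain ⟨c, hc1, hc2, hc3⟩ := KLayer.surj u (fun w => (h1 w).1) h2 (h1 0).2
        fun w T => (h1 (w + 1)).2 T trivial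
      exact ⟨c, ⟨hc1, hc2⟩, hc3⟩)
  · rw [sum_range_succ'] at h
    exact h.trans (Nat.add_comm _ _)
  · cases w with
    | zero => exact KLayer.kd_L_zero hc.2
    | succ w =>
      intro T _
      rw [KLayer.kd_L_succ hc.2]
      refine Submodule.neg_mem _ (zsmul_mem ((KLayer.mem_sp_iff.1 ?_).1 w) _)
      by_cases h : (insert (Fin.last n) (T.map Fin.castSuccEmb)).card = p
      · exact (mem_ch.1 hc.1).1 _ h
      · rw [(mem_ch.1 hc.1).2 _ h]
        exact Submodule.zero_mem _

end Vale.Agent.P200.B
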