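import Vale.Agent.P200.B.K0

/-! Sign computations in the Koszul complex. -/

open Module Finset

namespace Vale.Agent.P200.B

universe u

variable {D M : Type*} [Ring D] [AddCommGroup M] [Module D M] {n : ℕ}

theorem ksign_insert {T : Finset (Fin n)} {i : Fin n} (hi : i ∉ T) (j : Fin n) :
    (-1 : ℤ) ^ ((insert i T).filter (· < j)).card =
      (if i < j then -1 else 1) * (-1 : ℤ) ^ (T.filter (· < j)).card := by
  rw [filter_insert]
  split_ifs with h
  · rw [card_insert_of_notMem fun h' => hi (mem_filter.1 h').1, pow_succ]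
    ring
  · rw [one_mul]

theorem ksign_swap {T : Finset (Fin n)} {i j : Fin n} (hi : i ∉ T) (hj : j ∉ T) (h : i ≠ j) :
    (-1 : ℤ) ^ (T.filter (· < i)).card * (-1 : ℤ) ^ ((insert i T).filter (· < j)).card +
      (-1 : ℤ) ^ (T.filter (· < j)).card * (-1 : ℤ) ^ ((insert j T).filter (· < i)).card = 0 := by
  rw [ksign_insert hi, ksign_insert hj]
  rcases lt_or_gt_of_ne h with h1 | h1
  · rw [if_pos h1, if_neg h1.not_gt]
    ring
  · rw [if_neg h1.not_gt, if_pos h1]
    ring

theorem ksign_swap' {T : Finset (Fin n)} {i j : Fin n} (hi : i ∉ T) (hj : j ∉ T) (h : i ≠ j) :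
    (-1 : ℤ) ^ ((insert j T).filter (· < i)).card * (-1 : ℤ) ^ ((insert i T).filter (· < j)).card +
      (-1 : ℤ) ^ (T.filter (· < j)).card * (-1 : ℤ) ^ (T.filter (· < i)).card = 0 := by
  rw [ksign_insert hi, ksign_insert hj]
  rcases lt_or_gt_of_ne h with h1 | h1
  · rw [if_pos h1, if_neg h1.not_gt]
    ring
  · rw [if_neg h1.not_gt, if_pos h1]
    ring

theorem ksign_sq (k : ℕ) : (-1 : ℤ) ^ k * (-1 : ℤ) ^ k = 1 := by
  rw [← mul_pow]
  simp

theorem kd_kd (m : Fin n → M →ₗ[D] M) (hm : ∀ i j x, m i (m j x) = m j (m i x))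
    (c : Finset (Fin n) → M) : kd m (kd m c) = 0 := by
  funext T
  have e : kd m (kd m c) T = ∑ x ∈ Tᶜ ×ˢ Tᶜ, if x.2 ≠ x.1 then
      ((-1 : ℤ) ^ (T.filter (· < x.1)).card *
        (-1 : ℤ) ^ ((insert x.1 T).filter (· < x.2)).card) •
        m x.1 (m x.2 (c (insert x.2 (insert x.1 T)))) else 0 := by
    rw [kd_apply, sum_product]
    refine sum_congr rfl fun i _ => ?_
    rw [kd_apply, compl_insert, ← filter_ne', sum_filter, map_sum, smul_sum]
    refine sum_congr rfl fun j _ => ?_
    split_ifs with h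
    · rw [map_zsmul, mul_smul]
    · simp
  rw [e, Pi.zero_apply]
  refine sum_involution (fun x _ => x.swap) ?_ ?_ ?_ ?_
  · rintro ⟨i, j⟩ hx
    obtain ⟨hi, hj⟩ := mem_product.1 hx
    by_cases h : j = i
    · simp [h]
    · have h' : i ≠ j := fun e => h e.symm
      simp only [Prod.swap_prod_mk, ne_eq, h, h', not_false_eq_true, if_true]
      rw [hm j i, insert_comm i j, ← add_smul, ksign_swap (mem_compl.1 hi) (mem_compl.1 hj) h',
        zero_smul]
  · rintro ⟨i, j⟩ _ h h'
    apply h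
    have : j = i := (Prod.ext_iff.1 h').1
    simp [this]
  · rintro ⟨i, j⟩ hx
    obtain ⟨hi, hj⟩ := mem_product.1 hx
    exact mem_product.2 ⟨hj, hi⟩
  · intro x _
    rfl

theorem kd_wedge (m : Fin n → M →ₗ[D] M) (j : Fin n) (u : Finset (Fin n) → M) :
    kd m (wedge j u) + wedge j (kd m u) = fun T => m j (u T) := by
  funext T
  rw [Pi.add_apply, kd_apply]
  by_cases hj : j ∈ T
  · obtain ⟨S, hS, rfl⟩ : ∃ S, j ∉ S ∧ T = insert j S :=
      ⟨T.erase j, notMem_erase _ _, (insert_erase hj).symm⟩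
    have e1 : wedge j (kd m u) (insert j S) =
        ((-1 : ℤ) ^ (S.filter (· < j)).card) • kd m u S := by
      rw [wedge, if_pos hj, erase_insert hS]
    have e2 : Sᶜ = insert j (insert j S)ᶜ := by
      rw [compl_insert, insert_erase (mem_compl.2 hS)]
    rw [e1, kd_apply, e2, sum_insert (by simp), smul_add, smul_smul, ksign_sq, one_smul,
      add_left_comm, smul_sum, ← sum_add_distrib, sum_eq_zero, add_zero]
    intro i hi
    have hi' := mem_compl.1 hi
    have hij : i ≠ j := fun e => hi' (e ▸ mem_insert_self _ _)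
    have hiS : i ∉ S := fun h => hi' (mem_insert_of_mem h)
    have e3 : (insert i (insert j S)).erase j = insert i S := by
      rw [insert_comm, erase_insert]
      simp [hS, hij.symm]
    rw [wedge, if_pos (mem_insert_of_mem hj), e3, map_zsmul, smul_smul, smul_smul, ← add_smul,
      ksign_swap' hiS hS hij, zero_smul]
  · rw [sum_eq_single j]
    · rw [wedge, wedge, if_pos (mem_insert_self _ _), if_neg hj, erase_insert hj, map_zsmul,
        smul_smul, ksign_sq, one_smul, add_zero]
    · intro i _ hij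
      rw [wedge, if_neg, map_zero, smul_zero]
      simp [hj, hij.symm]
    · intro h
      exact absurd (mem_compl.2 hj) h

theorem kd_mem (m : Fin n → M →ₗ[D] M) {W W' : Submodule D M} (h : ∀ i, ∀ x ∈ W, m i x ∈ W')
    {p : ℕ} {c : Finset (Fin n) → M} (hc : c ∈ ch W (p + 1)) : kd m c ∈ ch W' p := by
  obtain ⟨h1, h2⟩ := mem_ch.1 hc
  refine mem_ch.2 ⟨fun T hT => ?_, fun T hT => ?_⟩
  · rw [kd_apply]
    refine W'.sum_mem fun i hi => W'.toAddSubgroup.zsmul_mem (h i _ (h1 _ ?_)) _
    rw [card_insert_of_notMem (mem_compl.1 hi), hT]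
  · rw [kd_apply]
    refine sum_eq_zero fun i hi => ?_
    rw [h2, map_zero, smul_zero]
    rw [card_insert_of_notMem (mem_compl.1 hi)]
    omega

theorem kd_zero (m : Fin n → M →ₗ[D] M) {W : Submodule D M} {c : Finset (Fin n) → M}
    (hc : c ∈ ch W 0) : kd m c = 0 := by
  funext T
  rw [kd_apply, Pi.zero_apply]
  refine sum_eq_zero fun i hi => ?_
  rw [(mem_ch.1 hc).2, map_zero, smul_zero]
  rw [card_insert_of_notMem (mem_compl.1 hi)]
  omega

theorem wedge_mem (j : Fin n) {W : Submodule D M} {p : ℕ} {u : Finset (Fin n) → M}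
    (hu : u ∈ ch W p) : wedge j u ∈ ch W (p + 1) := by
  obtain ⟨h1, h2⟩ := mem_ch.1 hu
  refine mem_ch.2 ⟨fun T hT => ?_, fun T hT => ?_⟩
  · rw [wedge]
    split_ifs with hj
    · refine W.toAddSubgroup.zsmul_mem (h1 _ ?_) _
      rw [card_erase_of_mem hj, hT]
      rfl
    · exact W.zero_mem
  · rw [wedge]
    split_ifs with hj
    · rw [h2, smul_zero]
      have := card_erase_add_one hj
      omega
    · rfl

theorem kd_comp {M' : Type*} [AddCommGroup M'] [Module D M'] (m : Fin n → M →ₗ[D] M)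
    (m' : Fin n → M' →ₗ[D] M') (f : M →+ M') (h : ∀ i x, f (m i x) = m' i (f x))
    (c : Finset (Fin n) → M) : kd m' (fun T => f (c T)) = fun T => f (kd m c T) := by
  funext T
  rw [kd_apply, kd_apply, map_sum]
  refine sum_congr rfl fun i _ => ?_
  rw [map_zsmul, h]

end Vale.Agent.P200.B
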