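import Vale.Agent.P200.B.K0

/-! Lex-plus-powers sets. -/

open Finset

namespace Vale.Agent.P200.B

universe u

variable {n : ℕ} {a : Fin n → ℕ} {e : ℕ}

theorem lex1_rank {ι B : Type*} [DecidableEq ι] [LinearOrder B] {κ : ι → B}
    (hκ : Function.Injective κ) (q : ℕ) (s : Finset ι) :
    (s.filter fun x => (s.filter fun y => κ x ≤ κ y).card ≤ q).card = min q s.card := by
  induction s using Finset.induction_on_min_value κ with
  | empty => simp
  | insert a s ha hmin ih =>
    have h1 : ((insert a s).filter fun y => κ a ≤ κ y) = insert a s :=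
      filter_true_of_mem fun y hy => by
        rcases mem_insert.1 hy with rfl | hy
        · exact le_rfl
        · exact hmin y hy
    have h2 : (s.filter fun x => ((insert a s).filter fun y => κ x ≤ κ y).card ≤ q) =
        s.filter fun x => (s.filter fun y => κ x ≤ κ y).card ≤ q :=
      filter_congr fun x hx => by
        rw [filter_insert, if_neg fun h => ha (hκ (le_antisymm h (hmin x hx)) ▸ hx)]
    rw [filter_insert, h1, h2, card_insert_of_notMem ha]
    split_ifs with h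
    · rw [card_insert_of_notMem fun h => ha (mem_filter.1 h).1, ih]
      omega
    · omega

theorem lex1_lt {x y : Mn n} {j : Fin n} (h : ∀ d < j, x d ≤ y d) (hj : x j < y j) :
    toLex x < toLex y := by
  obtain ⟨i, hi, hm⟩ := (wellFounded_lt (α := Fin n)).has_min {d | x d < y d} ⟨j, hj⟩
  refine ⟨i, fun d hd => ?_, hi⟩
  have h1 : d < j := lt_of_lt_of_le hd (not_lt.1 (hm j hj))
  exact le_antisymm (h d h1) (not_lt.1 fun h2 => hm d h2 hd)

theorem LexC.nest {L L' : Set (Mn n)} (h : LexC a e L) (h' : LexC a e L')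
    (hc : cnt L e ≤ cnt L' e) : dg L e ⊆ L' := by
  intro α hα
  by_contra hn
  have hP : α ∉ Pb a := fun hp => hn (h'.1 ⟨hp, hα.2⟩)
  have hs : dg L' e ⊆ L := by
    intro β hβ
    by_cases hb : β ∈ Pb a
    · exact h.1 ⟨hb, hβ.2⟩
    rcases le_total (toLex α) (toLex β) with h1 | h1
    · exact h.2 α β hα.2 hβ.2 hα.1 hP h1
    · exact absurd (h'.2 β α hβ.2 hα.2 hβ.1 hb h1) hn
  rw [← dg_eq_of_cnt hs hc] at hα
  exact hn hα.1

/-- the pure powers together with the `q` greatest other monomials of each degree -/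
def lexOf (a : Fin n → ℕ) (q : ℕ) : Set (Mn n) :=
  {α | α ∈ Pb a ∨ {β : Mn n | β.degree = α.degree ∧ β ∉ Pb a ∧ toLex α ≤ toLex β}.ncard ≤ q}

theorem lexC_lexOf (a : Fin n → ℕ) (q e : ℕ) : LexC a e (lexOf a q) := by
  refine ⟨fun α hα => Or.inl hα.1, fun α β hα hβ h hP hle => Or.inr ?_⟩
  refine le_trans (Set.ncard_le_ncard (fun γ hγ => ?_) ?_) (h.resolve_left hP)
  · exact ⟨by rw [hγ.1, hα, hβ], hγ.2.1, hle.trans hγ.2.2⟩
  · exact (Finsupp.finite_of_degree_eq α.degree).subset fun _ h => h.1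

theorem cnt_lexOf (a : Fin n → ℕ) (q e : ℕ) (h : cnt (Pb a) e + q ≤ cnt (Set.univ : Set (Mn n)) e) :
    cnt (lexOf a q) e = cnt (Pb a) e + q := by
  classical
  have hX := dg_finite (Pb a)ᶜ e
  have hd : ∀ S : Set (Mn n), S ⊆ dg (Pb a)ᶜ e →
      (dg (Pb a) e ∪ S).ncard = cnt (Pb a) e + S.ncard := fun S hS =>
    Set.ncard_union_eq (Set.disjoint_left.2 fun x hx hx' => (hS hx').1 hx.1) (dg_finite _ _)
      (hX.subset hS)
  have h1 : cnt (Set.univ : Set (Mn n)) e = cnt (Pb a) e + hX.toFinset.card := by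
    rw [← Set.ncard_eq_toFinset_card _ hX, ← hd _ subset_rfl, cnt]
    congr 1
    ext x
    simp only [dg, Set.mem_ofPred_eq, Set.mem_univ, true_and, Set.mem_union, Set.mem_compl_iff]
    tauto
  have h2 : ∀ α : Mn n, α.degree = e →
      {β : Mn n | β.degree = α.degree ∧ β ∉ Pb a ∧ toLex α ≤ toLex β}.ncard =
        (hX.toFinset.filter fun y => toLex α ≤ toLex y).card := by
    intro α hα
    rw [← Set.ncard_coe_finset]
    congr 1
    ext x
    simp only [dg, hα, Set.mem_ofPred_eq, coe_filter, Set.Finite.mem_toFinset, Set.mem_compl_iff]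
    tauto
  have h3 : dg (lexOf a q) e = dg (Pb a) e ∪ (hX.toFinset.filter fun x =>
      (hX.toFinset.filter fun y => toLex x ≤ toLex y).card ≤ q : Finset (Mn n)) := by
    ext x
    simp only [coe_filter, Set.Finite.mem_toFinset, Set.mem_union, Set.mem_ofPred_eq]
    constructor
    · rintro ⟨hx, hd⟩
      by_cases hP : x ∈ Pb a
      · exact Or.inl ⟨hP, hd⟩
      · exact Or.inr ⟨⟨hP, hd⟩, h2 x hd ▸ hx.resolve_left hP⟩
    · rintro (hx | hx)
      · exact ⟨Or.inl hx.1, hx.2⟩
      · exact ⟨Or.inr (h2 x hx.1.2 ▸ hx.2), hx.1.2⟩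
  rw [cnt, h3, hd _ fun x hx => hX.mem_toFinset.1 (mem_filter.1 hx).1, Set.ncard_coe_finset,
    lex1_rank toLex.injective]
  omega

theorem exists_lexC {A : Set (Mn n)} (hA : dg (Pb a) e ⊆ A) :
    ∃ L, LexC a e L ∧ cnt L e = cnt A e := by
  have h1 := cnt_mono hA
  have h2 : cnt A e ≤ cnt (Set.univ : Set (Mn n)) e := cnt_mono (Set.subset_univ _)
  refine ⟨_, lexC_lexOf a (cnt A e - cnt (Pb a) e) e, ?_⟩
  rw [cnt_lexOf _ _ _ (by omega)]
  omega

theorem LexC.shp {L : Set (Mn n)} (h : LexC a e L) : LexC a (e + 1) (shp a L) := by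
  refine ⟨fun α hα => Or.inl hα.1, fun γ γ' hγ hγ' hs hP hle => Or.inr ?_⟩
  obtain ⟨α, hα, i, rfl⟩ := hs.resolve_left hP
  have hne : γ'.support.Nonempty := by
    rw [Finsupp.support_nonempty_iff]
    rintro rfl
    simp at hγ'
  obtain ⟨k, hk, hmax⟩ := exists_max_image γ'.support id hne
  obtain ⟨α', rfl⟩ : ∃ α', γ' = α' + Finsupp.single k 1 :=
    ⟨γ' - Finsupp.single k 1, (tsub_add_cancel_of_le (Finsupp.single_le_iff.2
      (Nat.one_le_iff_ne_zero.2 (Finsupp.mem_support_iff.1 hk)))).symm⟩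
  rw [map_add, Finsupp.degree_single, Nat.add_right_cancel_iff] at hγ hγ'
  refine ⟨α', h.2 α α' hγ hγ' hα (fun ⟨j, hj⟩ => hP ⟨j, hj.trans (by simp)⟩) ?_, k, rfl⟩
  by_contra hlt
  obtain ⟨j, hj, hj'⟩ := not_le.1 hlt
  change ∀ d < j, α' d = α d at hj
  change α' j < α j at hj'
  rcases lt_or_ge j k with hjk | hjk
  · refine absurd hle (not_le.2 (lex1_lt (j := j) (fun d hd => ?_) ?_))
    · simp [hj d hd, (hd.trans hjk).ne]
    · simp only [Finsupp.add_apply, Finsupp.single_eq_of_ne hjk.ne]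
      omega
  · have : α'.degree < α.degree := by
      rw [Finsupp.degree_eq_sum, Finsupp.degree_eq_sum]
      refine sum_lt_sum (fun d _ => ?_) ⟨j, mem_univ _, hj'⟩
      rcases lt_trichotomy d j with h1 | rfl | h1
      · exact (hj d h1).le
      · exact hj'.le
      · by_contra h2
        have h3 := hmax d (Finsupp.mem_support_iff.2 (by rw [Finsupp.add_apply]; omega))
        exact absurd (hjk.trans_lt h1) (not_lt.2 h3)
    omega

end Vale.Agent.P200.B
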