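import Vale.Agent.P200.B.Lex1

/-! Layers of lex-plus-powers sets. -/

open Finset

namespace Vale.Agent.P200.B

universe u

variable {n : ℕ}

theorem lt_iff_Lex2 {α β : Mn n} :
    toLex α < toLex β ↔ ∃ i, (∀ j < i, α j = β j) ∧ α i < β i := Finsupp.Lex.lt_iff

theorem sn_lt_Lex2 {α β : Mn n} (h : toLex α < toLex β) (w w' : ℕ) :
    toLex (sn α w) < toLex (sn β w') := by
  obtain ⟨i, h1, h2⟩ := lt_iff_Lex2.1 h
  refine lt_iff_Lex2.2 ⟨i.castSucc, fun j hj => ?_, by simpa using h2⟩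
  obtain ⟨j, rfl⟩ := Fin.exists_castSucc_eq.2 (hj.trans (Fin.castSucc_lt_last i)).ne
  simpa using h1 j (Fin.castSucc_lt_castSucc_iff.1 hj)

theorem lt_add_Lex2 (β : Mn n) (j : Fin n) : toLex β < toLex (β + Finsupp.single j 1) := by
  refine lt_iff_Lex2.2 ⟨j, fun i hi => ?_, by simp⟩
  simp [Finsupp.single_apply, hi.ne']

theorem move_Lex2 (β : Mn n) (w : ℕ) (j : Fin n) :
    sn β (w + 1) - Finsupp.single (Fin.last n) 1 + Finsupp.single j.castSucc 1 =
      sn (β + Finsupp.single j 1) w := by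
  rw [← sn_add_last, add_tsub_cancel_right, sn_add_castSucc]

theorem exists_of_lt_Lex2 {A B : Set (Mn n)} {e : ℕ} (h : cnt B e < cnt A e) :
    ∃ u ∈ A, u.degree = e ∧ u ∉ B := by
  by_contra hc
  push Not at hc
  exact h.not_ge (cnt_mono fun u hu => hc u hu.1 hu.2)

theorem cnt_lay (A : Set (Mn (n + 1))) (e : ℕ) :
    cnt A e = ∑ w ∈ range (e + 1), cnt (lay A w) (e - w) := by
  classical
  have hf := dg_finite A e
  rw [cnt, Set.ncard_eq_toFinset_card _ hf,
    card_eq_sum_card_fiberwise (f := fun α : Mn (n + 1) => α (Fin.last n)) (t := range (e + 1))]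
  · refine sum_congr rfl fun w hw => ?_
    have hw' : w ≤ e := Nat.lt_succ_iff.1 (mem_range.1 hw)
    rw [cnt, ← Set.ncard_image_of_injective (dg (lay A w) (e - w)) (f := fun β => sn β w)
      fun _ _ h => (sn_inj h).1, ← Set.ncard_coe_finset]
    congr 1
    ext α
    obtain ⟨β, v, rfl⟩ := exists_sn α
    simp only [coe_filter, Set.Finite.mem_toFinset, Set.mem_setOf_eq, sn_last, Set.mem_image]
    constructor
    · rintro ⟨⟨h1, h2⟩, rfl⟩
      rw [degree_sn] at h2
      exact ⟨β, ⟨h1, by omega⟩, rfl⟩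
    · rintro ⟨γ, ⟨h1, h2⟩, h3⟩
      obtain ⟨rfl, rfl⟩ := sn_inj h3
      exact ⟨⟨h1, by rw [degree_sn]; omega⟩, rfl⟩
  · intro α hα
    have h1 : α.degree = e := (hf.mem_toFinset.1 hα).2
    have h2 := Finsupp.le_degree (Fin.last n) α
    simp only [coe_range, Set.mem_Iio]
    omega

theorem LexC.lay {a : Fin (n + 1) → ℕ} {e : ℕ} {L : Set (Mn (n + 1))} (h : LexC a e L) {w k : ℕ}
    (hw : w < a (Fin.last n)) (hk : k + w = e) : LexC (fun i => a i.castSucc) k (lay L w) := by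
  refine ⟨fun β hβ => h.1 ⟨sn_mem_Pb.2 (Or.inl hβ.1), by rw [degree_sn, hβ.2, hk]⟩,
    fun α β h1 h2 h3 h4 h5 => ?_⟩
  rcases h5.eq_or_lt with h6 | h6
  · rw [← toLex.injective h6]
    exact h3
  · refine h.2 (sn α w) (sn β w) (by rw [degree_sn, h1, hk]) (by rw [degree_sn, h2, hk]) h3 ?_
      (sn_lt_Lex2 h6 w w).le
    rw [sn_mem_Pb]
    rintro (h7 | h7)
    · exact h4 h7
    · omega

theorem LexC.stable {a : Fin (n + 1) → ℕ} {e : ℕ} {L : Set (Mn (n + 1))} (h : LexC a e L) :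
    Stable (Fin.last n) (a (Fin.last n)) e L := by
  intro α hα hd h0 h1 j
  obtain ⟨β, v, rfl⟩ := exists_sn α
  rw [sn_last] at h0 h1
  obtain ⟨w, rfl⟩ : ∃ w, v = w + 1 := ⟨v - 1, by omega⟩
  induction j using Fin.lastCases with
  | last =>
    rw [← sn_add_last, add_tsub_cancel_right, sn_add_last]
    exact hα
  | cast j =>
    rw [move_Lex2]
    have hd' : (sn (β + Finsupp.single j 1) w).degree = e := by
      rw [degree_sn] at hd ⊢
      rw [map_add, Finsupp.degree_single]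
      omega
    by_cases hP : sn β (w + 1) ∈ Pb a
    · refine h.1 ⟨?_, hd'⟩
      rcases sn_mem_Pb.1 hP with ⟨i, hi⟩ | h2
      · refine sn_mem_Pb.2 (Or.inl ⟨i, hi.trans ?_⟩)
        simp
      · omega
    · exact h.2 _ _ hd hd' hα hP (sn_lt_Lex2 (lt_add_Lex2 β j) _ _).le

theorem Stable.lay {b e : ℕ} {A : Set (Mn (n + 1))} (h : Stable (Fin.last n) b e A) {w : ℕ}
    (hw : w + 1 < b) {β : Mn n} (hβ : β ∈ lay A (w + 1)) (hd : β.degree + w + 1 = e) (j : Fin n) :
    β + Finsupp.single j 1 ∈ lay A w := by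
  have h1 := h (sn β (w + 1)) hβ (by rw [degree_sn]; omega) (by simp) (by simpa using hw) j.castSucc
  rw [move_Lex2] at h1
  exact h1

theorem lex_step {a : Fin n → ℕ} {u v : Mn n} (hu : u ∉ Pb a) (hv : v ∉ Pb a)
    (hd : v.degree < u.degree) (h : toLex v ≤ toLex u) :
    ∃ k, v + Finsupp.single k 1 ∉ Pb a ∧ toLex (v + Finsupp.single k 1) ≤ toLex u := by
  have hu' : ∀ i, u i < a i := fun i => lt_of_not_ge fun hi => hu ⟨i, hi⟩
  have hv' : ∀ i, v i < a i := fun i => lt_of_not_ge fun hi => hv ⟨i, hi⟩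
  have hP : ∀ k, v k + 1 < a k → v + Finsupp.single k 1 ∉ Pb a := by
    rintro k hk ⟨i, hi⟩
    have := hv' i
    by_cases hik : k = i
    · subst hik
      simp only [Finsupp.add_apply, Finsupp.single_eq_same] at hi
      omega
    · simp only [Finsupp.add_apply, Finsupp.single_apply, if_neg hik] at hi
      omega
  have hlt : toLex v < toLex u := lt_of_le_of_ne h fun h1 => by
    rw [toLex.injective h1] at hd
    exact lt_irrefl _ hd
  obtain ⟨j, hj1, hj2⟩ := lt_iff_Lex2.1 hlt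
  by_cases hk : ∃ k, j < k ∧ v k + 1 < a k
  · obtain ⟨k, hk1, hk2⟩ := hk
    refine ⟨k, hP k hk2, (lt_iff_Lex2.2 ⟨j, fun i hi => ?_, ?_⟩).le⟩
    · simp [Finsupp.single_apply, (hi.trans hk1).ne', hj1 i hi]
    · simpa [Finsupp.single_apply, hk1.ne'] using hj2
  · push Not at hk
    refine ⟨j, hP j (lt_of_le_of_lt hj2 (hu' j)), ?_⟩
    rcases (Nat.succ_le_of_lt hj2).eq_or_lt with h1 | h1
    · have h2 : u ≤ v + Finsupp.single j 1 := fun i => by
        rcases lt_trichotomy i j with hi | rfl | hi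
        · simp [hj1 i hi]
        · simpa using h1.ge
        · have h3 := hk i hi
          have h4 := hu' i
          simp only [Finsupp.add_apply]
          omega
      obtain ⟨t, ht⟩ := exists_add_of_le h2
      have h3 := congrArg Finsupp.degree ht
      rw [map_add, map_add, Finsupp.degree_single] at h3
      have h4 : t = 0 := (Finsupp.degree_eq_zero_iff t).1 (by omega)
      rw [ht, h4, add_zero]
    · refine (lt_iff_Lex2.2 ⟨j, fun i hi => ?_, by simpa using h1⟩).le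
      simp [Finsupp.single_apply, hi.ne', hj1 i hi]

/-- comparison of the extreme layers with those of a stable family of lex-plus-powers sets -/
theorem lay_cmp {a : Fin (n + 1) → ℕ} {e m : ℕ} {L : Set (Mn (n + 1))} (hL : LexC a e L)
    (hm : m < a (Fin.last n)) (hme : m ≤ e) (Cw : ℕ → Set (Mn n))
    (hC : ∀ w ≤ m, LexC (fun i => a i.castSucc) (e - w) (Cw w))
    (hs : ∀ w < m, ∀ β ∈ Cw (w + 1), β.degree + w + 1 = e → ∀ j, β + Finsupp.single j 1 ∈ Cw w)
    (hsum : ∑ w ∈ range (m + 1), cnt (Cw w) (e - w) =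
      ∑ w ∈ range (m + 1), cnt (lay L w) (e - w)) :
    cnt (lay L 0) e ≤ cnt (Cw 0) e ∧ cnt (Cw m) (e - m) ≤ cnt (lay L m) (e - m) := by
  have iter : ∀ (i : ℕ) (u : Mn n), u.degree + i = e → u ∉ Pb (fun i => a i.castSucc) →
      ∀ (d : ℕ) (v : Mn n), i + d ≤ m → v ∈ Cw (i + d) → v.degree + i + d = e →
        v ∉ Pb (fun i => a i.castSucc) → toLex v ≤ toLex u → u ∈ Cw i := by
    intro i u hu1 hu2 d
    induction d with
    | zero =>
      intro v h1 h2 h3 h4 h5
      exact (hC i h1).2 v u (by omega) (by omega) h2 h4 h5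
    | succ d ih =>
      intro v h1 h2 h3 h4 h5
      obtain ⟨k, hk1, hk2⟩ := lex_step hu2 h4 (by omega) h5
      refine ih _ (by omega) (hs (i + d) (by omega) v h2 (by omega) k) ?_ hk1 hk2
      rw [map_add, Finsupp.degree_single]
      omega
  have key : ∀ i i', i < i' → i' ≤ m → cnt (Cw i) (e - i) < cnt (lay L i) (e - i) →
      cnt (lay L i') (e - i') < cnt (Cw i') (e - i') → False := by
    intro i i' h1 h2 h3 h4
    obtain ⟨u, hu1, hu2, hu3⟩ := exists_of_lt_Lex2 h3
    obtain ⟨v, hv1, hv2, hv3⟩ := exists_of_lt_Lex2 h4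
    have hu4 : u ∉ Pb (fun i => a i.castSucc) := fun hP => hu3 ((hC i (by omega)).1 ⟨hP, hu2⟩)
    have hv4 : v ∉ Pb (fun i => a i.castSucc) := fun hP =>
      hv3 ((hL.lay (w := i') (k := e - i') (by omega) (by omega)).1 ⟨hP, hv2⟩)
    have hvu : toLex v ≤ toLex u := by
      by_contra hc
      refine hv3 (hL.2 (sn u i) (sn v i') (by rw [degree_sn]; omega) (by rw [degree_sn]; omega) hu1
        ?_ (sn_lt_Lex2 (lt_of_not_ge hc) _ _).le)
      rw [sn_mem_Pb]
      rintro (h7 | h7)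
      · exact hu4 h7
      · omega
    obtain ⟨d, rfl⟩ : ∃ d, i' = i + d := ⟨i' - i, by omega⟩
    exact hu3 (iter i u (by omega) hu4 d v h2 hv1 (by omega) hv4 hvu)
  constructor
  · by_contra hc
    have h0 : cnt (Cw 0) (e - 0) < cnt (lay L 0) (e - 0) := lt_of_not_ge hc
    refine (sum_lt_sum (fun w hw => ?_) ⟨0, by simp, h0⟩).ne hsum
    by_contra h1
    have h2 := lt_of_not_ge h1
    rcases Nat.eq_zero_or_pos w with rfl | h3
    · omega
    · exact key 0 w h3 (Nat.lt_succ_iff.1 (mem_range.1 hw)) h0 h2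
  · by_contra hc
    have h0 : cnt (lay L m) (e - m) < cnt (Cw m) (e - m) := lt_of_not_ge hc
    refine (sum_lt_sum (fun w hw => ?_) ⟨m, by simp, h0⟩).ne hsum.symm
    by_contra h1
    have h2 := lt_of_not_ge h1
    rcases (Nat.lt_succ_iff.1 (mem_range.1 hw)).eq_or_lt with rfl | h3
    · omega
    · exact key w m h3 le_rfl h2 h0

end Vale.Agent.P200.B
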