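import Vale.Agent.P200.B.Defs
import Vale.Agent.P200.G.Sym

/-! The skew field of a finite order automorphism. -/

open Finset

namespace Vale.Agent.P200.B

universe u

/-- the skew polynomial ring of an automorphism -/
noncomputable def nc2Cd {K L : Type u} [Field K] [Field L] [Algebra K L] (σ : L ≃ₐ[K] L) :
    G.Cd K (Multiplicative ℕ) L where
  α := powersHom _ σ
  τ _ _ := 1
  τ_one_left _ := rfl
  τ_one_right _ := rfl
  τ_assoc _ _ _ := rfl

/-- the monomials of the skew polynomial ring -/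
noncomputable def nc2M {K L : Type u} [Field K] [Field L] [Algebra K L] (σ : L ≃ₐ[K] L) (i : ℕ)
    (x : L) : G.CP (nc2Cd σ) :=
  G.CP.sgl _ (Multiplicative.ofAdd i) x

theorem nc2M_mul {K L : Type u} [Field K] [Field L] [Algebra K L] (σ : L ≃ₐ[K] L) (i j : ℕ)
    (x y : L) : nc2M σ i x * nc2M σ j y = nc2M σ (i + j) (x * (σ ^ i) y) := by
  rw [nc2M, nc2M, G.CP.sgl_mul_sgl]
  exact congrArg _ (one_smul K _)

theorem nc2_domFin {K L : Type u} [Field K] [Field L] [Algebra K L] (σ : L ≃ₐ[K] L) {b : ℕ}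
    (hb : 0 < b) (hσ : σ ^ b = 1) : G.DomFin (G.CP (nc2Cd σ)) := by
  classical
  let s : Set (G.CP (nc2Cd σ)) := {z | ∃ i x, z = nc2M σ (b * i) x}
  have hs : ∀ z ∈ s, z ∈ Subring.centralizer s := by
    rintro _ ⟨i, x, rfl⟩
    refine Subring.mem_centralizer_iff.2 ?_
    rintro _ ⟨j, y, rfl⟩
    rw [nc2M_mul, nc2M_mul, pow_mul, pow_mul, hσ, one_pow, one_pow, AlgEquiv.one_apply,
      AlgEquiv.one_apply, add_comm, mul_comm x]
  let Y := Subring.centralizer (Subring.centralizer s : Set (G.CP (nc2Cd σ)))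
  refine ⟨one_ne_zero, G.sym_dom fun _ _ => one_ne_zero, Y,
    (range b).image fun k => nc2M σ k 1, fun x hx y hy => ?_, G.sym_fin _ _ fun r => ?_⟩
  · exact Subring.mem_centralizer_iff.1 hy x (Subring.mem_centralizer_iff.2 fun z hz =>
      Subring.mem_centralizer_iff.1 hx z (hs z hz))
  induction r using G.CP.induction_on with
  | zero => exact zero_mem _
  | add x y hx hy => exact add_mem hx hy
  | sgl g x =>
    have h1 : G.CP.sgl (nc2Cd σ) g x =
        nc2M σ (b * (g.toAdd / b)) x * nc2M σ (g.toAdd % b) 1 := by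
      rw [nc2M_mul, map_one, mul_one, Nat.div_add_mod]
      rfl
    have h2 : nc2M σ (b * (g.toAdd / b)) x ∈ Y := Subring.mem_centralizer_iff.2 fun z hz =>
      (Subring.mem_centralizer_iff.1 hz _ ⟨_, _, rfl⟩).symm
    rw [h1]
    exact Submodule.smul_mem _ (⟨_, h2⟩ : Y) (Submodule.subset_span
      (mem_coe.2 (mem_image.2 ⟨g.toAdd % b, mem_range.2 (Nat.mod_lt _ hb), rfl⟩)))

theorem exists_skew {K L : Type u} [Field K] [Field L] [Algebra K L] (σ : L ≃ₐ[K] L) {b : ℕ}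
    (hb : 0 < b) (hσ : σ ^ b = 1) :
    ∃ (D : Type u) (_ : DivisionRing D) (_ : Algebra K D) (ι : L →+* D) (t : D), t ≠ 0 ∧
      ∀ x, t * ι x = ι (σ x) * t := by
  obtain ⟨F', D, _, _, _, -, φF, φ, hφ, -, -⟩ := G.exists_loc (F := K) (nc2_domFin σ hb hσ)
  refine ⟨D, inferInstance, ((algebraMap F' D).comp φF).toAlgebra' fun c x => Algebra.commutes _ x,
    φ.comp (G.CP.base (nc2Cd σ)).toRingHom, φ (nc2M σ 1 1), (map_ne_zero_iff φ hφ).2 fun h => ?_,
    fun x => ?_⟩
  · have := congrArg (fun x : G.CP (nc2Cd σ) => x.co (Multiplicative.ofAdd 1)) h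
    simp [nc2M] at this
  · change φ (nc2M σ 1 1) * φ (nc2M σ 0 x) = φ (nc2M σ 0 (σ x)) * φ (nc2M σ 1 1)
    rw [← map_mul, ← map_mul, nc2M_mul, nc2M_mul, pow_one, one_mul, map_one, mul_one]

end Vale.Agent.P200.B
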