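import Vale.Agent.P200.B.NC1
import Vale.Agent.P200.B.NC2
import Vale.Agent.P200.B.Dist1

/-! A factorization of a binomial with nonzero partial sums of roots. -/

open Finset Polynomial

namespace Vale.Agent.P200.B

universe u

theorem piP_rho {L D : Type*} [Field L] [DivisionRing D] (σ : L ≃+* L) (ι : L →+* D) (t : D)
    (h : ∀ x, t * ι x = ι (σ x) * t) (r : ℕ → L) (k m : ℕ) (hm : m ≤ k) :
    (piP (fun i => -(ι (r i) * t)) k).coeff (k - m) = ι (rho σ r k m) * t ^ m := by
  induction k generalizing m with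
  | zero =>
    obtain rfl := Nat.le_zero.1 hm
    simp [piP, rho]
  | succ k ih =>
    cases m with
    | zero => rw [Nat.sub_zero, piP_coeff_self, rho_zero_NC1, map_one, pow_zero, mul_one]
    | succ m =>
      have h1 : (X * piP (fun i => -(ι (r i) * t)) k).coeff (k - m) =
          ι (rho σ r k (m + 1)) * t ^ (m + 1) := by
        rcases (Nat.le_of_succ_le_succ hm).eq_or_lt with rfl | h2
        · rw [Nat.sub_self, coeff_X_mul_zero, rho_gt_NC1 σ r m _ m.lt_succ_self, map_zero,
            zero_mul]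
        · rw [show k - m = k - (m + 1) + 1 by omega, coeff_X_mul, ih _ h2]
      rw [Nat.add_sub_add_right, piP, add_mul, coeff_add, coeff_C_mul, h1,
        ih m (Nat.le_of_succ_le_succ hm), rho, map_sub, map_mul, sub_mul, neg_mul,
        ← sub_eq_add_neg, mul_assoc (ι (r k)) t, ← mul_assoc t, h, pow_succ' t m]
      simp only [mul_assoc]

theorem exists_nc (K : Type u) [Field K] (b : ℕ) (hb : 0 < b) :
    ∃ (D : Type u) (_ : DivisionRing D) (_ : Algebra K D) (c : ℕ → D) (γ : D),
      piP c b = X ^ b - C γ ∧ ∀ k, 0 < k → k < b → ∑ i ∈ range k, c i ≠ 0 := by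
  obtain ⟨L, _, _, σ, hσ⟩ := exists_field K b hb
  obtain ⟨r, h1, h2⟩ := exists_rho σ hb hσ
  obtain ⟨D, _, _, ι, t, ht, h⟩ := exists_skew σ hb (hσ ▸ pow_orderOf_eq_one σ)
  refine ⟨D, inferInstance, inferInstance, fun i => -(ι (r i) * t),
    -(ι (rho σ.toRingEquiv r b b) * t ^ b), ?_, fun k k0 k1 => ?_⟩
  · ext i
    rw [coeff_sub, coeff_X_pow, coeff_C]
    rcases lt_or_ge b i with hi | hi
    · rw [piP_coeff_gt _ hi, if_neg hi.ne', if_neg (by omega), sub_zero]
    · have h3 := piP_rho σ.toRingEquiv ι t h r b (b - i) (Nat.sub_le b i)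
      rw [Nat.sub_sub_self hi] at h3
      rw [h3]
      rcases hi.eq_or_lt with rfl | h4
      · rw [Nat.sub_self, rho_zero_NC1, map_one, pow_zero, mul_one, if_pos rfl, if_neg hb.ne',
          sub_zero]
      · rcases i.eq_zero_or_pos with rfl | h5
        · rw [Nat.sub_zero, if_neg hb.ne, if_pos rfl, zero_sub, neg_neg]
        · rw [h1 _ (by omega) (by omega), map_zero, zero_mul, if_neg h4.ne, if_neg h5.ne',
            sub_zero]
  · rw [sum_neg_distrib, ← sum_mul, ← map_sum, neg_ne_zero]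
    exact mul_ne_zero ((map_ne_zero ι).2 (h2 k k0 k1)) ht

end Vale.Agent.P200.B
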