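import Vale.Agent.P200.B.Stab1
import Vale.Agent.P200.B.NC

/-! Reduction to stable sets. -/

open Module Finset Polynomial

namespace Vale.Agent.P200.B

universe u

theorem exists_stable (K : Type u) [Field K] {n : ℕ} (z : Fin n) (a : Fin n → ℕ) (hz : 0 < a z)
    (ha : ∀ j, a j ≤ a z) (e : ℕ) (A : Set (Mn n)) (hA : dg (Pb a) e ⊆ A) :
    ∃ A' : Set (Mn n), dg (Pb a) e ⊆ A' ∧ cnt A' e = cnt A e ∧
      (∀ p, lamM K A p e ≤ lamM K A' p e) ∧ cnt (shp a A') (e + 1) ≤ cnt (shp a A) (e + 1) ∧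
      Stable z (a z) e A' := by
  obtain ⟨D, _, _, c, γ, hπ, hc⟩ := exists_nc K (a z) hz
  induction h : zs z A e using Nat.strong_induction_on generalizing A with
  | _ N ih =>
    by_cases hs : Stable z (a z) e A
    · exact ⟨A, hA, rfl, fun _ => le_rfl, le_rfl, hs⟩
    · simp only [Stable, not_forall] at hs
      obtain ⟨α, hα, hd, h0, hb, j, hj⟩ := hs
      have hjz : j ≠ z := by
        rintro rfl
        rw [tsub_add_cancel_of_le (Finsupp.single_le_iff.2 h0)] at hj
        exact hj hα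
      obtain ⟨A₁, b1, b2, b3, b4, b5, b6⟩ := stab_step K hjz a (ha j) c hπ e A hA
      have hlt : zs z A₁ e < N := by
        by_contra hge
        exact hj (b6 (by omega) α hα hd h0 (hc _ h0 hb))
      obtain ⟨A₂, c1, c2, c3, c4, c5⟩ := ih _ hlt A₁ b1 rfl
      exact ⟨A₂, c1, c2.trans b2, fun p => (b3 p).trans (c3 p), c4.trans b4, c5⟩

end Vale.Agent.P200.B
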