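import Vale.Agent.P200.B.KCmp
import Vale.Agent.P200.B.Stab2

/-! The theorems of Clements-Lindström and Mermin-Murai in one degree. -/

open Module Finset

namespace Vale.Agent.P200.B

universe u

theorem shp_sub_MM {n : ℕ} {a : Fin n → ℕ} {e : ℕ} {A B : Set (Mn n)}
    (h1 : dg (Pb a) (e + 1) ⊆ B)
    (h2 : ∀ α ∈ A, α.degree = e → ∀ j, α + Finsupp.single j 1 ∈ B) :
    dg (shp a A) (e + 1) ⊆ B := by
  rintro γ ⟨h | ⟨α, hα, i, rfl⟩, hd⟩
  · exact h1 ⟨h, hd⟩
  · rw [map_add, Finsupp.degree_single] at hd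
    exact h2 α hα (by omega) i

theorem mm (K : Type u) [Field K] (n : ℕ) (a : Fin n → ℕ) (hpos : ∀ i, 0 < a i)
    (hmono : Monotone a) (e : ℕ) (A L : Set (Mn n)) (hA : dg (Pb a) e ⊆ A) (hL : LexC a e L)
    (hc : cnt A e = cnt L e) :
    (∀ p, lamM K A p e ≤ lamM K L p e) ∧ cnt (shp a L) (e + 1) ≤ cnt (shp a A) (e + 1) := by
  induction n generalizing e with
  | zero =>
    have h0 : ∀ α : Mn 0, α.degree = 0 := fun α => by rw [Subsingleton.elim α 0, map_zero]
    refine ⟨fun p => (lamM_congr K ?_ p).le, cnt_mono fun α hα => absurd hα.2 (by simp [h0])⟩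
    by_cases h : (0 : Mn 0) ∈ L
    · exact dg_eq_of_cnt (fun α _ => Subsingleton.elim 0 α ▸ h) hc.ge
    · exact (dg_eq_of_cnt (fun α hα => absurd (Subsingleton.elim α 0 ▸ hα.1) h) hc.le).symm
  | succ n ih =>
    have hb := hpos (Fin.last n)
    obtain ⟨B, c1, c2, c3, c4, c5⟩ := exists_stable K (Fin.last n) a hb
      (fun j => hmono (Fin.le_last j)) e A hA
    have hC : ∀ w, ∃ C : Set (Mn n), w ≤ e → LexC (fun i => a i.castSucc) (e - w) C ∧
        cnt C (e - w) = cnt (lay B w) (e - w) := fun w => by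
      by_cases hw : w ≤ e
      · obtain ⟨C, hC⟩ := exists_lexC (lay_Pb c1 (Nat.sub_add_cancel hw))
        exact ⟨C, fun _ => hC⟩
      · exact ⟨∅, fun h => absurd h hw⟩
    choose C hC using hC
    have hI := fun w (hw : w ≤ e) => ih (fun i => a i.castSucc) (fun i => hpos _)
      (fun i j hij => hmono (Fin.castSucc_le_castSucc_iff.2 hij)) (e - w) (lay B w) (C w)
      (lay_Pb c1 (Nat.sub_add_cancel hw)) (hC w hw).1 (hC w hw).2.symm
    obtain ⟨m, hm⟩ : ∃ m, m = min (a (Fin.last n) - 1) e := ⟨_, rfl⟩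
    have hm1 : m < a (Fin.last n) := by omega
    have hm2 : m ≤ e := by omega
    have hc' := c2.trans hc
    obtain ⟨d1, d2⟩ := lay_cmp hL hm1 hm2 C (fun w hw => (hC w (hw.trans hm2)).1)
      (fun w hw β hβ hd j => by
        have e1 : e - w = e - (w + 1) + 1 := by omega
        have a1 := hC w (by omega)
        rw [e1] at a1
        have a2 : cnt (shp (fun i => a i.castSucc) (lay B (w + 1))) (e - (w + 1) + 1) ≤
            cnt (lay B w) (e - (w + 1) + 1) :=
          cnt_mono (shp_sub_MM (lay_Pb c1 (by omega)) fun α hα hd' i =>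
            c5.lay (by omega) hα (by omega) i)
        refine (hC (w + 1) (by omega)).1.shp.nest a1.1
          (((hI (w + 1) (by omega)).2.trans a2).trans a1.2.ge) ⟨Or.inr ⟨β, hβ, j, rfl⟩, ?_⟩
        rw [map_add, Finsupp.degree_single]
        omega)
      (by
        have a1 := hc'
        rw [cnt_lay, cnt_lay, ← sum_range_add_sum_Ico _ (Nat.succ_le_succ hm2),
          ← sum_range_add_sum_Ico _ (Nat.succ_le_succ hm2),
          sum_congr rfl (g := fun w => cnt (lay L w) (e - w)) (s₁ := Ico (m + 1) (e + 1))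
            fun w hw => by
              have := mem_Ico.1 hw
              exact cnt_congr ((cnt_lay_top c1 (by omega) (by omega)).trans
                (cnt_lay_top hL.1 (by omega) (by omega)).symm)] at a1
        rw [← Nat.add_right_cancel a1]
        exact sum_congr rfl fun w hw => (hC w (by have := mem_range.1 hw; omega)).2)
    have n0 : dg (lay L 0) e ⊆ C 0 := (hL.lay hb (add_zero e)).nest (hC 0 e.zero_le).1 d1
    have nm : dg (C m) (e - m) ⊆ lay L m :=
      (hC m hm2).1.nest (hL.lay hm1 (Nat.sub_add_cancel hm2)) d2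
    refine ⟨fun p => (c3 p).trans (lam_cmp K hb c1 hL.1 c5 hL.stable hc' p ?_
      fun m' q h1 h2 => ?_), (shp_cmp hb c1 hL.1 c5 hL.stable hc' ?_ fun m' h1 h2 => ?_).trans c4⟩
    · have := sp_finite K (C 0) e
      have a1 := lam_le_add (sh K) (sp_mono K n0) p
      have a2 : lamM K (lay B 0) p e ≤ lamM K (C 0) p e := (hI 0 e.zero_le).1 p
      have a3 : cnt (C 0) e = cnt (lay B 0) e := (hC 0 e.zero_le).2
      rw [finrank_sp, finrank_sp, a3] at a1
      exact (Nat.add_le_add_right a2 _).trans a1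
    · obtain rfl : m' = m := by omega
      have := sp_finite K (lay L m') (e - m')
      exact ((hI m' hm2).1 q).trans (lam_mono (sh K) (sp_mono K nm) q)
    · refine (cnt_mono (shp_sub_MM (fun γ hγ => Or.inl hγ.1) fun α hα hd j =>
        Or.inr ⟨α, n0 ⟨hα, hd⟩, j, rfl⟩)).trans (hI 0 e.zero_le).2
    · obtain rfl : m' = m := by omega
      exact (hC m' hm2).2.ge.trans d2

end Vale.Agent.P200.B
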