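import Vale.Agent.P200.B.MM
import Vale.Agent.P200.B.KFrame
import Vale.Agent.P200.B.KBr2

/-! The lex-plus-powers ideal from a frame. -/

open Module Finset MvPolynomial

namespace Vale.Agent.P200.B

universe u

section Aux

variable {n c : ℕ}

/-- extension of the exponents by a large constant -/
def mainExt (a : Fin c → ℕ) (N : ℕ) : Fin n → ℕ := fun j => if h : j.val < c then a ⟨j, h⟩ else N

theorem mainExt_pos {a : Fin c → ℕ} (hpos : ∀ i, 0 < a i) {N : ℕ} (hN : 0 < N) (j : Fin n) :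
    0 < mainExt a N j := by
  unfold mainExt
  split_ifs
  · exact hpos _
  · exact hN

theorem mainExt_mono {a : Fin c → ℕ} (hmono : Monotone a) {N : ℕ} (hN : ∀ i, a i ≤ N) :
    Monotone (mainExt (n := n) a N) := by
  intro i j hij
  have hij' : i.val ≤ j.val := hij
  unfold mainExt
  split_ifs with h1 h2 h2
  · exact hmono (show (⟨i, h1⟩ : Fin c) ≤ ⟨j, h2⟩ from hij')
  · exact hN _
  · omega
  · exact le_rfl

theorem main_mem_Pb (hc : c ≤ n) (a : Fin c → ℕ) {N : ℕ} {α : Mn n} (hα : α.degree < N) :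
    α ∈ Pb (mainExt a N) ↔ inP hc a α := by
  constructor
  · rintro ⟨j, hj⟩
    unfold mainExt at hj
    split_ifs at hj with h
    · exact ⟨⟨j, h⟩, hj⟩
    · have := Finsupp.le_degree j α
      omega
  · rintro ⟨i, hi⟩
    refine ⟨Fin.castLE hc i, ?_⟩
    unfold mainExt
    rw [dif_pos (show (Fin.castLE hc i).val < c from i.2)]
    exact hi

theorem main_inP_upper (hc : c ≤ n) (a : Fin c → ℕ) :
    ∀ α ∈ {α : Mn n | inP hc a α}, ∀ β, α ≤ β → β ∈ {α : Mn n | inP hc a α} := by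
  rintro α ⟨i, hi⟩ β h
  exact ⟨i, hi.trans (h _)⟩

variable {K : Type u} [Field K]

theorem main_P_eq (hc : c ≤ n) (a : Fin c → ℕ) :
    Ideal.span (Set.range fun i => (X (Fin.castLE hc i) : MvPolynomial (Fin n) K) ^ a i) =
      Ideal.span ((fun α => monomial α (1 : K)) '' {α : Mn n | inP hc a α}) := by
  apply le_antisymm
  · rw [Ideal.span_le]
    rintro _ ⟨i, rfl⟩
    refine Ideal.subset_span ⟨Finsupp.single (Fin.castLE hc i) (a i), ⟨i, by simp⟩, ?_⟩
    simp only [X_pow_eq_monomial]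
  · rw [Ideal.span_le]
    rintro _ ⟨α, ⟨i, hi⟩, rfl⟩
    have h : (monomial α (1 : K) : MvPolynomial (Fin n) K) =
        monomial (α - Finsupp.single (Fin.castLE hc i) (a i)) 1 * X (Fin.castLE hc i) ^ a i := by
      rw [X_pow_eq_monomial, monomial_mul, one_mul, tsub_add_cancel_of_le]
      exact Finsupp.single_le_iff.2 hi
    show (monomial α (1 : K) : MvPolynomial (Fin n) K) ∈ _
    rw [h]
    exact Ideal.mul_mem_left _ _ (Ideal.subset_span ⟨i, rfl⟩)

theorem main_dimP (hc : c ≤ n) (a : Fin c → ℕ) {N e : ℕ} (he : e < N) :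
    dimIn (Ideal.span (Set.range fun i => (X (Fin.castLE hc i) : MvPolynomial (Fin n) K) ^ a i)) e
      = cnt (Pb (mainExt (n := n) a N)) e := by
  rw [main_P_eq, Groebner.dimIn_span _ (main_inP_upper hc a), cnt]
  congr 1
  ext α
  constructor
  · rintro ⟨h1, h2⟩
    exact ⟨(main_mem_Pb hc a (by omega)).2 h1, h2⟩
  · rintro ⟨h1, h2⟩
    exact ⟨(main_mem_Pb hc a (by omega)).1 h1, h2⟩

/-- the number of monomials outside the pure powers -/
noncomputable def mainQ (hc : c ≤ n) (a : Fin c → ℕ) (I : Ideal (MvPolynomial (Fin n) K))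
    (e : ℕ) : ℕ :=
  dimIn I e - dimIn (Ideal.span (Set.range fun i =>
    (X (Fin.castLE hc i) : MvPolynomial (Fin n) K) ^ a i)) e

theorem main_mem_lpp (hc : c ≤ n) (a : Fin c → ℕ) (I : Ideal (MvPolynomial (Fin n) K))
    {N e : ℕ} (he : e < N) {α : Mn n} (hα : α.degree = e) :
    α ∈ lppSet hc a I ↔ α ∈ lexOf (mainExt a N) (mainQ hc a I e) := by
  have hs : {β : Mn n | β.degree = α.degree ∧ ¬ inP hc a β ∧ toLex α ≤ toLex β} =
      {β : Mn n | β.degree = α.degree ∧ β ∉ Pb (mainExt a N) ∧ toLex α ≤ toLex β} := by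
    ext β
    constructor
    · rintro ⟨h1, h2, h3⟩
      exact ⟨h1, fun h => h2 ((main_mem_Pb hc a (by omega)).1 h), h3⟩
    · rintro ⟨h1, h2, h3⟩
      exact ⟨h1, fun h => h2 ((main_mem_Pb hc a (by omega)).2 h), h3⟩
  simp only [lppSet, lexOf, Set.mem_ofPred_eq]
  rw [hs, main_mem_Pb hc a (show α.degree < N by omega), hα, mainQ]

theorem main_dg_lpp (hc : c ≤ n) (a : Fin c → ℕ) (I : Ideal (MvPolynomial (Fin n) K))
    {N e : ℕ} (he : e < N) :
    dg (lppSet hc a I) e = dg (lexOf (mainExt a N) (mainQ hc a I e)) e := by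
  ext α
  constructor
  · rintro ⟨h1, h2⟩
    exact ⟨(main_mem_lpp hc a I he h2).1 h1, h2⟩
  · rintro ⟨h1, h2⟩
    exact ⟨(main_mem_lpp hc a I he h2).2 h1, h2⟩

theorem main_Pb_sub (hc : c ≤ n) (a : Fin c → ℕ) {A : Set (Mn n)}
    (h1 : ∀ α ∈ A, ∀ i, α + Finsupp.single i 1 ∈ A)
    (h2 : ∀ i, Finsupp.single (Fin.castLE hc i) (a i) ∈ A) {N e : ℕ} (he : e < N) :
    dg (Pb (mainExt a N)) e ⊆ A := by
  rintro α ⟨hα, hd⟩
  obtain ⟨i, hi⟩ := (main_mem_Pb hc a (show α.degree < N by omega)).1 hα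
  exact Groebner.upper_of_succ A h1 _ (h2 i) α (Finsupp.single_le_iff.2 hi)

theorem main_cnt_lex (hc : c ≤ n) (a : Fin c → ℕ) (I : Ideal (MvPolynomial (Fin n) K))
    {A : Set (Mn n)} (h1 : ∀ α ∈ A, ∀ i, α + Finsupp.single i 1 ∈ A)
    (h2 : ∀ i, Finsupp.single (Fin.castLE hc i) (a i) ∈ A) (h3 : ∀ e, cnt A e = dimIn I e)
    {N e : ℕ} (he : e < N) :
    cnt (lexOf (mainExt (n := n) a N) (mainQ hc a I e)) e = cnt A e := by
  have hle : cnt (Pb (mainExt (n := n) a N)) e ≤ cnt A e := cnt_mono (main_Pb_sub hc a h1 h2 he)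
  have hle2 : cnt A e ≤ cnt (Set.univ : Set (Mn n)) e := cnt_mono (Set.subset_univ _)
  have hq : mainQ hc a I e = cnt A e - cnt (Pb (mainExt (n := n) a N)) e := by
    rw [mainQ, main_dimP hc a he, h3]
  rw [cnt_lexOf _ _ _ (by omega)]
  omega

theorem main_span_eq (B : Set (Mn n)) (hB : ∀ α ∈ B, ∀ β, α ≤ β → β ∈ B) :
    (Ideal.span ((fun α => monomial α (1 : K)) '' B)).restrictScalars K =
      Submodule.span K ((fun α => (monomial α (1 : K) : MvPolynomial (Fin n) K)) '' B) := by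
  apply le_antisymm
  · intro x hx
    rw [Submodule.restrictScalars_mem, mem_ideal_span_monomial_image] at hx
    rw [x.as_sum]
    refine Submodule.sum_mem _ fun β hβ => ?_
    obtain ⟨α, hα, hle⟩ := hx β hβ
    have h : (monomial β (coeff β x) : MvPolynomial (Fin n) K) = coeff β x • monomial β 1 := by
      rw [smul_monomial, smul_eq_mul, mul_one]
    rw [h]
    exact Submodule.smul_mem _ _ (Submodule.subset_span ⟨β, hB α hα β hle, rfl⟩)
  · rw [Submodule.span_le]
    intro x hx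
    exact Ideal.subset_span hx

theorem main_span_hom (B : Set (Mn n)) :
    ∀ g ∈ Ideal.span ((fun α => monomial α (1 : K)) '' B), ∀ d,
      homogeneousComponent d g ∈ Ideal.span ((fun α => monomial α (1 : K)) '' B) := by
  intro g hg d
  rw [mem_ideal_span_monomial_image] at hg ⊢
  intro β hβ
  refine hg β ?_
  rw [MvPolynomial.mem_support_iff] at hβ ⊢
  intro h0
  apply hβ
  rw [coeff_homogeneousComponent, h0, ite_self]

end Aux

theorem lpp_of_frame {K : Type u} [Field K] {n c : ℕ} (hc : c ≤ n) (a : Fin c → ℕ)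
    (hpos : ∀ i, 0 < a i) (hmono : Monotone a) (I : Ideal (MvPolynomial (Fin n) K))
    (hI : ∀ g ∈ I, ∀ d, homogeneousComponent d g ∈ I) (h : Frame K hc a I) :
    ∃ J : Ideal (MvPolynomial (Fin n) K),
      J.restrictScalars K = Submodule.span K ((fun α => monomial α (1 : K)) '' lppSet hc a I) ∧
      (∀ d, dimIn J d = dimIn I d) ∧ ∀ p d, betti I p d ≤ betti J p d := by
  obtain ⟨A, h1, h2, h3, h4⟩ := of_frame h
  have hN : ∀ (e : ℕ) (i : Fin c), a i ≤ e + 2 + ∑ j, a j := fun e i => by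
    have := Finset.single_le_sum (f := a) (fun j _ => Nat.zero_le _) (Finset.mem_univ i)
    omega
  have hmm : ∀ e : ℕ,
      (∀ p, lamM K A p e ≤ lamM K (lexOf (mainExt a (e + 2 + ∑ j, a j)) (mainQ hc a I e)) p e) ∧
      cnt (shp (mainExt a (e + 2 + ∑ j, a j))
        (lexOf (mainExt (n := n) a (e + 2 + ∑ j, a j)) (mainQ hc a I e))) (e + 1) ≤
        cnt (shp (mainExt a (e + 2 + ∑ j, a j)) A) (e + 1) := fun e =>
    mm K n _ (mainExt_pos hpos (by omega)) (mainExt_mono hmono (hN e)) e A _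
      (main_Pb_sub hc a h1 h2 (by omega)) (lexC_lexOf _ _ _)
      (main_cnt_lex hc a I h1 h2 h3 (by omega)).symm
  have hcl : ∀ α ∈ lppSet hc a I, ∀ i, α + Finsupp.single i 1 ∈ lppSet hc a I := by
    intro α hα i
    obtain ⟨e, he⟩ : ∃ e, α.degree = e := ⟨_, rfl⟩
    have hd : (α + Finsupp.single i 1).degree = e + 1 := by
      rw [map_add, he, Finsupp.degree_single]
    have hlt : e < e + 2 + ∑ j, a j := by omega
    have hlt' : e + 1 < e + 2 + ∑ j, a j := by omega
    rw [main_mem_lpp hc a I hlt' hd]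
    rw [main_mem_lpp hc a I hlt he] at hα
    have hsA : cnt (shp (mainExt a (e + 2 + ∑ j, a j)) A) (e + 1) ≤ cnt A (e + 1) := by
      apply cnt_mono
      rintro γ ⟨hγ | ⟨β, hβ, j, rfl⟩, hγd⟩
      · exact main_Pb_sub hc a h1 h2 hlt' ⟨hγ, hγd⟩
      · exact h1 β hβ j
    refine LexC.nest (LexC.shp (lexC_lexOf _ (mainQ hc a I e) e)) (lexC_lexOf _ _ (e + 1)) ?_
      ⟨Or.inr ⟨α, hα, i, rfl⟩, hd⟩
    rw [main_cnt_lex hc a I h1 h2 h3 hlt']
    exact (hmm e).2.trans hsA
  have hup := Groebner.upper_of_succ _ hcl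
  have hdim : ∀ d, dimIn (Ideal.span ((fun α => monomial α (1 : K)) '' lppSet hc a I)) d =
      dimIn I d := fun d => by
    rw [Groebner.dimIn_span _ hup, ← h3,
      ← main_cnt_lex hc a I h1 h2 h3 (show d < d + 1 by omega),
      ← cnt_congr (main_dg_lpp hc a I (show d < d + 1 by omega))]
    rfl
  refine ⟨Ideal.span ((fun α => monomial α (1 : K)) '' lppSet hc a I), main_span_eq _ hup, hdim,
    fun p d => betti_le I _ hI (main_span_hom _) hdim (fun p e => ?_) p d⟩
  rw [lamI_span _ hcl,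
    lamM_congr K (main_dg_lpp hc a I (show e < e + 2 + ∑ j, a j by omega))]
  exact (h4 p e).trans ((hmm e).1 p)

end Vale.Agent.P200.B
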