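import Vale.Agent.P200.B.Defs

/-! A factorization of a difference operator with nonzero partial sums. -/

open Finset

namespace Vale.Agent.P200.B

universe u

/-- the coefficients of `(1 - r_{k-1} t) ⋯ (1 - r₀ t)` in the skew polynomial ring -/
def rho {L : Type*} [Field L] (σ : L ≃+* L) (r : ℕ → L) : ℕ → ℕ → L
  | 0, 0 => 1
  | 0, _ + 1 => 0
  | _ + 1, 0 => 1
  | k + 1, m + 1 => rho σ r k (m + 1) - r k * σ (rho σ r k m)

theorem exists_field (K : Type u) [Field K] (b : ℕ) (hb : 0 < b) :
    ∃ (L : Type u) (_ : Field L) (_ : Algebra K L) (σ : L ≃ₐ[K] L), orderOf σ = b := by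
  let τ : MvPolynomial (ZMod b) K ≃ₐ[K] MvPolynomial (ZMod b) K :=
    MvPolynomial.renameEquiv K (Equiv.addRight 1)
  have hτ : ∀ (k : ℕ) (i : ZMod b), (τ ^ k) (MvPolynomial.X i) = MvPolynomial.X (i + k) := by
    intro k i
    induction k with
    | zero => simp
    | succ k ih =>
      rw [pow_succ', AlgEquiv.mul_apply, ih]
      simp [τ, add_assoc]
  have ho : orderOf τ = b := by
    refine (orderOf_eq_iff hb).2 ⟨?_, fun m h1 h2 h3 => ?_⟩
    · refine AlgEquiv.coe_algHom_injective (MvPolynomial.algHom_ext fun i => ?_)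
      have := hτ b i
      rw [ZMod.natCast_self, add_zero] at this
      exact this
    · have h4 := hτ m 0
      rw [h3, AlgEquiv.one_apply, zero_add] at h4
      have h5 := (ZMod.natCast_eq_zero_iff m b).1 (MvPolynomial.X_injective h4).symm
      exact absurd (Nat.le_of_dvd h2 h5) (not_le.2 h1)
  refine ⟨FractionRing (MvPolynomial (ZMod b) K), inferInstance, inferInstance,
    IsFractionRing.fieldEquivOfAlgEquivHom K _ τ, ?_⟩
  rw [orderOf_injective _ (IsFractionRing.fieldEquivOfAlgEquivHom_injective _ _ _ _), ho]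

section aux

variable {K L : Type*} [Field K] [Field L] [Algebra K L] (σ : L ≃ₐ[K] L)

/-- the difference operator -/
def opNC (r : ℕ → L) : ℕ → L → L
  | 0, y => y
  | k + 1, y => opNC r k y - r k * σ (opNC r k y)

theorem rho_zero_NC1 (s : L ≃+* L) (r : ℕ → L) (k : ℕ) : rho s r k 0 = 1 := by
  cases k <;> rfl

theorem rho_gt_NC1 (s : L ≃+* L) (r : ℕ → L) : ∀ k m, k < m → rho s r k m = 0
  | 0, _ + 1, _ => rfl
  | k + 1, m + 1, h => by
    rw [rho, rho_gt_NC1 s r k (m + 1) (by omega), rho_gt_NC1 s r k m (by omega), map_zero,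
      mul_zero, sub_zero]

theorem opNC_eq (r : ℕ → L) (y : L) (k : ℕ) :
    ∀ n, k < n → opNC σ r k y = ∑ m ∈ range n, rho σ.toRingEquiv r k m * (σ ^ m) y := by
  induction k with
  | zero =>
    rintro (_ | n) h
    · omega
    · rw [sum_range_succ']
      simp [rho, opNC]
  | succ k ih =>
    rintro (_ | n) h
    · omega
    · have h1 := ih (n + 1) (by omega)
      have h2 := ih n (by omega)
      rw [sum_range_succ', rho_zero_NC1] at h1 ⊢
      have h3 : r k * σ (opNC σ r k y) =
          ∑ m ∈ range n, r k * σ (rho σ.toRingEquiv r k m) * (σ ^ (m + 1)) y := by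
        rw [h2, map_sum, mul_sum]
        refine sum_congr rfl fun m _ => ?_
        rw [map_mul, pow_succ', AlgEquiv.mul_apply, mul_assoc]
      rw [opNC, h3, h1, add_sub_right_comm, ← sum_sub_distrib]
      refine congrArg (· + _) (sum_congr rfl fun m _ => ?_)
      rw [rho, sub_mul]
      rfl

theorem opNC_congr {r r' : ℕ → L} (y : L) (k : ℕ) (h : ∀ i < k, r i = r' i) :
    opNC σ r k y = opNC σ r' k y := by
  induction k with
  | zero => rfl
  | succ k ih => rw [opNC, opNC, ih fun i hi => h i (by omega), h k (by omega)]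

theorem indep_NC1 {c : ℕ → L} (h : ∀ y, ∑ m ∈ range (orderOf σ), c m * (σ ^ m) y = 0) {m : ℕ}
    (hm : m < orderOf σ) : c m = 0 := by
  have h1 := (linearIndependent_monoidHom L L).comp
    (fun i : Fin (orderOf σ) => (((σ ^ (i : ℕ) : L ≃ₐ[K] L) : L →* L))) fun i j hij =>
      Fin.ext (pow_injOn_Iio_orderOf i.2 j.2 (AlgEquiv.ext fun y => DFunLike.congr_fun hij y))
  refine Fintype.linearIndependent_iff.1 h1 (fun i => c i) (funext fun y => ?_) ⟨m, hm⟩
  rw [Finset.sum_apply]
  exact (Fin.sum_univ_eq_sum_range (fun m => c m * (σ ^ m) y) _).trans (h y)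

theorem opNC_ne (r : ℕ → L) {k : ℕ} (hk : k < orderOf σ) : ∃ y, opNC σ r k y ≠ 0 := by
  by_contra! h
  have h1 := indep_NC1 σ (c := rho σ.toRingEquiv r k)
    (fun y => (opNC_eq σ r y k _ hk).symm.trans (h y)) (by omega : 0 < orderOf σ)
  rw [rho_zero_NC1] at h1
  exact one_ne_zero h1

/-- the kernel of the operator, over a field of constants -/
def kerNC (F : Subfield L) (hF : ∀ c : F, σ c = c) (r : ℕ → L) (k : ℕ) : Submodule F L where
  carrier := {y | opNC σ r k y = 0}
  add_mem' := fun {x y} hx hy => by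
    have h : ∀ j, opNC σ r j (x + y) = opNC σ r j x + opNC σ r j y := fun j => by
      induction j with
      | zero => rfl
      | succ j ih =>
        rw [opNC, opNC, opNC, ih, map_add]
        ring
    exact (h k).trans (by rw [hx, hy, add_zero])
  zero_mem' := by
    show opNC σ r k 0 = 0
    induction k with
    | zero => rfl
    | succ j ih => rw [opNC, ih, map_zero, mul_zero, sub_zero]
  smul_mem' := fun c y hy => by
    have h : ∀ j, opNC σ r j (c * y) = c * opNC σ r j y := fun j => by
      induction j with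
      | zero => rfl
      | succ j ih =>
        rw [opNC, opNC, ih, map_mul, hF]
        ring
    exact (h k).trans (by rw [hy, mul_zero])

theorem step_NC1 (F : Subfield L) (hF : ∀ c : F, σ c = c) [FiniteDimensional F L] :
    ∀ k ≤ orderOf σ, ∃ r : ℕ → L, k ≤ Module.finrank F (kerNC σ F hF r k) ∧
      ∀ j, 0 < j → j ≤ k → j < orderOf σ → ∑ i ∈ range j, r i ≠ 0 := by
  intro k
  induction k with
  | zero => exact fun _ => ⟨0, Nat.zero_le _, fun j h1 h2 => by omega⟩
  | succ k ih =>
    intro hk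
    obtain ⟨r, h1, h2⟩ := ih (by omega)
    have hu : ∀ (a : L) (y : L), opNC σ (Function.update r k a) (k + 1) y =
        opNC σ r k y - a * σ (opNC σ r k y) := fun a y => by
      rw [opNC, Function.update_self,
        opNC_congr σ y k fun i hi => Function.update_of_ne (ne_of_lt hi) a r]
    obtain ⟨y, hy, hy'⟩ : ∃ y, opNC σ r k y ≠ 0 ∧ (k + 1 < orderOf σ →
        opNC σ r k y + (∑ i ∈ range k, r i) * σ (opNC σ r k y) ≠ 0) := by
      rcases hk.eq_or_lt with h | h
      · obtain ⟨y, hy⟩ := opNC_ne σ r (k := k) (by omega)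
        exact ⟨y, hy, fun h' => by omega⟩
      · obtain ⟨y, hy⟩ := opNC_ne σ (Function.update r k (-∑ i ∈ range k, r i)) h
        rw [hu, neg_mul, sub_neg_eq_add] at hy
        refine ⟨y, fun h0 => hy ?_, fun _ => hy⟩
        rw [h0, map_zero, mul_zero, add_zero]
    have hw : σ (opNC σ r k y) ≠ 0 := (map_ne_zero σ).2 hy
    refine ⟨Function.update r k (opNC σ r k y / σ (opNC σ r k y)), ?_, fun j j0 j1 j2 => ?_⟩
    · refine Nat.succ_le_of_lt (h1.trans_lt (Submodule.finrank_lt_finrank_of_lt
        (lt_of_le_of_ne (fun x hx => ?_) fun h => hy ?_)))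
      · have h3 : opNC σ r k x = 0 := hx
        exact (hu _ x).trans (by rw [h3, map_zero, mul_zero, sub_zero])
      · have h3 : y ∈ kerNC σ F hF (Function.update r k (opNC σ r k y / σ (opNC σ r k y)))
            (k + 1) := (hu _ y).trans (by rw [div_mul_cancel₀ _ hw, sub_self])
        rw [← h] at h3
        exact h3
    · have hs : ∀ j ≤ k, ∑ i ∈ range j, Function.update r k (opNC σ r k y / σ (opNC σ r k y)) i =
          ∑ i ∈ range j, r i := fun j hj => sum_congr rfl fun i hi =>
        Function.update_of_ne (by have := mem_range.1 hi; omega) _ r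
      rcases j1.eq_or_lt with rfl | h
      · rw [sum_range_succ, hs k le_rfl, Function.update_self, add_div' _ _ _ hw, add_comm]
        exact div_ne_zero (hy' j2) hw
      · rw [hs j (by omega)]
        exact h2 j j0 (by omega) j2

end aux

theorem exists_rho {K L : Type*} [Field K] [Field L] [Algebra K L] (σ : L ≃ₐ[K] L) {b : ℕ}
    (hb : 0 < b) (hσ : orderOf σ = b) :
    ∃ r : ℕ → L, (∀ m, 0 < m → m < b → rho σ.toRingEquiv r b m = 0) ∧
      ∀ k, 0 < k → k < b → ∑ i ∈ range k, r i ≠ 0 := by
  subst hσ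
  have hfin : Finite (Subgroup.zpowers σ) := finite_zpowers.2 (orderOf_pos_iff.1 hb)
  have := Fintype.ofFinite (Subgroup.zpowers σ)
  have hF : ∀ c : FixedPoints.subfield (Subgroup.zpowers σ) L, σ c = c := fun c =>
    c.2 ⟨σ, Subgroup.mem_zpowers σ⟩
  obtain ⟨r, h1, h2⟩ := step_NC1 σ _ hF _ le_rfl
  refine ⟨r, fun m m0 m1 => ?_, fun k k0 k1 => h2 k k0 k1.le k1⟩
  have h3 : kerNC σ _ hF r (orderOf σ) = ⊤ := by
    refine Submodule.eq_top_of_finrank_eq (le_antisymm (Submodule.finrank_le _) ?_)
    rwa [FixedPoints.finrank_eq_card, ← Nat.card_eq_fintype_card, Nat.card_zpowers]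
  have h4 := indep_NC1 σ (c := fun m => rho σ.toRingEquiv r (orderOf σ) m +
    if m = 0 then rho σ.toRingEquiv r (orderOf σ) (orderOf σ) else 0) (fun y => by
      have h5 : opNC σ r (orderOf σ) y = 0 := (h3.ge Submodule.mem_top :)
      rw [opNC_eq σ r y _ _ (Nat.lt_succ_self _), sum_range_succ, pow_orderOf_eq_one] at h5
      simp only [add_mul, sum_add_distrib, ite_mul, zero_mul, sum_ite_eq', mem_range, hb, if_true,
        pow_zero]
      exact h5) m1
  rwa [if_neg m0.ne', add_zero] at h4

end Vale.Agent.P200.B
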