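import Vale.Agent.P200.Defs

/-! Koszul homology, graded Betti numbers and the lex-plus-powers monomials. -/

open MvPolynomial

namespace Vale.Agent.P200.B

section Koszul

variable {D M : Type*} [Ring D] [AddCommGroup M] [Module D M] {n : ℕ}

/-- The Koszul differential of operators `m₀, …, m_{n-1}` on `M`. A chain `c` has the component
`c T` at the basis vector `e_T` of the exterior algebra, and
`∂ (x e_T) = ∑_{i ∈ T} (-1)^#{j ∈ T | j < i} (mᵢ x) e_{T ∖ i}`. -/
noncomputable def kd (m : Fin n → M →ₗ[D] M) :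
    (Finset (Fin n) → M) →ₗ[D] (Finset (Fin n) → M) :=
  LinearMap.pi fun T => ∑ i ∈ Tᶜ,
    ((-1 : ℤ) ^ (T.filter (· < i)).card) • (m i ∘ₗ LinearMap.proj (insert i T))

/-- The chains `Λ^p ⊗ W`: components in `W` at sets of size `p`, zero elsewhere. -/
def ch (W : Submodule D M) (p : ℕ) : Submodule D (Finset (Fin n) → M) :=
  Submodule.pi Set.univ fun T => if T.card = p then W else ⊥

end Koszul

variable {K : Type*} [Field K] {n c : ℕ}

/-- The Koszul differential of `x₁, …, xₙ` on `S/I`. -/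
noncomputable def kos (I : Ideal (MvPolynomial (Fin n) K)) :
    (Finset (Fin n) → MvPolynomial (Fin n) K ⧸ I) →ₗ[K]
      (Finset (Fin n) → MvPolynomial (Fin n) K ⧸ I) :=
  kd fun i => LinearMap.mulLeft K (Ideal.Quotient.mk I (X i))

/-- The cycles in `Λ^p ⊗ (S/I)_d`. -/
noncomputable def cyc (I : Ideal (MvPolynomial (Fin n) K)) (p d : ℕ) :
    Submodule K (Finset (Fin n) → MvPolynomial (Fin n) K ⧸ I) :=
  ch ((homogeneousSubmodule (Fin n) K d).map (Ideal.Quotient.mkₐ K I).toLinearMap) p ⊓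
    LinearMap.ker (kos I)

/-- `β_{p, p+d}(S/I)`: the dimension of the Koszul homology (cycles modulo boundaries) at
`Λ^p ⊗ (S/I)_d`, that is of `Tor_p^S(S/I, K)` in degree `p + d`. -/
noncomputable def betti (I : Ideal (MvPolynomial (Fin n) K)) (p d : ℕ) : ℕ :=
  Module.finrank K (↥(cyc I p d) ⧸ (LinearMap.range (kos I)).comap (cyc I p d).subtype)

/-- The monomial `x^α` lies in `P = (x₁^{a₁}, …, x_c^{a_c})`. -/
def inP (hc : c ≤ n) (a : Fin c → ℕ) (α : Fin n →₀ ℕ) : Prop :=
  ∃ i, a i ≤ α (Fin.castLE hc i)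

/-- The exponents of the monomials spanning `J`: those in `P`, and in each degree `d` the
`q_d = dim I_d - dim P_d` lexicographically greatest ones outside `P`. -/
def lppSet (hc : c ≤ n) (a : Fin c → ℕ) (I : Ideal (MvPolynomial (Fin n) K)) :
    Set (Fin n →₀ ℕ) :=
  {α | inP hc a α ∨
    {β : Fin n →₀ ℕ | β.degree = α.degree ∧ ¬ inP hc a β ∧ toLex α ≤ toLex β}.ncard ≤
      dimIn I α.degree - dimIn (Ideal.span (Set.range fun i =>
        (X (Fin.castLE hc i) : MvPolynomial (Fin n) K) ^ a i)) α.degree}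

end Vale.Agent.P200.B
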