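import Vale.Agent.P200.B.Zs
import Vale.Agent.P200.B.Dist2
import Vale.Agent.P200.B.KBase

/-! One distraction step. -/

open Module Finset Polynomial

namespace Vale.Agent.P200.B

universe u

theorem exists_key {n : ℕ} (z : Fin n) : ∃ κ : Mn n → Lex (ℕᵒᵈ × Lex (Mn n)), IsKey κ ∧
    ∀ α β : Mn n, β z < α z → κ α < κ β := by
  refine ⟨fun α => toLex (OrderDual.toDual (α z), toLex α), ⟨fun α β h => ?_, fun α β t => ?_⟩,
    fun α β h => ?_⟩
  · exact toLex.injective (congrArg Prod.snd (toLex.injective h))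
  · have h1 : toLex (α + t) < toLex (β + t) ↔ toLex α < toLex β := by
      rw [toLex_add, toLex_add, add_lt_add_iff_right]
    simp only [Prod.Lex.toLex_lt_toLex, h1, OrderDual.toDual_lt_toDual, OrderDual.toDual_inj,
      Finsupp.add_apply, add_lt_add_iff_right, add_left_inj]
  · exact Prod.Lex.toLex_lt_toLex.2 (Or.inl (OrderDual.toDual_lt_toDual.2 h))


theorem stab_step (K : Type u) [Field K] {D : Type u} [DivisionRing D] [Algebra K D] {n : ℕ}
    {z j : Fin n} (hj : j ≠ z) (a : Fin n → ℕ) (hja : a j ≤ a z) (c : ℕ → D) {γ : D}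
    (hπ : piP c (a z) = X ^ a z - C γ) (e : ℕ) (A : Set (Mn n)) (hA : dg (Pb a) e ⊆ A) :
    ∃ A' : Set (Mn n), dg (Pb a) e ⊆ A' ∧ cnt A' e = cnt A e ∧
      (∀ p, lamM K A p e ≤ lamM K A' p e) ∧ cnt (shp a A') (e + 1) ≤ cnt (shp a A) (e + 1) ∧
      zs z A' e ≤ zs z A e ∧ (zs z A e ≤ zs z A' e → ∀ α ∈ A, α.degree = e → 0 < α z →
        ∑ i ∈ range (α z), c i ≠ 0 → α - Finsupp.single z 1 + Finsupp.single j 1 ∈ A) := by
  obtain ⟨κ, hκ, hw⟩ := exists_key z
  have hu : ∀ (B : Set (Mn n)) (d : ℕ), (sp D B d).map (dist z j c) ≤ sp D Set.univ d := by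
    rintro B d _ ⟨x, hx, rfl⟩
    exact dist_mem_univ c d (sp_mono D (Set.subset_univ _) hx)
  have hfr : ∀ (B : Set (Mn n)) (d : ℕ), cnt (inS κ ((sp D B d).map (dist z j c))) d = cnt B d := by
    intro B d
    rw [cnt_inS hκ (hu B d), ← finrank_sp D B d]
    exact (Submodule.equivMapOfInjective _ (dist_inj c hj) _).finrank_eq.symm
  have hPb : ∀ (B : Set (Mn n)) (d : ℕ), dg (Pb a) d ⊆ B →
      dg (Pb a) d ⊆ inS κ ((sp D B d).map (dist z j c)) := by
    intro B d hB α hα
    refine ⟨Finsupp.single α 1, ?_, by simp, fun β hβ => Finsupp.single_eq_of_ne ?_⟩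
    · have h1 : Finsupp.single α (1 : D) ∈ sp D (Pb a) d :=
        mem_sp.2 fun β hβ => by
          obtain rfl : β = α := by
            by_contra h
            exact hβ (Finsupp.single_eq_of_ne h)
          exact hα
      rw [← dist_Pb c hj a hja hπ d] at h1
      exact Submodule.map_mono (sp_mono D hB) h1
    · rintro rfl
      exact lt_irrefl _ hβ
  have htri : ∀ α ∈ dg A e, ∀ β, dist z j c (Finsupp.single α 1) β ≠ 0 → β = α ∨ β z < α z := by
    intro α _ β h
    obtain ⟨k, hk, rfl, -⟩ := dist_supp c α β h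
    rcases Nat.eq_zero_or_pos k with rfl | hk0
    · left
      simp
    · right
      rw [Finsupp.add_apply, Finsupp.tsub_apply, Finsupp.single_eq_same,
        Finsupp.single_eq_of_ne hj.symm]
      omega
  have hc1 : ∀ k, cnt {α | α ∈ inS κ ((sp D A e).map (dist z j c)) ∧ k < α z} e =
      {β | β ∈ inS κ ((Finsupp.supported D D (dg A e)).map (dist z j c)) ∧ k < β z}.ncard := by
    intro k
    rw [cnt]
    congr 1
    ext β
    refine ⟨fun h => h.1, fun h => ⟨h, ?_⟩⟩
    have h1 : β ∈ dg (inS κ ((sp D A e).map (dist z j c))) e := by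
      rw [dg_inS κ (hu A e)]
      exact h.1
    exact h1.2
  have hc2 : ∀ k, cnt {α | α ∈ A ∧ k < α z} e = {α | α ∈ dg A e ∧ k < α z}.ncard := by
    intro k
    rw [cnt]
    congr 1
    ext β
    exact ⟨fun h => ⟨⟨h.1.1, h.2⟩, h.1.2⟩, fun h => ⟨⟨h.1.1, h.2⟩, h.1.2⟩⟩
  have hle : ∀ k ∈ range e, cnt {α | α ∈ inS κ ((sp D A e).map (dist z j c)) ∧ k < α z} e ≤
      cnt {α | α ∈ A ∧ k < α z} e := by
    intro k _
    rw [hc1, hc2]
    exact ncard_inS_le (w := fun α => α z) hκ.1 hw (dg_finite A e) htri k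
  refine ⟨inS κ ((sp D A e).map (dist z j c)), hPb A e hA, hfr A e, fun p => ?_, ?_,
    Finset.sum_le_sum hle, fun hz α hα hd h0 hs => ?_⟩
  · rw [← lamM_base K D, ← lamM_base K D]
    exact (lam_dist c hj A p e).trans (lam_le_inS hκ (hu A e) p)
  · rw [← hfr (shp a A) (e + 1)]
    refine cnt_mono ?_
    rintro δ ⟨hδ | ⟨α, hα, i, rfl⟩, hd⟩
    · exact hPb _ _ (fun β hβ => Or.inl hβ.1) ⟨hδ, hd⟩
    · exact inS_shift hκ (fun x hx => dist_shp c hj a A e i hx) hα
  · have heq := (Finset.sum_eq_sum_iff_of_le hle).1 (le_antisymm (Finset.sum_le_sum hle) hz)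
    refine (supp_of_eq (w := fun α => α z) hκ.1 hw (dg_finite A e) htri
      (fun β _ => by rw [dist_self c hj]; exact one_ne_zero) (fun k => ?_) α ⟨hα, hd⟩ _ ?_).1
    · rcases lt_or_ge k e with hk | hk
      · rw [← hc1, ← hc2]
        exact (heq k (mem_range.2 hk)).ge
      · have h1 : {α | α ∈ dg A e ∧ k < α z} = ∅ := by
          refine Set.eq_empty_of_forall_notMem fun β hβ => ?_
          have h2 : β z ≤ β.degree := Finsupp.le_degree z β
          have h3 : β.degree = e := hβ.1.2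
          have h4 : k < β z := hβ.2
          omega
        rw [h1, Set.ncard_empty]
        exact Nat.zero_le _
    · rw [dist_pred c hj α h0]
      exact hs


end Vale.Agent.P200.B
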