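import Vale.Agent.P200.B.KGr

/-! Leading monomials of a unitriangular family. -/

open Module Finset

namespace Vale.Agent.P200.B

universe u

variable {D ι B : Type*} [DivisionRing D] [LinearOrder B] {κ : ι → B} {w : ι → ℕ} {A s : Set ι}
  {f : (ι →₀ D) →ₗ[D] (ι →₀ D)}

/-- the projection onto the weights above `k` -/
noncomputable def prZs (D : Type*) [DivisionRing D] (w : ι → ℕ) (k : ℕ) :
    (ι →₀ D) →ₗ[D] (ι →₀ D) where
  toFun := Finsupp.filter fun β => k < w β
  map_add' _ _ := Finsupp.filter_add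
  map_smul' _ _ := Finsupp.filter_smul

theorem prZs_apply (k : ℕ) (u : ι →₀ D) (β : ι) :
    prZs D w k u β = if k < w β then u β else 0 := rfl

theorem map_eq_Zs (f : (ι →₀ D) →ₗ[D] (ι →₀ D)) (A : Set ι) : (Finsupp.supported D D A).map f =
    Submodule.span D ((fun α => f (Finsupp.single α 1)) '' A) := by
  rw [Finsupp.supported_eq_span_single, Submodule.map_span, Set.image_image]

theorem fin_Zs (hA : A.Finite) (f : (ι →₀ D) →ₗ[D] (ι →₀ D)) :
    ∃ s : Set ι, s.Finite ∧ (Finsupp.supported D D A).map f ≤ Finsupp.supported D D s := by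
  rw [map_eq_Zs]
  exact ⟨_, (hA.image _).biUnion fun (x : ι →₀ D) _ => x.support.finite_toSet,
    Finsupp.span_le_supported_biUnion_support D _⟩

theorem low_Zs (hκ : Function.Injective κ) (hw : ∀ α β, w β < w α → κ α < κ β)
    {U : Submodule D (ι →₀ D)} (hs : s.Finite) (hU : U ≤ Finsupp.supported D D s) (k : ℕ) :
    {β | β ∈ inS κ U ∧ k < w β}.ncard ≤
      finrank D ↥(U ⊓ Finsupp.supported D D {β | k < w β}) := by
  rw [← ncard_inS hκ hs (inf_le_left.trans hU)]
  refine Set.ncard_le_ncard ?_ (hs.subset ?_)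
  · rintro β ⟨⟨u, hu, h0, hl⟩, hk⟩
    refine ⟨u, ⟨hu, (Finsupp.mem_supported' _ _).2 fun γ hγ => hl γ (hw _ _ ?_)⟩, h0, hl⟩
    exact lt_of_le_of_lt (not_lt.1 hγ) hk
  · rintro β ⟨u, hu, h0, -⟩
    exact (Finsupp.mem_supported D u).1 (hU hu.1) (Finsupp.mem_support_iff.2 h0)

theorem mid_Zs (U : Submodule D (ι →₀ D)) (k : ℕ) :
    U ⊓ Finsupp.supported D D {β | k < w β} ≤ U.map (prZs D w k) := fun u hu =>
  ⟨u, hu.1, Finsupp.ext fun β => by
    rw [prZs_apply]
    split_ifs with hβ
    · rfl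
    · exact ((Finsupp.mem_supported' _ _).1 hu.2 β hβ).symm⟩

theorem top_Zs (hA : A.Finite)
    (h : ∀ α ∈ A, ∀ β, f (Finsupp.single α 1) β ≠ 0 → β = α ∨ w β < w α) (k : ℕ) :
    finrank D (((Finsupp.supported D D A).map f).map (prZs D w k)) ≤
      {α | α ∈ A ∧ k < w α}.ncard := by
  have hf : {α | α ∈ A ∧ k < w α}.Finite := hA.subset fun _ h => h.1
  have := supported_finite (D := D) hf
  have hle : ((Finsupp.supported D D A).map f).map (prZs D w k) ≤
      (Finsupp.supported D D {α | α ∈ A ∧ k < w α}).map (prZs D w k ∘ₗ f) := by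
    rw [← Submodule.map_comp, map_eq_Zs, map_eq_Zs, Submodule.span_le]
    rintro _ ⟨α, hα, rfl⟩
    by_cases hk : k < w α
    · exact Submodule.subset_span ⟨α, ⟨hα, hk⟩, rfl⟩
    · have e : (prZs D w k ∘ₗ f) (Finsupp.single α 1) = 0 := Finsupp.ext fun β => by
        rw [LinearMap.comp_apply, prZs_apply]
        split_ifs with hβ
        · by_contra h0
          rcases h α hα β h0 with rfl | h1
          · exact hk hβ
          · exact hk (hβ.trans h1)
        · rfl
      show (prZs D w k ∘ₗ f) (Finsupp.single α 1) ∈ Submodule.span D _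
      rw [e]
      exact Submodule.zero_mem _
  rw [← supported_finrank (D := D)]
  exact (Submodule.finrank_mono hle).trans (Submodule.finrank_map_le _ _)

theorem ncard_inS_le (hκ : Function.Injective κ) (hw : ∀ α β, w β < w α → κ α < κ β)
    (hA : A.Finite) (h : ∀ α ∈ A, ∀ β, f (Finsupp.single α 1) β ≠ 0 → β = α ∨ w β < w α) (k : ℕ) :
    {β | β ∈ inS κ ((Finsupp.supported D D A).map f) ∧ k < w β}.ncard ≤
      {α | α ∈ A ∧ k < w α}.ncard := by
  obtain ⟨s, hs, hU⟩ := fin_Zs hA f
  have := supported_finite (D := D) hA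
  exact (low_Zs hκ hw hs hU k).trans
    ((Submodule.finrank_mono (mid_Zs _ k)).trans (top_Zs hA h k))

theorem supp_of_eq (hκ : Function.Injective κ) (hw : ∀ α β, w β < w α → κ α < κ β)
    (hA : A.Finite) (h : ∀ α ∈ A, ∀ β, f (Finsupp.single α 1) β ≠ 0 → β = α ∨ w β < w α)
    (h1 : ∀ α ∈ A, f (Finsupp.single α 1) α ≠ 0)
    (he : ∀ k, {α | α ∈ A ∧ k < w α}.ncard ≤
      {β | β ∈ inS κ ((Finsupp.supported D D A).map f) ∧ k < w β}.ncard) :
    ∀ α ∈ A, ∀ β, f (Finsupp.single α 1) β ≠ 0 → β ∈ A := by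
  obtain ⟨s, hs, hU⟩ := fin_Zs hA f
  have := supported_finite (D := D) hA
  have hm : ∀ α ∈ A, f (Finsupp.single α 1) ∈ (Finsupp.supported D D A).map f := fun α hα =>
    Submodule.mem_map_of_mem (Finsupp.single_mem_supported D 1 hα)
  have hp : ∀ k, ∀ u ∈ (Finsupp.supported D D A).map f,
      prZs D w k u ∈ (Finsupp.supported D D A).map f := fun k u hu => by
    have e := Submodule.eq_of_le_of_finrank_le (mid_Zs (w := w) ((Finsupp.supported D D A).map f) k)
      ((top_Zs hA h k).trans ((he k).trans (low_Zs hκ hw hs hU k)))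
    have h2 := Submodule.mem_map_of_mem (f := prZs D w k) hu
    rw [← e] at h2
    exact h2.1
  have hle : Finsupp.supported D D A ≤ (Finsupp.supported D D A).map f := by
    conv_lhs => rw [Finsupp.supported_eq_span_single]
    rw [Submodule.span_le]
    rintro _ ⟨α, hα, rfl⟩
    have key : ∀ u ∈ (Finsupp.supported D D A).map f, u α ≠ 0 → (∀ β, u β ≠ 0 → β = α) →
        Finsupp.single α (1 : D) ∈ (Finsupp.supported D D A).map f := fun u hu h0 hz => by
      have e : Finsupp.single α (1 : D) = (u α)⁻¹ • u := Finsupp.ext fun β => by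
        rw [Finsupp.smul_apply, smul_eq_mul]
        by_cases hβ : β = α
        · rw [hβ, Finsupp.single_eq_same, inv_mul_cancel₀ h0]
        · rw [Finsupp.single_eq_of_ne hβ, not_not.1 (mt (hz β) hβ), mul_zero]
      rw [e]
      exact Submodule.smul_mem _ _ hu
    rcases Nat.eq_zero_or_pos (w α) with h0 | h0
    · exact key _ (hm α hα) (h1 α hα) fun β hβ => (h α hα β hβ).resolve_right (by omega)
    · refine key _ (hp (w α - 1) _ (hm α hα)) ?_ fun β hβ => ?_
      · rw [prZs_apply, if_pos (by omega)]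
        exact h1 α hα
      · rw [prZs_apply] at hβ
        split_ifs at hβ with hk
        · exact (h α hα β hβ).resolve_right (by omega)
        · exact absurd rfl hβ
  have e := Submodule.eq_of_le_of_finrank_le hle (Submodule.finrank_map_le _ _)
  intro α hα β hβ
  have h2 := hm α hα
  rw [← e] at h2
  exact (Finsupp.mem_supported D _).1 h2 (Finsupp.mem_support_iff.2 hβ)

end Vale.Agent.P200.B
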